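import Vale.Agent.P100.Mass

open MeasureTheory Set
open scoped ENNReal

namespace Vale.Agent.P100

set_option linter.unusedSectionVars false

variable {Θ : Type} [MetricSpace Θ] [CompactSpace Θ] [MeasurableSpace Θ] [BorelSpace Θ]
  {σ : Measure Θ} [IsFiniteMeasure σ] {k : Θ → Θ → ℝ → ℝ} {m p q e e' CK : ℝ} {N : ℕ}
  {W Z f g : Θ → ℝ → ℝ}

lemma bal_exp_int (hm : 0 < m) {C : ℝ} (hC : 0 ≤ C) (y : ℝ) :
    ∫⁻ t, ENNReal.ofReal (C * Real.exp (-(m * |y - t|))) = ENNReal.ofReal (C * (2 / m)) := by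
  have h1 : ∫ t : ℝ, Real.exp (-m * |t|) = 2 / m := by
    rw [integral_comp_abs (f := fun x => Real.exp (-m * x)),
      integral_exp_mul_Ioi (neg_lt_zero.2 hm), mul_zero, Real.exp_zero, neg_div_neg_eq]
    ring
  have h2 : Integrable fun t : ℝ => Real.exp (-m * |t|) :=
    Integrable.of_integral_ne_zero (by rw [h1]; positivity)
  rw [lintegral_sub_left_eq_self (fun t => ENNReal.ofReal (C * Real.exp (-(m * |t|)))) y, ← h1,
    ← integral_const_mul, ofReal_integral_eq_lintegral_ofReal (h2.const_mul C)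
      (ae_of_all _ fun t => by positivity)]
  simp only [neg_mul]

lemma bal_meas (hf : Continuous (fun z : Θ × ℝ => f z.1 z.2)) :
    Measurable fun z : Θ × ℝ => ENNReal.ofReal (f z.1 z.2) :=
  hf.measurable.ennreal_ofReal

lemma bal_meas_k (hk : Ker σ m N CK k) :
    Measurable fun u : (Θ × ℝ) × (Θ × ℝ) =>
      ENNReal.ofReal (k u.1.1 u.2.1 (u.1.2 - u.2.2)) :=
  (hk.meas.comp (f := fun u : (Θ × ℝ) × (Θ × ℝ) => (u.1.1, u.2.1, u.1.2 - u.2.2))
    (by fun_prop)).ennreal_ofReal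

lemma bal_pot (hk : Ker σ m N CK k) (hg : Continuous (fun z : Θ × ℝ => g z.1 z.2)) (z : Θ × ℝ) :
    pot σ k g z.1 z.2 = ∫⁻ w : Θ × ℝ, ENNReal.ofReal (k z.1 w.1 (z.2 - w.2))
      * ENNReal.ofReal (g w.1 w.2) ∂(σ.prod volume) := by
  rw [lintegral_prod]
  · rfl
  · exact (((bal_meas_k hk).comp measurable_prodMk_left).mul (bal_meas hg)).aemeasurable

lemma bal_lm (hf : Continuous (fun z : Θ × ℝ => f z.1 z.2))
    (hZ : Continuous (fun z : Θ × ℝ => Z z.1 z.2)) (h0 : ∀ θ s, 0 ≤ f θ s) (S : ℝ) :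
    lm σ f Z (Iio S) = ∫⁻ z : Θ × ℝ, (Iio S).indicator 1 z.2 * (ENNReal.ofReal (f z.1 z.2)
      * ENNReal.ofReal (Z z.1 z.2)) ∂(σ.prod volume) := by
  rw [lintegral_prod]
  · refine lintegral_congr fun θ => ?_
    rw [← lintegral_indicator measurableSet_Iio]
    refine lintegral_congr fun s => ?_
    by_cases hs : s ∈ Iio S
    · rw [indicator_of_mem hs, indicator_of_mem hs, Pi.one_apply, one_mul,
        ENNReal.ofReal_mul (h0 θ s)]
    · rw [indicator_of_notMem hs, indicator_of_notMem hs, zero_mul]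
  · exact (((measurable_one.indicator measurableSet_Iio).comp measurable_snd).mul
      ((bal_meas hf).mul (bal_meas hZ))).aemeasurable

lemma bal_meas_exp (m S : ℝ) :
    Measurable fun z : Θ × ℝ => ENNReal.ofReal (Real.exp (-(m * |z.2 - S|))) :=
  Measurable.ennreal_ofReal (by fun_prop)

lemma bal_Phi (hf : Continuous (fun z : Θ × ℝ => f z.1 z.2)) (m S : ℝ) :
    Phi σ m f S = ∫⁻ z : Θ × ℝ, ENNReal.ofReal (Real.exp (-(m * |z.2 - S|)))
      * ENNReal.ofReal (f z.1 z.2) ∂(σ.prod volume) := by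
  rw [lintegral_prod]
  · rfl
  · exact ((bal_meas_exp m S).mul (bal_meas hf)).aemeasurable

lemma bal_ker (hk : Ker σ m N CK k) (S : ℝ) {ρ : ℝ} (hρ : 0 < ρ) (hρ1 : ρ ≤ 1) (θ θ' : Θ)
    (s t : ℝ) :
    (Iio (S - ρ)).indicator 1 s * ENNReal.ofReal (k θ θ' (s - t))
      ≤ (Iio S).indicator 1 t * ENNReal.ofReal (k θ' θ (t - s))
        + ENNReal.ofReal (CK * ρ⁻¹ ^ N) * (ENNReal.ofReal (Real.exp (-(m * |s - S|)))
          * ENNReal.ofReal (Real.exp (-(m * |t - S|)))) := by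
  by_cases hs : s ∈ Iio (S - ρ)
  · rw [indicator_of_mem hs, Pi.one_apply, one_mul]
    by_cases ht : t ∈ Iio S
    · rw [indicator_of_mem ht, Pi.one_apply, one_mul, hk.symm θ' θ, ← neg_sub s t, hk.even]
      exact le_self_add
    · refine le_add_left ?_
      rw [mem_Iio] at hs ht
      have h1 : |s - t| = |s - S| + |t - S| := by
        rw [abs_of_nonpos (by linarith), abs_of_nonpos (by linarith), abs_of_nonneg (by linarith)]
        ring
      have h2 := hk.upper ρ hρ hρ1 θ θ' (s - t) (by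
        rw [abs_of_nonpos (by linarith)]
        linarith)
      rw [← ENNReal.ofReal_mul (Real.exp_pos _).le, ← Real.exp_add,
        ← ENNReal.ofReal_mul (by have := hk.CK_pos; positivity)]
      refine ENNReal.ofReal_le_ofReal (h2.trans (le_of_eq ?_))
      rw [h1, mul_add, neg_add]
  · rw [indicator_of_notMem hs, zero_mul]
    exact zero_le

lemma bal_meas_int (hk : Ker σ m N CK k) :
    Measurable fun u : Θ × Θ => ∫⁻ t, ENNReal.ofReal (k u.1 u.2 t) :=
  Measurable.lintegral_prod_right' (f := fun u : (Θ × Θ) × ℝ => ENNReal.ofReal (k u.1.1 u.1.2 u.2))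
    (hk.meas.comp (f := fun u : (Θ × Θ) × ℝ => (u.1.1, u.1.2, u.2)) (by fun_prop)).ennreal_ofReal

lemma bal_line (hk : Ker σ m N CK k) {G : ℝ → ℝ} (hG : Continuous G) (θ θ' : Θ) {c₀ ρ l y : ℝ}
    (hρ : 0 < ρ) (hρ1 : ρ ≤ 1) (hy : y ∈ Icc (c₀ - (l - ρ)) (c₀ + (l - ρ))) :
    ENNReal.ofReal (hh G c₀ l) * ∫⁻ t, ENNReal.ofReal (k θ θ' t)
      ≤ pt (k θ θ') G y
        + ENNReal.ofReal (CK * ρ⁻¹ ^ N * (2 / m)) * ENNReal.ofReal (hh G c₀ l) := by
  have hC : 0 ≤ CK * ρ⁻¹ ^ N := by have := hk.CK_pos; positivity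
  rw [← lintegral_sub_left_eq_self (fun t => ENNReal.ofReal (k θ θ' t)) y,
    ← bal_exp_int hk.m_pos hC y, ← lintegral_const_mul' _ _ ENNReal.ofReal_ne_top,
    ← lintegral_mul_const' _ _ ENNReal.ofReal_ne_top, pt,
    ← lintegral_add_right _ (Measurable.mul_const (Measurable.ennreal_ofReal (by fun_prop)) _)]
  refine lintegral_mono fun t => ?_
  rw [mul_comm]
  by_cases ht : t ∈ Icc (c₀ - l) (c₀ + l)
  · exact le_add_right (mul_le_mul_right (ENNReal.ofReal_le_ofReal (hh_le hG ht)) _)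
  · refine le_add_left (mul_le_mul_left (ENNReal.ofReal_le_ofReal
      (hk.upper ρ hρ hρ1 θ θ' _ ?_)) _)
    rw [mem_Icc, not_and_or, not_le, not_le] at ht
    rw [le_abs]
    rcases ht with ht | ht
    · left
      linarith [hy.1]
    · right
      linarith [hy.2]

lemma bal_src (h : Half σ k m p e W Z) (θ : Θ) {c₀ l y H : ℝ} (hy : y ∈ Icc (c₀ - l) (c₀ + l))
    (hH : H ≤ src e p Z θ y) :
    H * Z θ y ≤ Real.exp (|e| / p * l)
      * (src e p Z θ y ^ (1 + p⁻¹) * Real.exp (-(e / p * c₀))) := by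
  have hp := h.p_pos
  have hZ := h.pos θ y
  have hF := h.src_pos θ y
  have h1 : src e p Z θ y ^ p⁻¹ = Real.exp (e * y * p⁻¹) * Z θ y := by
    rw [src, Real.mul_rpow (Real.exp_pos _).le (Real.rpow_nonneg hZ.le _),
      Real.rpow_rpow_inv hZ.le hp.ne', ← Real.exp_mul]
  have h2 : e * (c₀ - y) ≤ |e| * l :=
    (le_abs_self _).trans (by
      rw [abs_mul]
      exact mul_le_mul_of_nonneg_left (abs_le.2 ⟨by linarith [hy.2], by linarith [hy.1]⟩)
        (abs_nonneg e))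
  have h3 : 1 ≤ Real.exp (|e| / p * l + e * y * p⁻¹ + -(e / p * c₀)) := by
    refine Real.one_le_exp ?_
    have : |e| / p * l + e * y * p⁻¹ + -(e / p * c₀) = (|e| * l - e * (c₀ - y)) * p⁻¹ := by
      rw [div_eq_mul_inv, div_eq_mul_inv]
      ring
    rw [this]
    exact mul_nonneg (sub_nonneg.2 h2) (inv_pos.2 hp).le
  rw [Real.rpow_add hF, Real.rpow_one, h1]
  rw [Real.exp_add, Real.exp_add] at h3
  calc H * Z θ y ≤ src e p Z θ y * Z θ y * 1 := by
        rw [mul_one]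
        exact mul_le_mul_of_nonneg_right hH hZ.le
    _ ≤ src e p Z θ y * Z θ y * (Real.exp (|e| / p * l) * Real.exp (e * y * p⁻¹)
        * Real.exp (-(e / p * c₀))) := mul_le_mul_of_nonneg_left h3 (by positivity)
    _ = _ := by ring

/-- The two masses below a height almost agree. -/
theorem balance (hk : Ker σ m N CK k) (h : Half σ k m p e W Z) (h' : Half σ k m q e' Z W)
    (S : ℝ) {ρ : ℝ} (hρ : 0 < ρ) (hρ1 : ρ ≤ 1) :
    lm σ (src e p Z) Z (Iio (S - ρ))
      ≤ lm σ (src e' q W) W (Iio S)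
        + ENNReal.ofReal (CK * ρ⁻¹ ^ N) * (Phi σ m (src e p Z) S * Phi σ m (src e' q W) S) := by
  have hf := bal_meas h.cont_src
  have hg := bal_meas h'.cont_src
  have hK := bal_meas_k hk
  have hI : ∀ T : ℝ, Measurable fun z : Θ × ℝ => (Iio T).indicator (1 : ℝ → ℝ≥0∞) z.2 := fun T =>
    (measurable_one.indicator measurableSet_Iio).comp measurable_snd
  have hA : Measurable fun u : (Θ × ℝ) × (Θ × ℝ) => (Iio S).indicator 1 u.2.2
      * (ENNReal.ofReal (src e' q W u.2.1 u.2.2) * (ENNReal.ofReal (k u.2.1 u.1.1 (u.2.2 - u.1.2))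
        * ENNReal.ofReal (src e p Z u.1.1 u.1.2))) :=
    ((hI S).comp measurable_snd).mul ((hg.comp measurable_snd).mul
      ((hK.comp measurable_swap).mul (hf.comp measurable_fst)))
  have h1 : lm σ (src e' q W) W (Iio S) = ∫⁻ z : Θ × ℝ, ∫⁻ w : Θ × ℝ, (Iio S).indicator 1 w.2
      * (ENNReal.ofReal (src e' q W w.1 w.2) * (ENNReal.ofReal (k w.1 z.1 (w.2 - z.2))
        * ENNReal.ofReal (src e p Z z.1 z.2))) ∂(σ.prod volume) ∂(σ.prod volume) := by
    rw [lintegral_lintegral_swap hA.aemeasurable,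
      bal_lm h'.cont_src h'.cont (fun θ s => (h'.src_pos θ s).le)]
    refine lintegral_congr fun w => ?_
    have hw : Measurable fun x : Θ × ℝ => ENNReal.ofReal (k w.1 x.1 (w.2 - x.2))
        * ENNReal.ofReal (src e p Z x.1 x.2) := (hK.comp (measurable_prodMk_left (x := w))).mul hf
    rw [h.rep, bal_pot hk h.cont_src w, ← lintegral_const_mul _ hw,
      ← lintegral_const_mul _ (hw.const_mul _)]
  have hEf : Measurable fun z : Θ × ℝ => ENNReal.ofReal (Real.exp (-(m * |z.2 - S|)))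
      * ENNReal.ofReal (src e p Z z.1 z.2) := (bal_meas_exp m S).mul hf
  have hEg : Measurable fun z : Θ × ℝ => ENNReal.ofReal (Real.exp (-(m * |z.2 - S|)))
      * ENNReal.ofReal (src e' q W z.1 z.2) := (bal_meas_exp m S).mul hg
  rw [h1, bal_Phi h.cont_src, bal_Phi h'.cont_src,
    ← lintegral_lintegral_mul hEf.aemeasurable hEg.aemeasurable,
    ← lintegral_const_mul' _ _ ENNReal.ofReal_ne_top,
    ← lintegral_add_left hA.lintegral_prod_right',
    bal_lm h.cont_src h.cont (fun θ s => (h.src_pos θ s).le)]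
  refine lintegral_mono fun z => ?_
  have hz : Measurable fun x : Θ × ℝ => ENNReal.ofReal (k z.1 x.1 (z.2 - x.2))
      * ENNReal.ofReal (src e' q W x.1 x.2) := (hK.comp (measurable_prodMk_left (x := z))).mul hg
  have hAz : Measurable fun w : Θ × ℝ => (Iio S).indicator 1 w.2
      * (ENNReal.ofReal (src e' q W w.1 w.2) * (ENNReal.ofReal (k w.1 z.1 (w.2 - z.2))
        * ENNReal.ofReal (src e p Z z.1 z.2))) := hA.comp measurable_prodMk_left
  rw [h'.rep, bal_pot hk h'.cont_src z, ← lintegral_const_mul _ hz,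
    ← lintegral_const_mul _ (hz.const_mul _), ← lintegral_const_mul' _ _ ENNReal.ofReal_ne_top,
    ← lintegral_add_left hAz]
  refine lintegral_mono fun w => ?_
  have h2 := mul_le_mul_left (bal_ker hk S hρ hρ1 z.1 w.1 z.2 w.2)
    (ENNReal.ofReal (src e p Z z.1 z.2) * ENNReal.ofReal (src e' q W w.1 w.2))
  refine le_of_eq_of_le ?_ (h2.trans (le_of_eq ?_))
  · ring
  · ring

/-- The interaction of the long levels is at most their cost density. -/
theorem EE_le (hk : Ker σ m N CK k) (h : Half σ k m p e W Z) (h' : Half σ k m q e' Z W)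
    (c₀ : ℝ) {ρ l : ℝ} (hρ : 0 < ρ) (hρ1 : ρ ≤ 1) (hl : ρ ≤ l) :
    EE σ k (src e p Z) (src e' q W) c₀ l
      ≤ ENNReal.ofReal (Real.exp (|e| / p * l) * mf σ e p Z c₀ (l - ρ))
        + ENNReal.ofReal (CK * ρ⁻¹ ^ N * (2 / m))
          * (HH σ (src e p Z) c₀ l * HH σ (src e' q W) c₀ l) := by
  have hfc := h.cont_src
  have hgc := h'.cont_src
  have hl0 : 0 ≤ l - ρ := sub_nonneg.2 hl
  have hfθ : ∀ θ, Continuous (src e p Z θ) := fun θ => hfc.comp (Continuous.prodMk_right θ)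
  have hgθ : ∀ θ, Continuous (src e' q W θ) := fun θ => hgc.comp (Continuous.prodMk_right θ)
  have hHf := (continuous_hh hfc c₀ l).measurable.ennreal_ofReal
  have hHg := (continuous_hh hgc c₀ l).measurable.ennreal_ofReal
  have hpos : ∀ θ, 0 < hh (src e p Z θ) c₀ (l - ρ) := fun θ => hh_pos (hfθ θ) (h.src_pos θ) hl0
  have hφ : Continuous fun θ => hh (src e p Z θ) c₀ (l - ρ) ^ (1 + p⁻¹)
      * Real.exp (-(e / p * c₀)) :=
    ((continuous_hh hfc c₀ (l - ρ)).rpow_const fun θ => Or.inl (hpos θ).ne').mul continuous_const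
  have hint := (hφ.integrable_of_hasCompactSupport (μ := σ)
    (HasCompactSupport.of_compactSpace _)).const_mul (Real.exp (|e| / p * l))
  rw [mf, ← integral_const_mul, ofReal_integral_eq_lintegral_ofReal hint
    (ae_of_all _ fun θ => by have := hpos θ; positivity), mul_left_comm, mul_comm (HH σ _ c₀ l),
    HH.eq_1 σ (src e p Z),
    ← lintegral_const_mul _ hHf, ← lintegral_add_right _ (hHf.const_mul _)]
  refine lintegral_mono fun θ => ?_
  obtain ⟨y, hy, hy'⟩ := exists_hh (c₀ := c₀) (hfθ θ) hl0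
  have hy2 : y ∈ Icc (c₀ - l) (c₀ + l) := ⟨by linarith [hy.1], by linarith [hy.2]⟩
  have h1 : ∫⁻ θ', ENNReal.ofReal (hh (src e' q W θ') c₀ l) * (∫⁻ t, ENNReal.ofReal (k θ θ' t)) ∂σ
      ≤ ENNReal.ofReal (Z θ y)
        + ENNReal.ofReal (CK * ρ⁻¹ ^ N * (2 / m)) * HH σ (src e' q W) c₀ l := by
    rw [h'.rep, pot, HH, ← lintegral_const_mul _ hHg, ← lintegral_add_right _ (hHg.const_mul _)]
    exact lintegral_mono fun θ' => bal_line hk (hgθ θ') θ θ' hρ hρ1 hy
  simp only [mul_assoc (ENNReal.ofReal (hh (src e p Z θ) c₀ l))]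
  rw [lintegral_const_mul' _ _ ENNReal.ofReal_ne_top, mul_comm _ (ENNReal.ofReal (hh _ c₀ l))]
  refine (mul_le_mul_right h1 _).trans ?_
  rw [mul_add]
  refine add_le_add ?_ le_rfl
  rw [← ENNReal.ofReal_mul (hh_pos (hfθ θ) (h.src_pos θ) (hρ.le.trans hl)).le, hy']
  exact ENNReal.ofReal_le_ofReal (bal_src h θ hy2 (hh_le (hfθ θ) hy2))

theorem EE_symm (hk : Ker σ m N CK k) (hf : Continuous (fun z : Θ × ℝ => f z.1 z.2))
    (hg : Continuous (fun z : Θ × ℝ => g z.1 z.2)) (c₀ l : ℝ) :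
    EE σ k f g c₀ l = EE σ k g f c₀ l := by
  have hHf := (continuous_hh hf c₀ l).measurable.ennreal_ofReal
  have hHg := (continuous_hh hg c₀ l).measurable.ennreal_ofReal
  rw [EE, EE, lintegral_lintegral_swap (((hHf.comp measurable_fst).mul
    (hHg.comp measurable_snd)).mul (bal_meas_int hk)).aemeasurable]
  refine lintegral_congr fun θ' => lintegral_congr fun θ => ?_
  rw [hk.symm θ θ', mul_comm (ENNReal.ofReal (hh (f θ) c₀ l))]

end Vale.Agent.P100
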