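import Vale.Agent.P100.Lev

open MeasureTheory Set
open scoped ENNReal

namespace Vale.Agent.P100

theorem cost_zero_countable {Y Y' : ℝ → ℝ} (hY : ∀ s, HasDerivAt Y (Y' s) s) :
    {s | Y s = 0 ∧ Y' s ≠ 0}.Countable := by
  apply (HereditarilyLindelofSpace.isLindelof _).countable_of_isDiscrete
  rw [isDiscrete_iff_nhdsNE]
  intro x hx
  rw [Filter.inf_principal_eq_bot]
  filter_upwards [(hY x).eventually_ne (c := 0) hx.2] with z hz hz'
  exact hz hz'.1

theorem cost_hasDerivAt_max {Y Y' : ℝ → ℝ} (hY : ∀ s, HasDerivAt Y (Y' s) s) {x : ℝ}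
    (hx : x ∉ {s | Y s = 0 ∧ Y' s ≠ 0}) :
    HasDerivAt (fun s => max (Y s) 0) ({s | 0 < Y s}.indicator Y' x) x := by
  have hcY : Continuous Y := continuous_iff_continuousAt.2 fun s => (hY s).continuousAt
  rcases lt_trichotomy (Y x) 0 with h | h | h
  · rw [indicator_of_notMem (by simpa using h.le)]
    refine (hasDerivAt_const x (0 : ℝ)).congr_of_eventuallyEq ?_
    filter_upwards [(isOpen_lt hcY continuous_const).mem_nhds h] with z hz
    exact max_eq_right (le_of_lt hz)
  · rw [indicator_of_notMem (by simp [h])]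
    have h' : Y' x = 0 := by
      by_contra h'
      exact hx ⟨h, h'⟩
    have h1 := hY x
    rw [h', hasDerivAt_iff_isLittleO] at h1
    rw [hasDerivAt_iff_isLittleO]
    refine Asymptotics.IsBigO.trans_isLittleO ?_ h1
    refine Asymptotics.IsBigO.of_bound 1 (Filter.Eventually.of_forall fun z => ?_)
    simp only [h, max_self, sub_zero, smul_zero, Real.norm_eq_abs, one_mul]
    rcases le_total (Y z) 0 with h2 | h2
    · rw [max_eq_right h2]; simp
    · rw [max_eq_left h2]
  · rw [indicator_of_mem (by simpa using h)]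
    refine (hY x).congr_of_eventuallyEq ?_
    filter_upwards [(isOpen_lt continuous_const hcY).mem_nhds h] with z hz
    exact max_eq_left (le_of_lt hz)

/-- The fundamental theorem of calculus for the positive part. -/
theorem ftc_pos_part {Y Y' : ℝ → ℝ} (hY : ∀ s, HasDerivAt Y (Y' s) s) (hc : Continuous Y')
    {a b : ℝ} (hab : a ≤ b) :
    ∫ s in Ioo a b ∩ {s | 0 < Y s}, Y' s = max (Y b) 0 - max (Y a) 0 := by
  have hcY : Continuous Y := continuous_iff_continuousAt.2 fun s => (hY s).continuousAt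
  have hm : MeasurableSet {s | 0 < Y s} := (isOpen_lt continuous_const hcY).measurableSet
  have hi : IntervalIntegrable ({s | 0 < Y s}.indicator Y') volume a b :=
    ⟨(hc.intervalIntegrable a b).1.indicator hm, (hc.intervalIntegrable a b).2.indicator hm⟩
  have h := integral_eq_of_hasDerivAt_off_countable_of_le (fun s => max (Y s) 0)
    ({s | 0 < Y s}.indicator Y') hab (cost_zero_countable hY)
    (hcY.max continuous_const).continuousOn (fun x hx => cost_hasDerivAt_max hY hx.2) hi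
  rw [← h, intervalIntegral.integral_of_le hab, integral_Ioc_eq_integral_Ioo,
    setIntegral_indicator hm]

theorem cost_int_rpow {p F : ℝ} (hp : 0 < p) (hF : 0 ≤ F) :
    ∫ c in Ioo 0 F, c ^ p⁻¹ = p / (p + 1) * F ^ (1 + p⁻¹) := by
  have hq : 0 < p⁻¹ := inv_pos.2 hp
  rw [← integral_Ioc_eq_integral_Ioo, ← intervalIntegral.integral_of_le hF,
    integral_rpow (Or.inl (by linarith)), Real.zero_rpow (by linarith), add_comm p⁻¹ 1]
  field_simp
  ring

theorem cost_root {Z f : ℝ → ℝ} {e p : ℝ} (hp : 0 < p) (h0 : ∀ s, 0 < Z s)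
    (hf : ∀ s, f s = Real.exp (e * s) * Z s ^ p) (s : ℝ) :
    f s ^ p⁻¹ * Real.exp (-(e / p * s)) = Z s := by
  rw [hf, Real.mul_rpow (Real.exp_pos _).le (Real.rpow_nonneg (h0 s).le _),
    Real.rpow_rpow_inv (h0 s).le hp.ne', ← Real.exp_mul, mul_right_comm, ← Real.exp_add]
  have : e * s * p⁻¹ + -(e / p * s) = 0 := by field_simp; ring
  rw [this, Real.exp_zero, one_mul]

theorem cost_lt_iff {Z f : ℝ → ℝ} {e p c : ℝ} (hp : 0 < p) (h0 : ∀ s, 0 < Z s)
    (hf : ∀ s, f s = Real.exp (e * s) * Z s ^ p) (hc : 0 ≤ c) (s : ℝ) :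
    c < f s ↔ 0 < Z s - c ^ p⁻¹ * Real.exp (-(e / p * s)) := by
  have hfs : 0 ≤ f s := by
    rw [hf]; exact mul_nonneg (Real.exp_pos _).le (Real.rpow_nonneg (h0 s).le _)
  rw [sub_pos, ← cost_root hp h0 hf s, mul_lt_mul_iff_left₀ (Real.exp_pos _),
    Real.rpow_lt_rpow_iff hc hfs (inv_pos.2 hp)]

/-- The slice at a fixed level. -/
theorem cost_level {Z Z' f : ℝ → ℝ} {e p c₀ δ T c : ℝ} (hp : 0 < p) (hδ : 0 ≤ δ)
    (hT : -T ≤ c₀ - δ) (hZ : ∀ s, HasDerivAt Z (Z' s) s) (hc : Continuous Z') (h0 : ∀ s, 0 < Z s)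
    (hf : ∀ s, f s = Real.exp (e * s) * Z s ^ p) (hfc : Continuous f) (hc0 : 0 < c) :
    ∫ s in {s | 0 < c ∧ c < f s ∧ -T < s ∧ s < chi f c₀ δ c},
        (Z' s + e / p * (c ^ p⁻¹ * Real.exp (-(e / p * s))))
      ≤ (Ioo 0 (hh f c₀ δ)).indicator
        (fun c => Z c₀ - c ^ p⁻¹ * Real.exp (-(e / p * c₀))) c := by
  set Y : ℝ → ℝ := fun s => Z s - c ^ p⁻¹ * Real.exp (-(e / p * s)) with hYdef
  have hcut := cut_chi (c₀ := c₀) hfc hδ c
  have hnear := abs_le.1 hcut.near
  have hY : ∀ s, HasDerivAt Y (Z' s + e / p * (c ^ p⁻¹ * Real.exp (-(e / p * s)))) s := by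
    intro s
    have h1 : HasDerivAt (fun s : ℝ => -(e / p * s)) (-(e / p * 1)) s :=
      ((hasDerivAt_id s).const_mul (e / p)).neg
    have h2 := (hZ s).sub (h1.exp.const_mul (c ^ p⁻¹))
    refine h2.congr_deriv ?_
    ring
  have hset : {s | 0 < c ∧ c < f s ∧ -T < s ∧ s < chi f c₀ δ c}
      = Ioo (-T) (chi f c₀ δ c) ∩ {s | 0 < Y s} := by
    ext s
    simp only [mem_ofPred_eq, mem_inter_iff, mem_Ioo, hYdef, ← cost_lt_iff hp h0 hf hc0.le s]
    tauto
  rw [hset, ftc_pos_part hY (by fun_prop) (by linarith [hnear.1])]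
  have hA : 0 ≤ max (Y (-T)) 0 := le_max_right _ _
  by_cases hL : c < hh f c₀ δ
  · rw [indicator_of_mem (show c ∈ Ioo 0 (hh f c₀ δ) from ⟨hc0, hL⟩)]
    obtain ⟨h1, h2⟩ := hcut.long hL
    have h3 : c < f c₀ := h2 ⟨by linarith, by linarith⟩
    have h4 : 0 < Y c₀ := (cost_lt_iff hp h0 hf hc0.le c₀).1 h3
    rw [h1, max_eq_left h4.le]
    simp only [hYdef] at hA ⊢
    linarith
  · rw [indicator_of_notMem (fun h => hL h.2)]
    have h1 : ¬ 0 < Y (chi f c₀ δ c) := fun h =>
      hcut.short hL ((cost_lt_iff hp h0 hf hc0.le _).2 h)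
    rw [max_eq_right (not_lt.1 h1)]
    linarith

/-- The slice at a fixed height. -/
theorem cost_height {Z' f : ℝ → ℝ} {e p c₀ δ T s : ℝ} (hp : 0 < p)
    (hm : MeasurableSet {c | 0 < c ∧ c < f s ∧ -T < s ∧ s < chi f c₀ δ c}) :
    ∫ c in {c | 0 < c ∧ c < f s ∧ -T < s ∧ s < chi f c₀ δ c},
        (Z' s + e / p * (c ^ p⁻¹ * Real.exp (-(e / p * s))))
      = (pm f c₀ δ T s).toReal * Z' s + e / p * Real.exp (-(e / p * s)) *
        ∫ c in {c | 0 < c ∧ c < f s ∧ -T < s ∧ s < chi f c₀ δ c}, c ^ p⁻¹ := by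
  have hsub : {c | 0 < c ∧ c < f s ∧ -T < s ∧ s < chi f c₀ δ c} ⊆ Icc 0 (f s) :=
    fun c hc => ⟨hc.1.le, hc.2.1.le⟩
  have hr : Continuous fun c : ℝ => c ^ p⁻¹ := Real.continuous_rpow_const (inv_pos.2 hp).le
  rw [integral_add ((continuous_const.integrableOn_Icc).mono_set hsub)
    ((Continuous.integrableOn_Icc (by fun_prop)).mono_set hsub), setIntegral_const,
    ← integral_const_mul]
  congr 1
  refine setIntegral_congr_fun hm fun c _ => ?_
  ring

/-- The cost of the motion along one ray. -/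
theorem cost_ray {Z Z' f : ℝ → ℝ} {e p c₀ δ T : ℝ} (hp : 0 < p) (hδ : 0 ≤ δ) (hT : -T ≤ c₀ - δ)
    (hZ : ∀ s, HasDerivAt Z (Z' s) s) (hc : Continuous Z') (h0 : ∀ s, 0 < Z s)
    (hf : ∀ s, f s = Real.exp (e * s) * Z s ^ p) :
    (∫ s in Ioo (-T) (c₀ + δ), (pm f c₀ δ T s).toReal * Z' s) - hh f c₀ δ * Z c₀
      ≤ -(e / (p + 1)) * (∫ s in Ioo (-T) (c₀ - δ), f s * Z s)
        + |e| / (p + 1) * (∫ s in Ioo (c₀ - δ) (c₀ + δ), f s * Z s)
        - p / (p + 1) * (hh f c₀ δ ^ (1 + p⁻¹) * Real.exp (-(e / p * c₀))) := by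
  have hcZ : Continuous Z := continuous_iff_continuousAt.2 fun s => (hZ s).continuousAt
  have hfc : Continuous f := by
    have : f = fun s => Real.exp (e * s) * Z s ^ p := funext hf
    rw [this]
    exact (by fun_prop : Continuous fun s => Real.exp (e * s)).mul
      ((Real.continuous_rpow_const hp.le).comp hcZ)
  have hf0 : ∀ s, 0 < f s := fun s => by
    rw [hf]; exact mul_pos (Real.exp_pos _) (Real.rpow_pos_of_pos (h0 s) _)
  have hr : Continuous fun c : ℝ => c ^ p⁻¹ := Real.continuous_rpow_const (inv_pos.2 hp).le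
  set S : Set (ℝ × ℝ) :=
    {w | 0 < w.2 ∧ w.2 < f w.1 ∧ -T < w.1 ∧ w.1 < chi f c₀ δ w.2} with hS
  have hSm : MeasurableSet S :=
    (measurableSet_lt measurable_const measurable_snd).inter
      ((measurableSet_lt measurable_snd (hfc.measurable.comp measurable_fst)).inter
        ((measurableSet_lt measurable_const measurable_fst).inter
          (measurableSet_lt measurable_fst ((measurable_chi' hfc c₀ δ).comp measurable_snd))))
  have hSs : ∀ s, MeasurableSet {c | 0 < c ∧ c < f s ∧ -T < s ∧ s < chi f c₀ δ c} :=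
    fun s => measurable_prodMk_left (x := s) hSm
  have hSc : ∀ c, MeasurableSet {s | 0 < c ∧ c < f s ∧ -T < s ∧ s < chi f c₀ δ c} :=
    fun c => measurable_prodMk_right (y := c) hSm
  set g : ℝ × ℝ → ℝ := fun w => Z' w.1 + e / p * (w.2 ^ p⁻¹ * Real.exp (-(e / p * w.1)))
    with hg
  have hgc : Continuous g := by
    have : Continuous fun w : ℝ × ℝ => w.2 ^ p⁻¹ := hr.comp continuous_snd
    rw [hg]
    fun_prop
  have hchi : ∀ c, chi f c₀ δ c ≤ c₀ + δ := fun c => by
    have := abs_le.1 (cut_chi (c₀ := c₀) hfc hδ c).near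
    linarith [this.2]
  obtain ⟨M, hM⟩ := (isCompact_Icc (a := -T) (b := c₀ + δ)).bddAbove_image hfc.continuousOn
  have hSsub : S ⊆ Icc (-T) (c₀ + δ) ×ˢ Icc 0 M := by
    intro w hw
    have h1 : w.1 ∈ Icc (-T) (c₀ + δ) := ⟨hw.2.2.1.le, hw.2.2.2.le.trans (hchi _)⟩
    exact ⟨h1, hw.1.le, hw.2.1.le.trans (hM (mem_image_of_mem f h1))⟩
  have hint : Integrable (S.indicator g) ((volume : Measure ℝ).prod volume) := by
    rw [integrable_indicator_iff hSm]
    exact (hgc.continuousOn.integrableOn_compact (isCompact_Icc.prod isCompact_Icc)).mono_set hSsub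
  have hswap : ∫ s, ∫ c, S.indicator g (s, c) = ∫ c, ∫ s, S.indicator g (s, c) :=
    integral_integral_swap (f := fun s c => S.indicator g (s, c)) hint
  have hF0 : 0 < hh f c₀ δ := hh_pos hfc hf0 hδ
  -- the level side
  have hlev : ∫ c, ∫ s, S.indicator g (s, c)
      ≤ hh f c₀ δ * Z c₀
        - p / (p + 1) * (hh f c₀ δ ^ (1 + p⁻¹) * Real.exp (-(e / p * c₀))) := by
    have hcont : Continuous fun c : ℝ => Z c₀ - c ^ p⁻¹ * Real.exp (-(e / p * c₀)) := by
      fun_prop
    calc ∫ c, ∫ s, S.indicator g (s, c)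
        ≤ ∫ c, (Ioo 0 (hh f c₀ δ)).indicator
          (fun c => Z c₀ - c ^ p⁻¹ * Real.exp (-(e / p * c₀))) c := by
          refine integral_mono hint.integral_prod_right ?_ fun c => ?_
          · rw [integrable_indicator_iff measurableSet_Ioo]
            exact hcont.integrableOn_Icc.mono_set Ioo_subset_Icc_self
          · by_cases hc0 : 0 < c
            · refine le_trans (le_of_eq ?_) (cost_level hp hδ hT hZ hc h0 hf hfc hc0)
              rw [← integral_indicator (hSc c)]
              rfl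
            · have : ∀ s, S.indicator g (s, c) = 0 := fun s =>
                indicator_of_notMem (fun h => hc0 h.1) _
              simp only [this, integral_zero]
              rw [indicator_of_notMem (fun h => hc0 h.1)]
      _ = _ := by
          rw [integral_indicator measurableSet_Ioo,
            integral_sub (continuous_const.integrableOn_Icc.mono_set Ioo_subset_Icc_self)
              ((Continuous.integrableOn_Icc (by fun_prop)).mono_set Ioo_subset_Icc_self),
            setIntegral_const, integral_mul_const, cost_int_rpow hp hF0.le]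
          simp only [Measure.real, Real.volume_Ioo, sub_zero, ENNReal.toReal_ofReal hF0.le,
            smul_eq_mul]
          ring
  -- the height side
  set A : ℝ → ℝ := fun s => ∫ c, S.indicator g (s, c) with hA
  set B : ℝ → ℝ := fun s => e / p * Real.exp (-(e / p * s)) *
    ∫ c in {c | 0 < c ∧ c < f s ∧ -T < s ∧ s < chi f c₀ δ c}, c ^ p⁻¹ with hB
  have hAB : ∀ s, (pm f c₀ δ T s).toReal * Z' s - A s = -B s := by
    intro s
    have h1 : A s = (pm f c₀ δ T s).toReal * Z' s + B s := by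
      rw [hB, ← cost_height hp (hSs s), ← integral_indicator (hSs s)]
      rfl
    rw [h1]
    ring
  have hAi : Integrable A := hint.integral_prod_left
  have hAout : ∫ s in Ioo (-T) (c₀ + δ), A s = ∫ s, A s := by
    refine setIntegral_eq_integral_of_forall_compl_eq_zero fun s hs => ?_
    have : ∀ c, S.indicator g (s, c) = 0 := fun c =>
      indicator_of_notMem (fun h => hs ⟨h.2.2.1, h.2.2.2.trans_le (hchi _)⟩) _
    simp only [hA, this, integral_zero]
  have hPi : IntegrableOn (fun s => (pm f c₀ δ T s).toReal * Z' s) (Icc (-T) (c₀ + δ)) := by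
    refine Integrable.mono' (g := fun s => f s * |Z' s|)
      (Continuous.integrableOn_Icc (by fun_prop))
      ((measurable_pm' hfc c₀ δ T).ennreal_toReal.mul hc.measurable).aestronglyMeasurable
      (Filter.Eventually.of_forall fun s => ?_)
    rw [Real.norm_eq_abs, abs_mul, abs_of_nonneg ENNReal.toReal_nonneg]
    exact mul_le_mul_of_nonneg_right (ENNReal.toReal_le_of_le_ofReal (hf0 s).le pm_le)
      (abs_nonneg _)
  have hBi : IntegrableOn (fun s => -B s) (Icc (-T) (c₀ + δ)) := by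
    have := hPi.sub hAi.integrableOn
    refine this.congr_fun (fun s _ => hAB s) measurableSet_Icc
  have hpow : ∀ s, Real.exp (-(e / p * s)) * f s ^ (1 + p⁻¹) = f s * Z s := by
    intro s
    rw [Real.rpow_add (hf0 s), Real.rpow_one, ← cost_root hp h0 hf s]
    ring
  have hsplit : ∫ s in Ioo (-T) (c₀ + δ), -B s
      = (∫ s in Ioo (-T) (c₀ - δ), -B s) + ∫ s in Ioo (c₀ - δ) (c₀ + δ), -B s := by
    have h1 : c₀ - δ ≤ c₀ + δ := by linarith
    rw [← integral_Ioc_eq_integral_Ioo, ← integral_Ioc_eq_integral_Ioo,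
      ← integral_Ioc_eq_integral_Ioo, ← Ioc_union_Ioc_eq_Ioc hT h1,
      setIntegral_union (Ioc_disjoint_Ioc_of_le le_rfl) measurableSet_Ioc]
    · exact hBi.mono_set fun s hs => ⟨hs.1.le, hs.2.trans h1⟩
    · exact hBi.mono_set fun s hs => ⟨hT.trans hs.1.le, hs.2⟩
  have hp1 : 0 < p + 1 := by linarith
  have hlow : ∫ s in Ioo (-T) (c₀ - δ), -B s
      = -(e / (p + 1)) * ∫ s in Ioo (-T) (c₀ - δ), f s * Z s := by
    rw [← integral_const_mul]
    refine setIntegral_congr_fun measurableSet_Ioo fun s hs => ?_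
    simp only [hB]
    rw [lev_set_eq hfc hδ hs, cost_int_rpow hp (hf0 s).le, ← hpow s]
    field_simp
  have hwin : ∫ s in Ioo (c₀ - δ) (c₀ + δ), -B s
      ≤ |e| / (p + 1) * ∫ s in Ioo (c₀ - δ) (c₀ + δ), f s * Z s := by
    rw [← integral_const_mul]
    refine setIntegral_mono_on (hBi.mono_set fun s hs => ⟨hT.trans hs.1.le, hs.2.le⟩)
      ((Continuous.integrableOn_Icc (by fun_prop)).mono_set Ioo_subset_Icc_self)
      measurableSet_Ioo fun s _ => ?_
    simp only [hB]
    have h1 : ∫ c in {c | 0 < c ∧ c < f s ∧ -T < s ∧ s < chi f c₀ δ c}, c ^ p⁻¹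
        ≤ p / (p + 1) * f s ^ (1 + p⁻¹) := by
      rw [← cost_int_rpow hp (hf0 s).le]
      refine setIntegral_mono_set (hr.integrableOn_Icc.mono_set Ioo_subset_Icc_self) ?_
        (LE.le.eventuallyLE fun c hc => ⟨hc.1, hc.2.1⟩)
      filter_upwards [ae_restrict_mem measurableSet_Ioo] with c hc
      exact Real.rpow_nonneg hc.1.le _
    have h2 : 0 ≤ ∫ c in {c | 0 < c ∧ c < f s ∧ -T < s ∧ s < chi f c₀ δ c}, c ^ p⁻¹ :=
      setIntegral_nonneg (hSs s) fun c hc => Real.rpow_nonneg hc.1.le _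
    set I := ∫ c in {c | 0 < c ∧ c < f s ∧ -T < s ∧ s < chi f c₀ δ c}, c ^ p⁻¹
    have h3 : -(e / p * Real.exp (-(e / p * s)) * I)
        ≤ |e| / p * Real.exp (-(e / p * s)) * I := by
      have : -(e / p) ≤ |e| / p := by
        rw [← neg_div]
        exact div_le_div_of_nonneg_right (neg_le_abs e) hp.le
      have h4 := mul_le_mul_of_nonneg_right this (mul_nonneg (Real.exp_pos (-(e / p * s))).le h2)
      linarith
    have h5 : |e| / p * Real.exp (-(e / p * s)) * I
        ≤ |e| / p * Real.exp (-(e / p * s)) * (p / (p + 1) * f s ^ (1 + p⁻¹)) :=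
      mul_le_mul_of_nonneg_left h1 (by positivity)
    refine h3.trans (h5.trans (le_of_eq ?_))
    rw [← hpow s]
    field_simp
  have hmain : (∫ s in Ioo (-T) (c₀ + δ), (pm f c₀ δ T s).toReal * Z' s)
      - ∫ s in Ioo (-T) (c₀ + δ), A s = ∫ s in Ioo (-T) (c₀ + δ), -B s := by
    rw [← integral_sub (hPi.mono_set Ioo_subset_Icc_self) hAi.integrableOn]
    exact setIntegral_congr_fun measurableSet_Ioo fun s _ => hAB s
  rw [hAout, hswap] at hmain
  linarith

end Vale.Agent.P100
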