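import Mathlib

open scoped Laplacian

namespace Vale.Agent.P100

open Filter Topology

theorem dim2_second {g g' : ℝ → ℝ} {a : ℝ} (hm : IsLocalMin g 0)
    (h1 : ∀ᶠ t in 𝓝 (0 : ℝ), HasDerivAt g (g' t) t) (h2 : HasDerivAt g' a 0) : 0 ≤ a := by
  by_contra ha
  have e : deriv g =ᶠ[𝓝 0] g' := h1.mono fun t ht => ht.deriv
  have e2 : deriv (deriv g) 0 = a := by rw [e.deriv_eq, h2.deriv]
  have hM := isLocalMax_of_deriv_deriv_neg (f := g) (x₀ := 0) (by rw [e2]; linarith)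
    hm.deriv_eq_zero h1.self_of_nhds.continuousAt
  have e3 : g =ᶠ[𝓝 0] fun _ => g 0 := (hm.and hM).mono fun t ht => le_antisymm ht.2 ht.1
  have e4 : deriv g =ᶠ[𝓝 0] fun _ => 0 := e3.deriv.trans (by simp)
  rw [e4.deriv_eq] at e2
  simp at e2
  linarith

theorem dim2_nomin {u : EuclideanSpace ℝ (Fin 2) → ℝ} (h2 : ContDiffOn ℝ 2 u {0}ᶜ)
    (hΔ : ∀ x, x ≠ 0 → (Δ u) x < 0) (c : ℝ) {x : EuclideanSpace ℝ (Fin 2)} (hx : x ≠ 0) :
    ¬ IsLocalMin (fun y => u y + c * Real.log ‖y‖) x := by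
  intro hm
  have hu : ContDiffAt ℝ 2 u x := h2.contDiffAt (isOpen_compl_singleton.mem_nhds hx)
  have hn : 0 < ‖x‖ ^ 2 := by positivity
  have key : ∀ i : Fin 2, 0 ≤ iteratedFDeriv ℝ 2 u x
      ![EuclideanSpace.basisFun (Fin 2) ℝ i, EuclideanSpace.basisFun (Fin 2) ℝ i] +
      c * ((‖x‖ ^ 2 - 2 * x i ^ 2) / (‖x‖ ^ 2) ^ 2) := by
    intro i
    set v := EuclideanSpace.basisFun (Fin 2) ℝ i with hv
    have hl : ∀ t : ℝ, HasDerivAt (fun t : ℝ => x + t • v) v t := fun t => by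
      simpa using ((hasDerivAt_id t).smul_const v).const_add x
    have hc : Tendsto (fun t : ℝ => x + t • v) (𝓝 0) (𝓝 x) := by
      simpa using (hl 0).continuousAt.tendsto
    have hsq : ∀ t : ℝ, ‖x + t • v‖ ^ 2 = ‖x‖ ^ 2 + 2 * x i * t + t ^ 2 := fun t => by
      rw [norm_add_sq_real, inner_smul_right, norm_smul, mul_pow, Real.norm_eq_abs, sq_abs, hv,
        EuclideanSpace.inner_basisFun_real, (EuclideanSpace.basisFun (Fin 2) ℝ).orthonormal.1 i]
      ring
    have hq : ∀ t : ℝ, HasDerivAt (fun t : ℝ => ‖x‖ ^ 2 + 2 * x i * t + t ^ 2) (2 * x i + 2 * t) t :=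
      fun t => ((((hasDerivAt_id' t).const_mul (2 * x i)).const_add (‖x‖ ^ 2)).fun_add
          (hasDerivAt_pow 2 t)).congr_deriv (by simp)
    have hpos : ∀ᶠ t in 𝓝 (0 : ℝ), 0 < ‖x‖ ^ 2 + 2 * x i * t + t ^ 2 :=
      (hq 0).continuousAt.eventually (lt_mem_nhds (by simpa using hn))
    have hm' : IsLocalMin (fun t : ℝ => u (x + t • v) +
        c * (Real.log (‖x‖ ^ 2 + 2 * x i * t + t ^ 2) / 2)) 0 := by
      have h3 : IsLocalMin (fun y => u y + c * Real.log ‖y‖) (x + (0 : ℝ) • v) := by simpa using hm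
      have h4 := h3.comp_continuous (g := fun t : ℝ => x + t • v) (hl 0).continuousAt
      refine h4.congr (Eventually.of_forall fun t => ?_)
      simp only [Function.comp, ← hsq, Real.log_pow]
      norm_num
    have hd : ∀ᶠ y in 𝓝 x, DifferentiableAt ℝ u y :=
      (hu.eventually (by simp)).mono fun y hy => hy.differentiableAt (by simp)
    have hf : HasFDerivAt (fderiv ℝ u) (fderiv ℝ (fderiv ℝ u) x) (x + (0 : ℝ) • v) := by
      simpa using ((hu.fderiv_right (m := 1) (by norm_num)).differentiableAt (by simp)).hasFDerivAt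
    refine dim2_second (g' := fun t => fderiv ℝ u (x + t • v) v +
      c * ((2 * x i + 2 * t) / (‖x‖ ^ 2 + 2 * x i * t + t ^ 2) / 2)) hm' ?_ ?_
    · filter_upwards [hc.eventually hd, hpos] with t h3 h4
      exact (HasFDerivAt.comp_hasDerivAt (l := u) (f := fun t : ℝ => x + t • v) t h3.hasFDerivAt
        (hl t)).fun_add ((((hq t).log h4.ne').div_const 2).const_mul c)
    · have h5' : HasDerivAt (fun t : ℝ => fderiv ℝ u (x + t • v)) (fderiv ℝ (fderiv ℝ u) x v) 0 :=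
        HasFDerivAt.comp_hasDerivAt (l := fderiv ℝ u) (f := fun t : ℝ => x + t • v) 0 hf (hl 0)
      have h5 := h5'.clm_apply (hasDerivAt_const (0 : ℝ) v)
      have h6 : HasDerivAt (fun t : ℝ => 2 * x i + 2 * t) 2 0 := by
        simpa using ((hasDerivAt_id (0 : ℝ)).const_mul 2).const_add (2 * x i)
      have h7 := ((h6.fun_div (hq 0) (by simpa using hx)).div_const 2).const_mul c
      refine (h5.fun_add h7).congr_deriv ?_
      rw [iteratedFDeriv_two_apply]
      simp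
      left
      field_simp
  have h3 := hΔ x hx
  rw [InnerProductSpace.laplacian_eq_iteratedFDeriv_orthonormalBasis u
    (EuclideanSpace.basisFun (Fin 2) ℝ)] at h3
  beta_reduce at h3
  rw [Fin.sum_univ_two] at h3
  have h4 := key 0
  have h5 := key 1
  have h6 : ‖x‖ ^ 2 = x 0 ^ 2 + x 1 ^ 2 := by
    rw [EuclideanSpace.real_norm_sq_eq, Fin.sum_univ_two]
  have h7 : (‖x‖ ^ 2 - 2 * x 1 ^ 2) / (‖x‖ ^ 2) ^ 2 = -((‖x‖ ^ 2 - 2 * x 0 ^ 2) / (‖x‖ ^ 2) ^ 2) := by
    rw [← neg_div]; congr 1; linarith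
  rw [h7] at h5
  linarith

theorem dim2_annulus {u : EuclideanSpace ℝ (Fin 2) → ℝ} (hu : Continuous u)
    (h2 : ContDiffOn ℝ 2 u {0}ᶜ) (hΔ : ∀ x, x ≠ 0 → (Δ u) x < 0) (c a b : ℝ) (ha : 0 < a)
    {x : EuclideanSpace ℝ (Fin 2)} (h3 : a ≤ ‖x‖) (h4 : ‖x‖ ≤ b) :
    ∃ y, (‖y‖ = a ∨ ‖y‖ = b) ∧ u y + c * Real.log ‖y‖ ≤ u x + c * Real.log ‖x‖ := by
  have hK : IsCompact {y : EuclideanSpace ℝ (Fin 2) | a ≤ ‖y‖ ∧ ‖y‖ ≤ b} :=
    (isCompact_closedBall 0 b).of_isClosed_subset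
      ((isClosed_le continuous_const continuous_norm).inter
        (isClosed_le continuous_norm continuous_const)) fun y hy => by simpa using hy.2
  obtain ⟨y, hy, hm⟩ := hK.exists_isMinOn (f := fun y => u y + c * Real.log ‖y‖) ⟨x, h3, h4⟩
    (hu.continuousOn.add (continuousOn_const.mul (continuous_norm.continuousOn.log
      fun y hy => (ha.trans_le hy.1).ne')))
  refine ⟨y, ?_, hm ⟨h3, h4⟩⟩
  by_contra h
  rw [not_or] at h
  refine dim2_nomin h2 hΔ c (x := y) (norm_pos_iff.1 (ha.trans_le hy.1)) (hm.isLocalMin ?_)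
  have h5 : IsOpen {y : EuclideanSpace ℝ (Fin 2) | a < ‖y‖ ∧ ‖y‖ < b} :=
    (isOpen_lt continuous_const continuous_norm).inter (isOpen_lt continuous_norm continuous_const)
  exact mem_of_superset (h5.mem_nhds ⟨lt_of_le_of_ne hy.1 (Ne.symm h.1), lt_of_le_of_ne hy.2 h.2⟩)
    fun z hz => ⟨hz.1.le, hz.2.le⟩

/-- There is no positive strictly superharmonic function on the punctured plane that is
continuous at the origin. -/
theorem dim_two {u : EuclideanSpace ℝ (Fin 2) → ℝ} (hu : Continuous u)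
    (h2 : ContDiffOn ℝ 2 u {0}ᶜ) (h0 : ∀ x, 0 < u x) (hΔ : ∀ x, x ≠ 0 → (Δ u) x < 0) : False := by
  obtain ⟨x1, hx1, hm⟩ := (isCompact_sphere (0 : EuclideanSpace ℝ (Fin 2)) 1).exists_isMinOn
    (NormedSpace.sphere_nonempty.2 zero_le_one) hu.continuousOn
  have hs : ∀ y : EuclideanSpace ℝ (Fin 2), ‖y‖ = 1 → u x1 ≤ u y := fun y hy => hm (by simpa)
  have key : ∀ x, x ≠ 0 → ∀ ε : ℝ, 0 < ε → u x1 ≤ u x + ε * |Real.log ‖x‖| := by
    intro x hx ε hε
    have hn : 0 < ‖x‖ := norm_pos_iff.2 hx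
    rcases le_total 1 ‖x‖ with h | h
    · obtain ⟨y, hy, h3⟩ := dim2_annulus hu h2 hΔ ε 1 (max ‖x‖ (Real.exp (u x1 / ε))) one_pos h
        (le_max_left _ _)
      rw [abs_of_nonneg (Real.log_nonneg h)]
      refine le_trans ?_ h3
      rcases hy with hy | hy
      · simpa [hy] using hs y hy
      · have h4 : u x1 / ε ≤ Real.log ‖y‖ := by
          rw [Real.le_log_iff_exp_le (by rw [hy]; positivity), hy]; exact le_max_right _ _
        rw [div_le_iff₀ hε] at h4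
        linarith [h0 y]
    · obtain ⟨y, hy, h3⟩ := dim2_annulus hu h2 hΔ (-ε) (min ‖x‖ (Real.exp (-(u x1 / ε)))) 1
        (by positivity) (min_le_left _ _) h
      rw [abs_of_nonpos (Real.log_nonpos hn.le h)]
      refine le_trans ?_ (h3.trans_eq (by ring))
      rcases hy with hy | hy
      · have h4 : Real.log ‖y‖ ≤ -(u x1 / ε) := by
          rw [Real.log_le_iff_le_exp (by rw [hy]; positivity), hy]; exact min_le_right _ _
        rw [← neg_div, le_div_iff₀ hε] at h4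
        linarith [h0 y]
      · simpa [hy] using hs y hy
  have h1 : x1 ≠ 0 := by rintro rfl; simp at hx1
  refine dim2_nomin h2 hΔ 0 h1 ?_
  filter_upwards [isOpen_compl_singleton.mem_nhds h1] with x hx
  simp only [zero_mul, add_zero]
  refine le_of_forall_pos_le_add fun ε hε => ?_
  have h3 := key x hx (ε / (|Real.log ‖x‖| + 1)) (by positivity)
  have h4 : ε / (|Real.log ‖x‖| + 1) * |Real.log ‖x‖| ≤ ε := by
    rw [div_mul_eq_mul_div, div_le_iff₀ (by positivity)]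
    linarith
  linarith

end Vale.Agent.P100
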