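import Vale.Agent.P100.Lev

open MeasureTheory Set
open scoped ENNReal

namespace Vale.Agent.P100

variable {Θ : Type} [MetricSpace Θ] [CompactSpace Θ] [MeasurableSpace Θ] [BorelSpace Θ]
  {σ : Measure Θ} [IsFiniteMeasure σ] {k : Θ → Θ → ℝ → ℝ} {m p q e e' CK : ℝ} {N : ℕ}
  {W Z f g : Θ → ℝ → ℝ}

set_option linter.unusedSectionVars false

theorem Mass_integrable {F : Θ → ℝ} (hF : Continuous F) : Integrable F σ :=
  integrableOn_univ.1 (hF.continuousOn.integrableOn_compact isCompact_univ)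

theorem Mass_cont_int (hF : Continuous (fun z : Θ × ℝ => f z.1 z.2)) (a b : ℝ) :
    Continuous fun θ => ∫ s in Ioo a b, f θ s := by
  simp only [← integral_Icc_eq_integral_Ioo]
  exact continuous_parametric_integral_of_continuous hF isCompact_Icc

theorem Mass_intOn (hF : Continuous (fun z : Θ × ℝ => f z.1 z.2)) (θ : Θ) (a b : ℝ) :
    IntegrableOn (f θ) (Ioo a b) :=
  ((hF.comp (Continuous.prodMk_right θ)).continuousOn.integrableOn_compact isCompact_Icc).mono_set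
    Ioo_subset_Icc_self

theorem Mass_lint_Ioo (hF : Continuous (fun z : Θ × ℝ => f z.1 z.2)) (h0 : ∀ θ s, 0 ≤ f θ s)
    (a b : ℝ) : ∫⁻ θ, (∫⁻ s in Ioo a b, ENNReal.ofReal (f θ s)) ∂σ =
      ENNReal.ofReal (∫ θ, (∫ s in Ioo a b, f θ s) ∂σ) := by
  rw [ofReal_integral_eq_lintegral_ofReal (Mass_integrable (Mass_cont_int hF a b))
    (ae_of_all _ fun θ => integral_nonneg (h0 θ))]
  exact lintegral_congr fun θ =>
    (ofReal_integral_eq_lintegral_ofReal (Mass_intOn hF θ a b) (ae_of_all _ (h0 θ))).symm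

theorem Half.cont_src (h : Half σ k m p e W Z) :
    Continuous (fun z : Θ × ℝ => src e p Z z.1 z.2) :=
  (Real.continuous_exp.comp (continuous_const.mul continuous_snd)).mul
    (h.cont.rpow_const fun _ => Or.inr h.p_pos.le)

theorem Half.src_pos (h : Half σ k m p e W Z) (θ : Θ) (s : ℝ) : 0 < src e p Z θ s :=
  mul_pos (Real.exp_pos _) (Real.rpow_pos_of_pos (h.pos θ s) _)

theorem Half.Mass_bd (h : Half σ k m p e W Z) (hm : 0 < m) : ∃ C : ℝ, 0 < C ∧ ∀ θ s, s ≤ 0 →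
    src e p Z θ s ≤ C * Real.exp (m * s) ∧ src e p Z θ s * Z θ s ≤ C * Real.exp (m * s) := by
  obtain ⟨C, hC, hb⟩ := h.bd
  have h1 : 0 < C ^ p := Real.rpow_pos_of_pos hC p
  refine ⟨C ^ p * (C + 1), by positivity, fun θ s hs => ?_⟩
  have a1 : src e p Z θ s ≤ C ^ p * Real.exp (m * s) := by
    have b1 := Real.rpow_le_rpow (h.pos θ s).le (hb θ s hs) h.p_pos.le
    rw [Real.mul_rpow hC.le (Real.exp_pos _).le, ← Real.exp_mul] at b1
    refine (mul_le_mul_of_nonneg_left b1 (Real.exp_pos _).le).trans ?_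
    rw [mul_left_comm, ← Real.exp_add]
    exact mul_le_mul_of_nonneg_left (Real.exp_le_exp.2 (by nlinarith [h.ex])) h1.le
  have a2 : Z θ s ≤ C := (hb θ s hs).trans (mul_le_of_le_one_right hC.le
    (Real.exp_le_one_iff.2 (by nlinarith)))
  have a3 : 0 < C ^ p * Real.exp (m * s) := by positivity
  exact ⟨by nlinarith, by nlinarith [mul_le_mul a1 a2 (h.pos θ s).le a3.le]⟩

theorem Mass_small {C ε : ℝ} (hm : 0 < m) (hε : 0 < ε) :
    ∃ T₀ : ℝ, 0 ≤ T₀ ∧ ∀ s, s ≤ -T₀ → C * Real.exp (m * s) ≤ ε := by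
  refine ⟨|C| / (ε * m), by positivity, fun s hs => ?_⟩
  have h1 : |C| / ε ≤ -(m * s) := by
    have := mul_le_mul_of_nonneg_left hs hm.le
    rw [mul_neg, show m * (|C| / (ε * m)) = |C| / ε by field_simp] at this
    linarith
  have h2 : |C| / ε ≤ Real.exp (-(m * s)) := by linarith [Real.add_one_le_exp (-(m * s))]
  rw [div_le_iff₀ hε, Real.exp_neg, inv_mul_eq_div, le_div_iff₀ (Real.exp_pos _)] at h2
  exact (mul_le_mul_of_nonneg_right (le_abs_self C) (Real.exp_pos _).le).trans h2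

/-- The source is small far to the left. -/
theorem Half.src_small (h : Half σ k m p e W Z) (hm : 0 < m) {ε : ℝ} (hε : 0 < ε) :
    ∃ T₀ : ℝ, ∀ θ s, s ≤ -T₀ → src e p Z θ s ≤ ε := by
  obtain ⟨C, -, hb⟩ := h.Mass_bd hm
  obtain ⟨T, hT, h1⟩ := Mass_small (C := C) hm hε
  exact ⟨T, fun θ s hs => (hb θ s (by linarith)).1.trans (h1 s hs)⟩

theorem Mass_lint_exp {C : ℝ} (hC : 0 ≤ C) (hm : 0 < m) (a : ℝ) :
    ∫⁻ s in Iio a, ENNReal.ofReal (C * Real.exp (m * s)) =
      ENNReal.ofReal (C / m * Real.exp (m * a)) := by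
  rw [setLIntegral_congr Iio_ae_eq_Iic, ← ofReal_integral_eq_lintegral_ofReal
    ((integrableOn_exp_mul_Iic hm a).const_mul C) (ae_of_all _ fun s => by positivity),
    integral_const_mul, integral_exp_mul_Iic hm]
  congr 1; ring

theorem Half.Mass_lm_le (h : Half σ k m p e W Z) (hm : 0 < m) : ∃ C : ℝ, 0 ≤ C ∧ ∀ a, a ≤ 0 →
    lm σ (src e p Z) Z (Iio a) ≤ ENNReal.ofReal (C * Real.exp (m * a)) := by
  obtain ⟨C, hC, hb⟩ := h.Mass_bd hm
  refine ⟨C / m * σ.real univ, by positivity, fun a ha => ?_⟩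
  refine (lintegral_mono fun θ => (setLIntegral_mono' measurableSet_Iio fun s hs =>
    ENNReal.ofReal_le_ofReal (hb θ s (hs.le.trans ha)).2).trans (Mass_lint_exp hC.le hm a).le).trans ?_
  rw [lintegral_const, mul_right_comm, ENNReal.ofReal_mul (p := _ * _) (by positivity),
    ofReal_measureReal]

theorem Half.Mass_lm_add (h : Half σ k m p e W Z) {a b : ℝ} (hab : a ≤ b) :
    lm σ (src e p Z) Z (Iio b) = lm σ (src e p Z) Z (Iio a) +
      ENNReal.ofReal (∫ θ, (∫ s in Ioo a b, src e p Z θ s * Z θ s) ∂σ) := by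
  have hc := h.cont_src.mul h.cont
  rw [← Mass_lint_Ioo (f := fun θ s => src e p Z θ s * Z θ s) hc
    fun θ s => (mul_pos (h.src_pos θ s) (h.pos θ s)).le, lm, lm, ← lintegral_add_left
    (Measurable.lintegral_prod_right' (f := fun z : Θ × ℝ =>
      ENNReal.ofReal (src e p Z z.1 z.2 * Z z.1 z.2)) hc.measurable.ennreal_ofReal)]
  refine lintegral_congr fun θ => ?_
  rw [← Iio_union_Ico_eq_Iio hab, lintegral_union (A := Iio a) measurableSet_Ico
    (disjoint_left.2 fun x h1 h2 => not_le.2 h1 h2.1), setLIntegral_congr Ioo_ae_eq_Ico]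

theorem Half.lm_ne_top (h : Half σ k m p e W Z) (hm : 0 < m) (S : ℝ) :
    lm σ (src e p Z) Z (Iio S) ≠ ⊤ := by
  obtain ⟨C, -, hb⟩ := h.Mass_lm_le hm
  rw [h.Mass_lm_add (min_le_left S 0)]
  exact ENNReal.add_ne_top.2 ⟨ne_top_of_le_ne_top ENNReal.ofReal_ne_top (hb _ (min_le_right _ _)),
    ENNReal.ofReal_ne_top⟩

theorem Half.Mass_nonneg (h : Half σ k m p e W Z) (a b : ℝ) :
    0 ≤ ∫ θ, (∫ s in Ioo a b, src e p Z θ s * Z θ s) ∂σ :=
  integral_nonneg fun θ => integral_nonneg fun s => (mul_pos (h.src_pos θ s) (h.pos θ s)).le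

theorem Half.MM_add (h : Half σ k m p e W Z) (hm : 0 < m) {a b : ℝ} (hab : a ≤ b) :
    MM σ (src e p Z) Z b = MM σ (src e p Z) Z a
      + ∫ θ, (∫ s in Ioo a b, src e p Z θ s * Z θ s) ∂σ := by
  rw [MM, MM, h.Mass_lm_add hab, ENNReal.toReal_add (h.lm_ne_top hm a) ENNReal.ofReal_ne_top,
    ENNReal.toReal_ofReal (h.Mass_nonneg a b)]

theorem Half.MM_mono (h : Half σ k m p e W Z) (hm : 0 < m) : Monotone (MM σ (src e p Z) Z) :=
  fun a b hab => by
    rw [h.MM_add hm hab]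
    exact le_add_of_nonneg_right (h.Mass_nonneg a b)

theorem Mass_pos {α : Type} [MeasurableSpace α] {μ : Measure α} {F : α → ℝ} (hμ : μ ≠ 0)
    (h0 : ∀ x, 0 < F x) (hF : Integrable F μ) : 0 < ∫ x, F x ∂μ := by
  rw [integral_pos_iff_support_of_nonneg (fun x => (h0 x).le) hF,
    show Function.support F = univ from eq_univ_of_forall fun x => (h0 x).ne']
  exact Measure.measure_univ_pos.2 hμ

theorem Half.MM_pos (h : Half σ k m p e W Z) (hm : 0 < m) (hσ : σ ≠ 0) (S : ℝ) :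
    0 < MM σ (src e p Z) Z S := by
  have hc := h.cont_src.mul h.cont
  rw [h.MM_add hm (show S - 1 ≤ S by linarith)]
  refine add_pos_of_nonneg_of_pos ENNReal.toReal_nonneg (Mass_pos hσ (fun θ => Mass_pos ?_
    (fun s => mul_pos (h.src_pos θ s) (h.pos θ s))
    (Mass_intOn (f := fun θ s => src e p Z θ s * Z θ s) hc θ _ _))
    (Mass_integrable (Mass_cont_int (f := fun θ s => src e p Z θ s * Z θ s) hc _ _)))
  simp

theorem Half.MM_small (h : Half σ k m p e W Z) (hm : 0 < m) {ε : ℝ} (hε : 0 < ε) :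
    ∃ T₀ : ℝ, ∀ T, T₀ ≤ T → MM σ (src e p Z) Z (-T) ≤ ε := by
  obtain ⟨C, hC, hb⟩ := h.Mass_lm_le hm
  obtain ⟨T, hT, h1⟩ := Mass_small (C := C) hm hε
  exact ⟨T, fun T' hT' => (ENNReal.toReal_le_of_le_ofReal (by positivity)
    (hb _ (by linarith))).trans (h1 _ (by linarith))⟩

theorem Half.Mass_hh_pos (h : Half σ k m p e W Z) (c₀ : ℝ) {l : ℝ} (hl : 0 ≤ l) (θ : Θ) :
    0 < hh (src e p Z θ) c₀ l :=
  hh_pos (h.cont_src.comp (Continuous.prodMk_right θ)) (h.src_pos θ) hl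

theorem Half.Mass_mf_int (h : Half σ k m p e W Z) (c₀ l : ℝ) :
    Integrable (fun θ => hh (src e p Z θ) c₀ l ^ (1 + p⁻¹) * Real.exp (-(e / p * c₀))) σ :=
  Mass_integrable (((continuous_hh h.cont_src c₀ l).rpow_const fun _ =>
    Or.inr (by have := h.p_pos; positivity)).mul continuous_const)

theorem Half.mf_nonneg (h : Half σ k m p e W Z) (c₀ : ℝ) {l : ℝ} (hl : 0 ≤ l) :
    0 ≤ mf σ e p Z c₀ l :=
  integral_nonneg fun θ =>
    (mul_pos (Real.rpow_pos_of_pos (h.Mass_hh_pos c₀ hl θ) _) (Real.exp_pos _)).le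

theorem Half.mf_anti (h : Half σ k m p e W Z) (c₀ : ℝ) {l l' : ℝ} (hl : 0 ≤ l) (hll : l ≤ l') :
    mf σ e p Z c₀ l' ≤ mf σ e p Z c₀ l :=
  integral_mono (h.Mass_mf_int c₀ l') (h.Mass_mf_int c₀ l) fun θ =>
    mul_le_mul_of_nonneg_right (Real.rpow_le_rpow (h.Mass_hh_pos c₀ (hl.trans hll) θ).le
      (hh_anti (h.cont_src.comp (Continuous.prodMk_right θ)) hl hll)
      (by have := h.p_pos; positivity)) (Real.exp_pos _).le

theorem Half.mf_le (h : Half σ k m p e W Z) (hm : 0 < m) (c₀ : ℝ) {l : ℝ} (hl : 0 ≤ l) :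
    2 * l * mf σ e p Z c₀ l
      ≤ Real.exp (|e| / p * l) * (MM σ (src e p Z) Z (c₀ + l) - MM σ (src e p Z) Z (c₀ - l)) := by
  have hc := h.cont_src.mul h.cont
  have hp := h.p_pos
  rw [h.MM_add hm (show c₀ - l ≤ c₀ + l by linarith), add_sub_cancel_left, mf,
    ← integral_const_mul, ← integral_const_mul]
  refine integral_mono ((h.Mass_mf_int c₀ l).const_mul _) ((Mass_integrable
    (Mass_cont_int (f := fun θ s => src e p Z θ s * Z θ s) hc _ _)).const_mul _) fun θ => ?_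
  have e1 : ∀ x : ℝ, 2 * l * x = ∫ _ in Ioo (c₀ - l) (c₀ + l), x := fun x => by
    rw [setIntegral_const, Real.volume_real_Ioo_of_le (by linarith), smul_eq_mul]; ring
  simp only [e1, ← integral_const_mul]
  refine setIntegral_mono_on (integrableOn_const (by simp))
    ((Mass_intOn (f := fun θ s => src e p Z θ s * Z θ s) hc θ _ _).const_mul _) measurableSet_Ioo
    fun s hs => ?_
  have a1 := Real.rpow_le_rpow (h.Mass_hh_pos c₀ hl θ).le
    (hh_le (h.cont_src.comp (Continuous.prodMk_right θ)) (Ioo_subset_Icc_self hs))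
    (show 0 ≤ 1 + p⁻¹ by positivity)
  have a2 : src e p Z θ s ^ (1 + p⁻¹) = Real.exp (e / p * s) * (src e p Z θ s * Z θ s) := by
    rw [Real.rpow_add (h.src_pos θ s), Real.rpow_one, mul_left_comm]
    congr 1
    rw [src, Real.mul_rpow (Real.exp_pos _).le (Real.rpow_pos_of_pos (h.pos θ s) _).le,
      ← Real.exp_mul, Real.rpow_rpow_inv (h.pos θ s).le hp.ne']
    congr 2; ring
  refine (mul_le_mul_of_nonneg_right (a1.trans a2.le) (Real.exp_pos _).le).trans ?_
  rw [mul_right_comm, ← Real.exp_add]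
  refine mul_le_mul_of_nonneg_right (Real.exp_le_exp.2 ?_)
    (mul_pos (h.src_pos θ s) (h.pos θ s)).le
  have a3 : e * (s - c₀) ≤ |e| * l := (le_abs_self _).trans (by
    rw [abs_mul]
    exact mul_le_mul_of_nonneg_left (abs_le.2 ⟨by linarith [hs.1], by linarith [hs.2]⟩)
      (abs_nonneg e))
  have := div_le_div_of_nonneg_right a3 hp.le
  rw [show e * (s - c₀) / p = e / p * s + -(e / p * c₀) by ring, mul_div_right_comm] at this
  exact this

theorem Phi_shift (hm : 0 ≤ m) (s s' : ℝ) :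
    Phi σ m f s ≤ ENNReal.ofReal (Real.exp (m * |s - s'|)) * Phi σ m f s' := by
  simp only [Phi, ← lintegral_const_mul' _ _ ENNReal.ofReal_ne_top]
  refine lintegral_mono fun θ => lintegral_mono fun t => ?_
  rw [← mul_assoc, ← ENNReal.ofReal_mul (Real.exp_pos (m * |s - s'|)).le, ← Real.exp_add]
  refine mul_le_mul_left (ENNReal.ofReal_le_ofReal (Real.exp_le_exp.2 ?_)) _
  nlinarith [mul_le_mul_of_nonneg_left (abs_sub_le t s s') hm]

theorem HH_le (hm : 0 ≤ m) (hf : Continuous (fun z : Θ × ℝ => f z.1 z.2)) (c₀ : ℝ) {l : ℝ}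
    (hl : 0 ≤ l) :
    ENNReal.ofReal (2 * l) * HH σ f c₀ l ≤ ENNReal.ofReal (Real.exp (m * l)) * Phi σ m f c₀ := by
  simp only [Phi, HH, ← lintegral_const_mul' _ _ ENNReal.ofReal_ne_top]
  refine lintegral_mono fun θ => le_trans ?_ (setLIntegral_le_lintegral (Icc (c₀ - l) (c₀ + l)) _)
  rw [show 2 * l = c₀ + l - (c₀ - l) by ring, ← Real.volume_Icc, mul_comm, ← setLIntegral_const]
  refine setLIntegral_mono' measurableSet_Icc fun t ht => ?_
  rw [← mul_assoc, ← ENNReal.ofReal_mul (Real.exp_pos _).le, ← Real.exp_add]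
  refine (ENNReal.ofReal_le_ofReal (hh_le (hf.comp (Continuous.prodMk_right θ)) ht)).trans
    (le_mul_of_one_le_left' (ENNReal.one_le_ofReal.2 (Real.one_le_exp ?_)))
  have : |t - c₀| ≤ l := abs_le.2 ⟨by linarith [ht.1], by linarith [ht.2]⟩
  nlinarith [mul_le_mul_of_nonneg_left this hm]

theorem HH_anti (hf : Continuous (fun z : Θ × ℝ => f z.1 z.2)) (c₀ : ℝ) {l l' : ℝ} (hl : 0 ≤ l)
    (hll : l ≤ l') : HH σ f c₀ l' ≤ HH σ f c₀ l :=
  lintegral_mono fun θ =>
    ENNReal.ofReal_le_ofReal (hh_anti (hf.comp (Continuous.prodMk_right θ)) hl hll)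

end Vale.Agent.P100
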