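import Vale.Agent.P100.Cost
import Vale.Agent.P100.Mass

open MeasureTheory Set
open scoped ENNReal

namespace Vale.Agent.P100

set_option linter.unusedSectionVars false

theorem globB_ofReal_le {α : Type} [MeasurableSpace α] {μ : Measure α} {φ : α → ℝ}
    (hφ : Integrable φ μ) : ENNReal.ofReal (∫ x, φ x ∂μ) ≤ ∫⁻ x, ENNReal.ofReal (φ x) ∂μ := by
  have h1 : Integrable (fun x => max (φ x) 0) μ := hφ.pos_part
  refine (ENNReal.ofReal_le_ofReal (integral_mono hφ h1 fun x => le_max_left _ _)).trans ?_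
  rw [ofReal_integral_eq_lintegral_ofReal h1 (Filter.Eventually.of_forall fun x => le_max_right _ _)]
  exact lintegral_mono fun x => by rw [ENNReal.ofReal_max]; simp

variable {Θ : Type} [MetricSpace Θ] [CompactSpace Θ] [MeasurableSpace Θ] [BorelSpace Θ]
  {σ : Measure Θ} [IsFiniteMeasure σ] {k : Θ → Θ → ℝ → ℝ} {m p q e e' CK : ℝ} {N : ℕ}
  {W Z : Θ → ℝ → ℝ}

omit [MeasurableSpace Θ] [BorelSpace Θ] in
theorem globB_bdd {φ : Θ × ℝ → ℝ} (hφ : Continuous φ) (a b : ℝ) :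
    ∃ B : ℝ, 0 ≤ B ∧ ∀ θ, ∀ s ∈ Icc a b, |φ (θ, s)| ≤ B := by
  obtain ⟨B, hB⟩ := (isCompact_univ.prod (isCompact_Icc (a := a) (b := b))).exists_bound_of_continuousOn
    hφ.continuousOn
  exact ⟨max B 0, le_max_right _ _, fun θ s hs =>
    (hB (θ, s) ⟨trivial, hs⟩).trans (le_max_left _ _)⟩

theorem globB_int {φ ψ : Θ × ℝ → ℝ} (hφ : Continuous φ) (hψ : Measurable ψ) (a b : ℝ)
    (h : ∀ z, |ψ z| ≤ |φ z|) : Integrable ψ (σ.prod (volume.restrict (Ioo a b))) := by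
  obtain ⟨B, -, hB⟩ := globB_bdd hφ a b
  refine Integrable.of_bound hψ.aestronglyMeasurable B ?_
  have : ∀ᵐ z ∂(σ.prod (volume.restrict (Ioo a b))), z.2 ∈ Ioo a b := by
    refine (Measure.ae_prod_iff_ae_ae (measurable_snd measurableSet_Ioo)).2 ?_
    exact Filter.Eventually.of_forall fun θ => ae_restrict_mem measurableSet_Ioo
  filter_upwards [this] with z hz
  exact (h z).trans (hB z.1 z.2 (Ioo_subset_Icc_self hz))

theorem globB_pm_le {f : ℝ → ℝ} {c₀ δ T s : ℝ} : (pm f c₀ δ T s).toReal ≤ |f s| :=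
  (ENNReal.toReal_mono ENNReal.ofReal_ne_top pm_le).trans (by
    rw [ENNReal.toReal_ofReal']; exact max_le (le_abs_self _) (abs_nonneg _))

theorem Half.int_pm (h : Half σ k m p e W Z) {φ : Θ × ℝ → ℝ} (hφ : Continuous φ) (c₀ δ T a b : ℝ) :
    Integrable (fun z : Θ × ℝ => (pm (src e p Z z.1) c₀ δ T z.2).toReal * φ z)
      (σ.prod (volume.restrict (Ioo a b))) := by
  refine globB_int (h.cont_src.mul hφ)
    ((measurable_pm h.cont_src c₀ δ T).ennreal_toReal.mul hφ.measurable) a b fun z => ?_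
  simp only [Pi.mul_apply, abs_mul, abs_of_nonneg ENNReal.toReal_nonneg]
  exact mul_le_mul_of_nonneg_right globB_pm_le (abs_nonneg _)

theorem Half.cont_shift (h : Half σ k m p e W Z) (x : ℝ) :
    Continuous (fun z : Θ × ℝ => Z z.1 (z.2 + x)) :=
  h.cont.comp (continuous_fst.prodMk (continuous_snd.add continuous_const))

theorem Half.cont_src' (h : Half σ k m p e W Z) (θ : Θ) : Continuous (src e p Z θ) :=
  h.cont_src.comp (continuous_const.prodMk continuous_id)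

theorem Half.AA_eq (h : Half σ k m p e W Z) (c₀ T x : ℝ) {δ : ℝ} (hδ : 0 ≤ δ) :
    AA σ (src e p Z) Z c₀ δ T x = ENNReal.ofReal (∫ z : Θ × ℝ,
      (pm (src e p Z z.1) c₀ δ T z.2).toReal * Z z.1 (z.2 + x)
        ∂(σ.prod (volume.restrict (Ioo (-T) (c₀ + δ))))) := by
  have hi := h.int_pm (h.cont_shift x) c₀ δ T (-T) (c₀ + δ)
  rw [ofReal_integral_eq_lintegral_ofReal hi (Filter.Eventually.of_forall fun z =>
    mul_nonneg ENNReal.toReal_nonneg (h.pos _ _).le),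
    lintegral_prod _ hi.aemeasurable.ennreal_ofReal, AA]
  refine lintegral_congr fun θ => ?_
  rw [← lintegral_indicator measurableSet_Ioo]
  refine lintegral_congr fun s => ?_
  by_cases hs : s ∈ Ioo (-T) (c₀ + δ)
  · rw [indicator_of_mem hs, ENNReal.ofReal_mul ENNReal.toReal_nonneg, ENNReal.ofReal_toReal
      (ne_top_of_le_ne_top ENNReal.ofReal_ne_top pm_le)]
  · rw [indicator_of_notMem hs, pm_eq_zero (h.cont_src' θ) hδ hs, zero_mul]

theorem Half.AA_ne_top' (h : Half σ k m p e W Z) (c₀ T x : ℝ) {δ : ℝ} (hδ : 0 ≤ δ) :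
    AA σ (src e p Z) Z c₀ δ T x ≠ ⊤ := by
  rw [h.AA_eq c₀ T x hδ]; exact ENNReal.ofReal_ne_top

theorem globB_int_cont {φ : Θ → ℝ} (hφ : Continuous φ) : Integrable φ σ :=
  hφ.integrable_of_hasCompactSupport (HasCompactSupport.of_compactSpace φ)

theorem Half.CC_ne_top (h : Half σ k m p e W Z) (c₀ δ τ : ℝ) :
    CC σ (src e p Z) Z c₀ δ τ ≠ ⊤ := by
  obtain ⟨B, -, hB⟩ := globB_bdd (h.cont_shift c₀) (-τ) τ
  obtain ⟨B', hB'⟩ := isCompact_univ.exists_bound_of_continuousOn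
    (continuous_hh h.cont_src c₀ δ).continuousOn
  refine ne_top_of_le_ne_top (b := ∫⁻ _θ, ENNReal.ofReal B' *
    ∫⁻ _x in Ioo (-τ) τ, ENNReal.ofReal B ∂volume ∂σ) ?_ (lintegral_mono fun θ => ?_)
  · simp only [lintegral_const, Measure.restrict_apply MeasurableSet.univ, univ_inter,
      Real.volume_Ioo]
    exact ENNReal.mul_ne_top (ENNReal.mul_ne_top ENNReal.ofReal_ne_top
      (ENNReal.mul_ne_top ENNReal.ofReal_ne_top ENNReal.ofReal_ne_top)) (measure_ne_top _ _)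
  · refine mul_le_mul' (ENNReal.ofReal_le_ofReal ((le_abs_self _).trans (hB' θ trivial)))
      (setLIntegral_mono' measurableSet_Ioo fun x hx => ENNReal.ofReal_le_ofReal ?_)
    exact (le_abs_self _).trans (hB θ x (Ioo_subset_Icc_self hx))

theorem Half.CC_ge (h : Half σ k m p e W Z) {c₀ δ τ η : ℝ} (hδ : 0 ≤ δ) (hτ : 0 < τ)
    (hZ : ∀ θ, ∀ x ∈ Ioo (-τ) τ, Z θ c₀ - η ≤ Z θ (x + c₀)) :
    ∫ θ, 2 * τ * (hh (src e p Z θ) c₀ δ * (Z θ c₀ - η)) ∂σ ≤ (CC σ (src e p Z) Z c₀ δ τ).toReal := by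
  have hc : Continuous fun θ => 2 * τ * (hh (src e p Z θ) c₀ δ * (Z θ c₀ - η)) :=
    continuous_const.mul ((continuous_hh h.cont_src c₀ δ).mul
      ((h.cont.comp (continuous_id.prodMk continuous_const)).sub continuous_const))
  rw [← ENNReal.ofReal_le_iff_le_toReal (h.CC_ne_top c₀ δ τ)]
  refine (globB_ofReal_le (globB_int_cont hc)).trans ?_
  refine lintegral_mono fun θ => ?_
  have h0 := hh_pos (c₀ := c₀) (h.cont_src' θ) (h.src_pos θ) hδ
  rw [mul_left_comm, ENNReal.ofReal_mul h0.le]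
  refine mul_le_mul' le_rfl ?_
  refine le_trans ?_ (setLIntegral_mono' measurableSet_Ioo fun x hx =>
    ENNReal.ofReal_le_ofReal (hZ θ x hx))
  rw [setLIntegral_const, Real.volume_Ioo, mul_comm, ENNReal.ofReal_mul' (by linarith)]
  exact mul_le_mul' le_rfl (ENNReal.ofReal_le_ofReal (by linarith))

omit [MeasurableSpace Θ] [BorelSpace Θ] in
theorem globB_unif {φ : Θ × ℝ → ℝ} (hφ : Continuous φ) (a b : ℝ) {η : ℝ} (hη : 0 < η) :
    ∃ τ₀ : ℝ, 0 < τ₀ ∧ ∀ θ, ∀ s ∈ Icc a b, ∀ s', |s' - s| ≤ τ₀ → |φ (θ, s') - φ (θ, s)| ≤ η := by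
  have hu := (isCompact_univ.prod
    (isCompact_Icc (a := a - 1) (b := b + 1))).uniformContinuousOn_of_continuous hφ.continuousOn
  obtain ⟨d, hd, h⟩ := Metric.uniformContinuousOn_iff.1 hu η hη
  refine ⟨min 1 (d / 2), by positivity, fun θ s hs s' hs' => ?_⟩
  have h1 := abs_le.1 (hs'.trans (min_le_left _ _))
  have h2 := hs'.trans (min_le_right _ _)
  refine le_of_lt (h (θ, s') ⟨trivial, ?_, ?_⟩ (θ, s) ⟨trivial, ?_, ?_⟩ ?_)
  · show a - 1 ≤ s'; linarith [hs.1]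
  · show s' ≤ b + 1; linarith [hs.2]
  · show a - 1 ≤ s; linarith [hs.1]
  · show s ≤ b + 1; linarith [hs.2]
  · rw [Prod.dist_eq, dist_self, Real.dist_eq]
    exact max_lt hd (by linarith)

theorem Half.cost' (h : Half σ k m p e W Z) (hm : 0 < m) {c₀ δ T η : ℝ} (hδ : 0 ≤ δ)
    (hT : -T ≤ c₀ - δ) (hη : 0 < η) :
    ∃ τ₀ : ℝ, 0 < τ₀ ∧ ∀ τ, 0 < τ → τ ≤ τ₀ →
      (AA σ (src e p Z) Z c₀ δ T τ).toReal - (AA σ (src e p Z) Z c₀ δ T (-τ)).toReal
        - (CC σ (src e p Z) Z c₀ δ τ).toReal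
      ≤ 2 * τ * (-(e / (p + 1)) * (MM σ (src e p Z) Z (c₀ - δ) - MM σ (src e p Z) Z (-T))
        + |e| / (p + 1) * (MM σ (src e p Z) Z (c₀ + δ) - MM σ (src e p Z) Z (c₀ - δ))
        - p / (p + 1) * mf σ e p Z c₀ δ + η) := by
  obtain ⟨Z', hZc, hZ'⟩ := h.der
  obtain ⟨ν, hν⟩ : ∃ ν, ν = σ.prod (volume.restrict (Ioo (-T) (c₀ + δ))) := ⟨_, rfl⟩
  have ih := continuous_hh h.cont_src c₀ δ
  obtain ⟨A₀, hA₀⟩ : ∃ A₀, A₀ = ∫ z : Θ × ℝ, (pm (src e p Z z.1) c₀ δ T z.2).toReal * 1 ∂ν :=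
    ⟨_, rfl⟩
  obtain ⟨H₀, hH₀⟩ : ∃ H₀, H₀ = ∫ θ, hh (src e p Z θ) c₀ δ ∂σ := ⟨_, rfl⟩
  have hA0 : 0 ≤ A₀ := hA₀ ▸ integral_nonneg fun z => by positivity
  have hH0 : 0 ≤ H₀ := hH₀ ▸ integral_nonneg fun θ =>
    (hh_pos (h.cont_src' θ) (h.src_pos θ) hδ).le
  obtain ⟨η', hη'⟩ : ∃ η', η' = η / (A₀ + H₀ + 1) := ⟨_, rfl⟩
  have hη0 : 0 < η' := by rw [hη']; positivity
  have hηA : η' * A₀ + η' * H₀ ≤ η := by
    have : η' * (A₀ + H₀ + 1) = η := by rw [hη']; field_simp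
    nlinarith
  obtain ⟨τ₁, hτ₁, u1⟩ := globB_unif hZc (-T) (c₀ + δ) hη0
  obtain ⟨τ₂, hτ₂, u2⟩ := globB_unif h.cont c₀ c₀ hη0
  refine ⟨min τ₁ τ₂, by positivity, fun τ hτ hττ => ?_⟩
  have ht1 := hττ.trans (min_le_left _ _)
  have ht2 := hττ.trans (min_le_right _ _)
  have c1 := h.CC_ge (η := η') hδ hτ fun θ x hx => by
    have := u2 θ c₀ ⟨le_rfl, le_rfl⟩ (x + c₀) (by
      rw [add_sub_cancel_right]; exact (abs_le.2 ⟨hx.1.le, hx.2.le⟩).trans ht2)
    have := (abs_le.1 this).1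
    simp only at this
    linarith
  have i1 := h.int_pm (h.cont_shift τ) c₀ δ T (-T) (c₀ + δ)
  have i2 := h.int_pm (h.cont_shift (-τ)) c₀ δ T (-T) (c₀ + δ)
  have i3 := h.int_pm hZc c₀ δ T (-T) (c₀ + δ)
  have i4 := h.int_pm (φ := fun _ => 1) continuous_const c₀ δ T (-T) (c₀ + δ)
  rw [h.AA_eq c₀ T τ hδ, h.AA_eq c₀ T (-τ) hδ,
    ENNReal.toReal_ofReal (integral_nonneg fun z => mul_nonneg ENNReal.toReal_nonneg (h.pos _ _).le),
    ENNReal.toReal_ofReal (integral_nonneg fun z => mul_nonneg ENNReal.toReal_nonneg (h.pos _ _).le),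
    ← integral_sub i1 i2]
  rw [← hν] at i1 i2 i3 i4 ⊢
  have c2 : ∫ z : Θ × ℝ, ((pm (src e p Z z.1) c₀ δ T z.2).toReal * Z z.1 (z.2 + τ)
      - (pm (src e p Z z.1) c₀ δ T z.2).toReal * Z z.1 (z.2 + -τ)) ∂ν
      ≤ ∫ z : Θ × ℝ, 2 * τ * ((pm (src e p Z z.1) c₀ δ T z.2).toReal * Z' z.1 z.2
        + η' * ((pm (src e p Z z.1) c₀ δ T z.2).toReal * 1)) ∂ν := by
    refine integral_mono_ae (i1.sub i2) ((i3.add (i4.const_mul _)).const_mul _) ?_
    have : ∀ᵐ z ∂ν, z.2 ∈ Ioo (-T) (c₀ + δ) := by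
      rw [hν]
      refine (Measure.ae_prod_iff_ae_ae (measurable_snd measurableSet_Ioo)).2 ?_
      exact Filter.Eventually.of_forall fun θ => ae_restrict_mem measurableSet_Ioo
    filter_upwards [this] with z hz
    obtain ⟨ξ, hξ, hx⟩ := exists_hasDerivAt_eq_slope (Z z.1) (Z' z.1)
      (show z.2 + -τ < z.2 + τ by linarith)
      (fun x _ => (hZ' z.1 x).continuousAt.continuousWithinAt) fun x _ => hZ' z.1 x
    have b1 := u1 z.1 z.2 (Ioo_subset_Icc_self hz) ξ (by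
      rw [abs_le]; constructor <;> linarith [hξ.1, hξ.2])
    have b2 := (abs_le.1 b1).2
    simp only at b2
    have b3 : Z z.1 (z.2 + τ) - Z z.1 (z.2 + -τ) = 2 * τ * Z' z.1 ξ := by
      rw [hx]; field_simp [hτ.ne']; ring
    have b4 : (0 : ℝ) ≤ (pm (src e p Z z.1) c₀ δ T z.2).toReal := ENNReal.toReal_nonneg
    rw [← mul_sub, b3]
    have b5 := mul_le_mul_of_nonneg_left b2 (mul_nonneg (by linarith : 0 ≤ 2 * τ) b4)
    nlinarith
  rw [integral_const_mul, integral_add i3 (i4.const_mul _), integral_const_mul, ← hA₀] at c2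
  have j1 : Integrable (fun θ => hh (src e p Z θ) c₀ δ * Z θ c₀) σ :=
    globB_int_cont (ih.mul (h.cont.comp (continuous_id.prodMk continuous_const)))
  have c3 : ∫ θ, 2 * τ * (hh (src e p Z θ) c₀ δ * (Z θ c₀ - η')) ∂σ
      = 2 * τ * (∫ θ, hh (src e p Z θ) c₀ δ * Z θ c₀ ∂σ - η' * H₀) := by
    rw [integral_const_mul, hH₀, ← integral_const_mul η',
      ← integral_sub j1 ((globB_int_cont ih).const_mul _)]
    congr 2; funext θ; ring
  have jm : ∀ a b : ℝ, Integrable (fun θ => ∫ s in Ioo a b, src e p Z θ s * Z θ s) σ := fun a b =>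
    (globB_int (h.cont_src.mul h.cont) (h.cont_src.mul h.cont).measurable a b
      fun _ => le_rfl).integral_prod_left
  have j2 : Integrable (fun θ => hh (src e p Z θ) c₀ δ ^ (1 + p⁻¹) * Real.exp (-(e / p * c₀))) σ :=
    globB_int_cont ((ih.rpow_const fun θ => Or.inr (by have := h.p_pos; positivity)).mul
      continuous_const)
  have c4 : ∫ z : Θ × ℝ, (pm (src e p Z z.1) c₀ δ T z.2).toReal * Z' z.1 z.2 ∂ν
      - ∫ θ, hh (src e p Z θ) c₀ δ * Z θ c₀ ∂σ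
      ≤ -(e / (p + 1)) * (MM σ (src e p Z) Z (c₀ - δ) - MM σ (src e p Z) Z (-T))
        + |e| / (p + 1) * (MM σ (src e p Z) Z (c₀ + δ) - MM σ (src e p Z) Z (c₀ - δ))
        - p / (p + 1) * mf σ e p Z c₀ δ := by
    rw [hν] at i3 ⊢
    rw [h.MM_add hm hT, h.MM_add hm (show c₀ - δ ≤ c₀ + δ by linarith), h.MM_add hm hT,
      add_sub_cancel_left, add_sub_cancel_left, mf, integral_prod _ i3,
      ← integral_sub i3.integral_prod_left j1, ← integral_const_mul, ← integral_const_mul,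
      ← integral_const_mul, ← integral_add ((jm _ _).const_mul _) ((jm _ _).const_mul _),
      ← integral_sub (((jm _ _).const_mul _).fun_add ((jm _ _).const_mul _)) (j2.const_mul _)]
    refine integral_mono (i3.integral_prod_left.sub j1)
      ((((jm _ _).const_mul _).add ((jm _ _).const_mul _)).sub (j2.const_mul _)) fun θ => ?_
    exact cost_ray h.p_pos hδ hT (hZ' θ) (hZc.comp (continuous_const.prodMk continuous_id))
      (h.pos θ) fun s => rfl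
  rw [c3] at c1
  have c5 := mul_le_mul_of_nonneg_left c4 (by linarith : 0 ≤ 2 * τ)
  have c6 := mul_le_mul_of_nonneg_left hηA (by linarith : 0 ≤ 2 * τ)
  linarith

end Vale.Agent.P100
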