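import Vale.Agent.P100.GlobA
import Vale.Agent.P100.GlobB

open MeasureTheory Set
open scoped ENNReal

namespace Vale.Agent.P100

variable {Θ : Type} [MetricSpace Θ] [CompactSpace Θ] [MeasurableSpace Θ] [BorelSpace Θ]
  {σ : Measure Θ} [IsFiniteMeasure σ] {k : Θ → Θ → ℝ → ℝ} {m p q e e' CK : ℝ} {N : ℕ}
  {W Z : Θ → ℝ → ℝ}

/-- The rearrangement inequality on the cylinder. -/
theorem glob_ineq (hk : Ker σ m N CK k) (h : Half σ k m p e W Z) (h' : Half σ k m q e' Z W)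
    {c₀ δ ρ τ T ε ε' : ℝ} (hτ : 0 < τ) (hτρ : 2 * τ ≤ ρ) (hρδ : ρ ≤ δ) (hρ1 : ρ ≤ 1)
    (hT : -T ≤ c₀ - δ) (hε : ∀ θ s, s ≤ -T → src e p Z θ s ≤ ε)
    (hε' : ∀ θ s, s ≤ -T → src e' q W θ s ≤ ε') :
    AA σ (src e p Z) Z c₀ δ T (-τ) + AA σ (src e' q W) W c₀ δ T (-τ)
      + CC σ (src e p Z) Z c₀ δ τ + CC σ (src e' q W) W c₀ δ τ
    ≤ AA σ (src e p Z) Z c₀ δ T τ + AA σ (src e' q W) W c₀ δ T τ
      + ENNReal.ofReal (2 * τ) * EE σ k (src e p Z) (src e' q W) c₀ (δ - ρ)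
      + ENNReal.ofReal (2 * τ * (CK * (ρ / 2)⁻¹ ^ N * Real.exp (m * (δ + 1))))
        * (HH σ (src e p Z) c₀ δ * Phi σ m (src e' q W) c₀
          + HH σ (src e' q W) c₀ δ * Phi σ m (src e p Z) c₀)
      + ENNReal.ofReal ε' * ∫⁻ θ, (∫⁻ x in Ioo (-τ) τ, ENNReal.ofReal (W θ (x + -T))) ∂σ
      + ENNReal.ofReal ε * ∫⁻ θ, (∫⁻ x in Ioo (-τ) τ, ENNReal.ofReal (Z θ (x + -T))) ∂σ :=
  glob_ineq' hk h h' hτ hτρ hρδ hρ1 hT hε hε'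

end Vale.Agent.P100
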