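import Vale.Agent.P100.Ray
import Vale.Agent.P100.Mass

open MeasureTheory Set
open scoped ENNReal

namespace Vale.Agent.P100

variable {Θ : Type} [MetricSpace Θ] [CompactSpace Θ] [MeasurableSpace Θ] [BorelSpace Θ]
  {σ : Measure Θ} [IsFiniteMeasure σ] {k : Θ → Θ → ℝ → ℝ} {m p q e e' CK : ℝ} {N : ℕ}
  {W Z : Θ → ℝ → ℝ}

omit [MetricSpace Θ] [CompactSpace Θ] [BorelSpace Θ] in
theorem globA_gen (hk : Measurable (fun z : Θ × Θ × ℝ => k z.1 z.2.1 z.2.2)) {g : Θ → ℝ → ℝ}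
    (hg : Measurable fun z : Θ × ℝ => g z.1 z.2)
    (hrep : ∀ θ s, ENNReal.ofReal (Z θ s) = pot σ k g θ s) {a : Θ → ℝ → ℝ≥0∞}
    (ha : Measurable fun z : Θ × ℝ => a z.1 z.2) (ν : Measure ℝ) [SFinite ν] (y : ℝ) :
    Measurable (fun z : Θ × Θ => ∫⁻ s, a z.1 s * pt (k z.1 z.2) (g z.2) (s + y) ∂ν) ∧
    ∫⁻ z, (∫⁻ s, a z.1 s * pt (k z.1 z.2) (g z.2) (s + y) ∂ν) ∂(σ.prod σ)
      = ∫⁻ θ, (∫⁻ s, a θ s * ENNReal.ofReal (Z θ (s + y)) ∂ν) ∂σ := by
  have h1 : Measurable fun w : (Θ × Θ) × ℝ => pt (k w.1.1 w.1.2) (g w.1.2) (w.2 + y) := by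
    refine Measurable.lintegral_prod_right' (f := fun v : ((Θ × Θ) × ℝ) × ℝ =>
      ENNReal.ofReal (k v.1.1.1 v.1.1.2 (v.1.2 + y - v.2)) * ENNReal.ofReal (g v.1.1.2 v.2))
      (Measurable.mul (Measurable.ennreal_ofReal ?_) (Measurable.ennreal_ofReal ?_))
    · exact hk.comp (f := fun v : ((Θ × Θ) × ℝ) × ℝ => (v.1.1.1, v.1.1.2, v.1.2 + y - v.2))
        (by fun_prop)
    · exact hg.comp (f := fun v : ((Θ × Θ) × ℝ) × ℝ => (v.1.1.2, v.2)) (by fun_prop)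
  have h2 : Measurable fun w : (Θ × Θ) × ℝ =>
      a w.1.1 w.2 * pt (k w.1.1 w.1.2) (g w.1.2) (w.2 + y) :=
    (ha.comp (f := fun w : (Θ × Θ) × ℝ => (w.1.1, w.2)) (by fun_prop)).mul h1
  have h3 : Measurable fun z : Θ × Θ => ∫⁻ s, a z.1 s * pt (k z.1 z.2) (g z.2) (s + y) ∂ν :=
    h2.lintegral_prod_right'
  refine ⟨h3, ?_⟩
  rw [lintegral_prod _ h3.aemeasurable]
  refine lintegral_congr fun θ => ?_
  rw [lintegral_lintegral_swap]
  · refine lintegral_congr fun s => ?_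
    rw [hrep, pot]
    exact lintegral_const_mul (a θ s) (f := fun θ' => pt (k θ θ') (g θ') (s + y))
      (h1.comp (f := fun θ' : Θ => ((θ, θ'), s)) (by fun_prop))
  · exact (h2.comp (f := fun w : Θ × ℝ => ((θ, w.1), w.2)) (by fun_prop)).aemeasurable

omit [MetricSpace Θ] [CompactSpace Θ] [BorelSpace Θ] in
theorem globA_con (hk : Measurable (fun z : Θ × Θ × ℝ => k z.1 z.2.1 z.2.2)) {g : Θ → ℝ → ℝ}
    (hg : Measurable fun z : Θ × ℝ => g z.1 z.2)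
    (hrep : ∀ θ s, ENNReal.ofReal (Z θ s) = pot σ k g θ s) {a : Θ → ℝ}
    (ha : Measurable a) (S : Set ℝ) (y : ℝ) :
    Measurable (fun z : Θ × Θ =>
      ENNReal.ofReal (a z.1) * ∫⁻ s in S, pt (k z.1 z.2) (g z.2) (s + y)) ∧
    ∫⁻ z, (ENNReal.ofReal (a z.1) * ∫⁻ s in S, pt (k z.1 z.2) (g z.2) (s + y)) ∂(σ.prod σ)
      = ∫⁻ θ, (ENNReal.ofReal (a θ) * ∫⁻ s in S, ENNReal.ofReal (Z θ (s + y))) ∂σ := by
  have h := globA_gen hk hg hrep (a := fun θ _ => ENNReal.ofReal (a θ))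
    (ha.comp measurable_fst).ennreal_ofReal (volume.restrict S) y
  simpa only [lintegral_const_mul' _ _ ENNReal.ofReal_ne_top] using h

omit [MetricSpace Θ] [CompactSpace Θ] [BorelSpace Θ] in
theorem globA_J {g : Θ → ℝ → ℝ} (hg : Measurable fun z : Θ × ℝ => g z.1 z.2) {a : Θ → ℝ}
    (ha : Measurable a) (K c₀ : ℝ) :
    Measurable (fun z : Θ × Θ => ENNReal.ofReal (a z.1) * ∫⁻ t, ENNReal.ofReal K
      * ENNReal.ofReal (Real.exp (-(m * |t - c₀|))) * ENNReal.ofReal (g z.2 t)) ∧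
    ∫⁻ z, (ENNReal.ofReal (a z.1) * ∫⁻ t, ENNReal.ofReal K
      * ENNReal.ofReal (Real.exp (-(m * |t - c₀|))) * ENNReal.ofReal (g z.2 t)) ∂(σ.prod σ)
      = ENNReal.ofReal K * ((∫⁻ θ, ENNReal.ofReal (a θ) ∂σ) * Phi σ m g c₀) := by
  have h1 : Measurable fun θ => ∫⁻ t, ENNReal.ofReal K
      * ENNReal.ofReal (Real.exp (-(m * |t - c₀|))) * ENNReal.ofReal (g θ t) :=
    Measurable.lintegral_prod_right' (f := fun v : Θ × ℝ => ENNReal.ofReal K
      * ENNReal.ofReal (Real.exp (-(m * |v.2 - c₀|))) * ENNReal.ofReal (g v.1 v.2))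
      (Measurable.mul (by fun_prop) hg.ennreal_ofReal)
  refine ⟨(ha.comp measurable_fst).ennreal_ofReal.mul (h1.comp measurable_snd), ?_⟩
  rw [lintegral_prod_mul ha.ennreal_ofReal.aemeasurable h1.aemeasurable, mul_left_comm, Phi]
  simp only [mul_assoc, lintegral_const_mul' _ _ ENNReal.ofReal_ne_top]

omit [MetricSpace Θ] [CompactSpace Θ] [BorelSpace Θ] in
theorem globA_swap {F : Θ × Θ → ℝ≥0∞} {a : ℝ≥0∞}
    (h : Measurable F ∧ ∫⁻ z, F z ∂(σ.prod σ) = a) :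
    Measurable (fun z : Θ × Θ => F z.swap) ∧ ∫⁻ z, F z.swap ∂(σ.prod σ) = a :=
  ⟨h.1.comp measurable_swap, (lintegral_prod_swap F).trans h.2⟩

omit [MetricSpace Θ] [CompactSpace Θ] [BorelSpace Θ] [IsFiniteMeasure σ] in
theorem globA_bound (hk : Ker σ m N CK k) {c₀ δ ρ τ : ℝ} (hτ : 0 < τ) (hτρ : 2 * τ ≤ ρ)
    (hρ1 : ρ ≤ 1) (θ θ' : Θ) (t y : ℝ) (hy : |y - c₀| ≤ δ) (ht : ρ ≤ |t - y|) :
    ∫⁻ x in Ioo (-τ) τ, ENNReal.ofReal (k θ θ' (x + y - t))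
      ≤ ENNReal.ofReal (2 * τ * (CK * (ρ / 2)⁻¹ ^ N * Real.exp (m * (δ + 1))))
        * ENNReal.ofReal (Real.exp (-(m * |t - c₀|))) := by
  have hρ : 0 < ρ := by linarith
  have hC := hk.CK_pos
  calc ∫⁻ x in Ioo (-τ) τ, ENNReal.ofReal (k θ θ' (x + y - t))
      ≤ ∫⁻ _ in Ioo (-τ) τ, ENNReal.ofReal (CK * (ρ / 2)⁻¹ ^ N
          * (Real.exp (m * (δ + 1)) * Real.exp (-(m * |t - c₀|)))) := by
        refine setLIntegral_mono measurable_const fun x hx => ENNReal.ofReal_le_ofReal ?_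
        have hx' : |x| ≤ τ := abs_le.2 ⟨hx.1.le, hx.2.le⟩
        have h1 : |t - y| ≤ |x| + |x + y - t| := by
          have := abs_sub x (x + y - t)
          rwa [show x - (x + y - t) = t - y by ring] at this
        have h2 : |t - c₀| ≤ |t - y| + |y - c₀| := abs_sub_le _ _ _
        refine (hk.upper (ρ / 2) (by linarith) (by linarith) θ θ' _ (by linarith)).trans ?_
        rw [← Real.exp_add]
        gcongr
        nlinarith [hk.m_pos]
    _ = _ := by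
        rw [setLIntegral_const, Real.volume_Ioo, ← ENNReal.ofReal_mul (by positivity),
          ← ENNReal.ofReal_mul (by positivity)]
        congr 1
        ring

/-- The rearrangement inequality on the cylinder. -/
theorem glob_ineq' (hk : Ker σ m N CK k) (h : Half σ k m p e W Z) (h' : Half σ k m q e' Z W)
    {c₀ δ ρ τ T ε ε' : ℝ} (hτ : 0 < τ) (hτρ : 2 * τ ≤ ρ) (hρδ : ρ ≤ δ) (hρ1 : ρ ≤ 1)
    (hT : -T ≤ c₀ - δ) (hε : ∀ θ s, s ≤ -T → src e p Z θ s ≤ ε)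
    (hε' : ∀ θ s, s ≤ -T → src e' q W θ s ≤ ε') :
    AA σ (src e p Z) Z c₀ δ T (-τ) + AA σ (src e' q W) W c₀ δ T (-τ)
      + CC σ (src e p Z) Z c₀ δ τ + CC σ (src e' q W) W c₀ δ τ
    ≤ AA σ (src e p Z) Z c₀ δ T τ + AA σ (src e' q W) W c₀ δ T τ
      + ENNReal.ofReal (2 * τ) * EE σ k (src e p Z) (src e' q W) c₀ (δ - ρ)
      + ENNReal.ofReal (2 * τ * (CK * (ρ / 2)⁻¹ ^ N * Real.exp (m * (δ + 1))))
        * (HH σ (src e p Z) c₀ δ * Phi σ m (src e' q W) c₀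
          + HH σ (src e' q W) c₀ δ * Phi σ m (src e p Z) c₀)
      + ENNReal.ofReal ε' * ∫⁻ θ, (∫⁻ x in Ioo (-τ) τ, ENNReal.ofReal (W θ (x + -T))) ∂σ
      + ENNReal.ofReal ε * ∫⁻ θ, (∫⁻ x in Ioo (-τ) τ, ENNReal.ofReal (Z θ (x + -T))) ∂σ := by
  have hf := h.cont_src
  have hg := h'.cont_src
  have hW := h.rep
  have hZ := h'.rep
  generalize src e p Z = f at *
  generalize src e' q W = g at *
  have hfm := hf.measurable
  have hgm := hg.measurable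
  have hA := fun x => globA_gen hk.meas hgm hZ (a := fun θ s => pm (f θ) c₀ δ T s)
    (measurable_pm hf c₀ δ T) volume x
  have hA' := fun x => globA_swap (globA_gen hk.meas hfm hW (a := fun θ s => pm (g θ) c₀ δ T s)
    (measurable_pm hg c₀ δ T) volume x)
  have hh1 := fun l => (continuous_hh hf c₀ l).measurable
  have hh2 := fun l => (continuous_hh hg c₀ l).measurable
  have hE : Measurable (fun z : Θ × Θ => ENNReal.ofReal (2 * τ) *
      (ENNReal.ofReal (hh (f z.1) c₀ (δ - ρ)) * ENNReal.ofReal (hh (g z.2) c₀ (δ - ρ))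
        * ∫⁻ t, ENNReal.ofReal (k z.1 z.2 t))) ∧ ∫⁻ z, ENNReal.ofReal (2 * τ) *
      (ENNReal.ofReal (hh (f z.1) c₀ (δ - ρ)) * ENNReal.ofReal (hh (g z.2) c₀ (δ - ρ))
        * ∫⁻ t, ENNReal.ofReal (k z.1 z.2 t)) ∂(σ.prod σ)
      = ENNReal.ofReal (2 * τ) * EE σ k f g c₀ (δ - ρ) := by
    have h1 : Measurable fun z : Θ × Θ => ∫⁻ t, ENNReal.ofReal (k z.1 z.2 t) :=
      Measurable.lintegral_prod_right' (f := fun v : (Θ × Θ) × ℝ =>
        ENNReal.ofReal (k v.1.1 v.1.2 v.2))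
        (hk.meas.comp (f := fun v : (Θ × Θ) × ℝ => (v.1.1, v.1.2, v.2))
          (by fun_prop)).ennreal_ofReal
    have h2 : Measurable fun z : Θ × Θ => ENNReal.ofReal (hh (f z.1) c₀ (δ - ρ))
        * ENNReal.ofReal (hh (g z.2) c₀ (δ - ρ)) * ∫⁻ t, ENNReal.ofReal (k z.1 z.2 t) :=
      (((hh1 _).comp measurable_fst).ennreal_ofReal.mul
        ((hh2 _).comp measurable_snd).ennreal_ofReal).mul h1
    refine ⟨h2.const_mul _, ?_⟩
    rw [lintegral_const_mul _ h2, lintegral_prod _ h2.aemeasurable, EE]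
  have hL := ray_add (ray_add (ray_add (hA (-τ)) (hA' (-τ)))
    (globA_con hk.meas hgm hZ (hh1 δ) (Ioo (-τ) τ) c₀))
    (globA_swap (globA_con hk.meas hfm hW (hh2 δ) (Ioo (-τ) τ) c₀))
  have hR := ray_add (ray_add (ray_add (ray_add (ray_add (ray_add (hA τ) (hA' τ)) hE)
    (globA_J (σ := σ) (m := m) hgm (hh1 δ)
      (2 * τ * (CK * (ρ / 2)⁻¹ ^ N * Real.exp (m * (δ + 1)))) c₀))
    (globA_swap (globA_J (σ := σ) (m := m) hfm (hh2 δ)
      (2 * τ * (CK * (ρ / 2)⁻¹ ^ N * Real.exp (m * (δ + 1)))) c₀)))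
    (globA_swap (globA_con hk.meas hfm hW (a := fun _ => ε') measurable_const (Ioo (-τ) τ) (-T))))
    (globA_con hk.meas hgm hZ (a := fun _ => ε) measurable_const (Ioo (-τ) τ) (-T))
  rw [lintegral_const_mul' _ _ ENNReal.ofReal_ne_top,
    lintegral_const_mul' _ _ ENNReal.ofReal_ne_top] at hR
  rw [mul_add, ← add_assoc]
  refine hL.2.ge.trans (le_trans ?_ hR.2.le)
  rw [lintegral_prod _ hL.1.aemeasurable, lintegral_prod _ hR.1.aemeasurable]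
  refine lintegral_mono fun θ => lintegral_mono_ae ?_
  filter_upwards [hk.good θ] with θ' hθ
  simp only [Prod.fst_swap, Prod.snd_swap, hk.symm θ' θ]
  exact ray_ineq hθ hτ (by linarith) hρδ hT (hf.comp (Continuous.prodMk_right θ))
    (hg.comp (Continuous.prodMk_right θ')) (hε θ) (hε' θ') (by fun_prop)
    (globA_bound hk hτ hτρ hρ1 θ θ')

end Vale.Agent.P100
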