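import Vale.Agent.P100.Defs

open MeasureTheory Set
open scoped ENNReal

namespace Vale.Agent.P100

variable {f : ℝ → ℝ} {c₀ δ l l' T c s : ℝ}

theorem exists_hh (hf : Continuous f) (hl : 0 ≤ l) :
    ∃ s ∈ Icc (c₀ - l) (c₀ + l), hh f c₀ l = f s :=
  isCompact_Icc.exists_sInf_image_eq (nonempty_Icc.2 (by linarith)) hf.continuousOn

theorem hh_le (hf : Continuous f) (hs : s ∈ Icc (c₀ - l) (c₀ + l)) : hh f c₀ l ≤ f s :=
  csInf_le (isCompact_Icc.image hf).bddBelow (mem_image_of_mem f hs)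

theorem lt_hh_iff (hf : Continuous f) (hl : 0 ≤ l) :
    c < hh f c₀ l ↔ ∀ s ∈ Icc (c₀ - l) (c₀ + l), c < f s := by
  constructor
  · intro h s hs
    exact h.trans_le (hh_le hf hs)
  · intro h
    obtain ⟨s, hs, e⟩ := exists_hh (c₀ := c₀) hf hl
    rw [e]
    exact h s hs

theorem hh_pos (hf : Continuous f) (h0 : ∀ s, 0 < f s) (hl : 0 ≤ l) : 0 < hh f c₀ l :=
  (lt_hh_iff hf hl).2 fun s _ => h0 s

theorem hh_anti (hf : Continuous f) (hl : 0 ≤ l) (h : l ≤ l') : hh f c₀ l' ≤ hh f c₀ l := by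
  obtain ⟨s, hs, e⟩ := exists_hh (c₀ := c₀) hf hl
  rw [e]
  exact hh_le hf ⟨by linarith [hs.1], by linarith [hs.2]⟩

theorem lev_lam_nonneg (f : ℝ → ℝ) (c₀ δ c : ℝ) : 0 ≤ lam f c₀ δ c :=
  Real.sSup_nonneg fun _ hx => hx.1.1

theorem lev_lam_le (hδ : 0 ≤ δ) (f : ℝ → ℝ) (c₀ c : ℝ) : lam f c₀ δ c ≤ δ :=
  Real.sSup_le (fun _ hx => hx.1.2) hδ

theorem lev_lt_lam_iff {a : ℝ} (ha : 0 ≤ a) :
    a < lam f c₀ δ c ↔ ∃ l, l ∈ Icc 0 δ ∧ a < l ∧ c < hh f c₀ l := by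
  have hb : BddAbove {l | l ∈ Icc 0 δ ∧ c < hh f c₀ l} := ⟨δ, fun _ hx => hx.1.2⟩
  constructor
  · intro h
    by_cases hne : {l | l ∈ Icc 0 δ ∧ c < hh f c₀ l}.Nonempty
    · obtain ⟨l, hl, hal⟩ := exists_lt_of_lt_csSup hne h
      exact ⟨l, hl.1, hal, hl.2⟩
    · rw [not_nonempty_iff_eq_empty] at hne
      rw [lam, hne, Real.sSup_empty] at h
      exact absurd h (not_lt.2 ha)
  · rintro ⟨l, hl, hal, hc⟩
    exact hal.trans_le (le_csSup hb ⟨hl, hc⟩)

theorem lev_mem_of_lt_lam (hf : Continuous f) (hs : |s - c₀| < lam f c₀ δ c) : c < f s := by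
  obtain ⟨l, hl, hal, hc⟩ := (lev_lt_lam_iff (abs_nonneg _)).1 hs
  have h := abs_lt.1 hal
  exact (lt_hh_iff hf hl.1).1 hc s ⟨by linarith [h.1], by linarith [h.2]⟩

theorem lev_short (hf : Continuous f) (hδ : 0 ≤ δ) (hL : ¬ c < hh f c₀ δ)
    (h1 : c < f (c₀ + lam f c₀ δ c)) (h2 : c < f (c₀ - lam f c₀ δ c)) : False := by
  set L := lam f c₀ δ c with hLdef
  have hL0 : 0 ≤ L := lev_lam_nonneg f c₀ δ c
  have hLδ : L ≤ δ := lev_lam_le hδ f c₀ c
  have hall : ∀ s ∈ Icc (c₀ - L) (c₀ + L), c < f s := by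
    intro s hs
    rcases hs.1.eq_or_lt with e | h3
    · rw [← e]; exact h2
    rcases hs.2.eq_or_lt with e | h4
    · rw [e]; exact h1
    exact lev_mem_of_lt_lam (δ := δ) (c₀ := c₀) hf (abs_lt.2 ⟨by linarith, by linarith⟩)
  have hlt : L < δ := by
    rcases hLδ.eq_or_lt with e | h
    · exact absurd ((lt_hh_iff hf hδ).2 (e ▸ hall)) hL
    · exact h
  have ho : IsOpen {s | c < f s} := isOpen_lt continuous_const hf
  obtain ⟨ε₁, hε₁, hb₁⟩ := Metric.isOpen_iff.1 ho _ h1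
  obtain ⟨ε₂, hε₂, hb₂⟩ := Metric.isOpen_iff.1 ho _ h2
  obtain ⟨η, hη0, hη⟩ : ∃ η : ℝ, 0 < η ∧ η < min (min ε₁ ε₂) (δ - L) :=
    exists_between (lt_min (lt_min hε₁ hε₂) (by linarith))
  have hη1 : η < ε₁ := hη.trans_le ((min_le_left _ _).trans (min_le_left _ _))
  have hη2 : η < ε₂ := hη.trans_le ((min_le_left _ _).trans (min_le_right _ _))
  have hη3 : η < δ - L := hη.trans_le (min_le_right _ _)
  have hbig : c < hh f c₀ (L + η) := by
    refine (lt_hh_iff hf (by linarith)).2 fun s hs => ?_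
    rcases lt_or_ge s (c₀ - L) with h3 | h3
    · refine hb₂ ?_
      rw [Metric.mem_ball, Real.dist_eq, abs_lt]
      constructor <;> linarith [hs.1]
    rcases le_or_gt s (c₀ + L) with h4 | h4
    · exact hall s ⟨h3, h4⟩
    · refine hb₁ ?_
      rw [Metric.mem_ball, Real.dist_eq, abs_lt]
      constructor <;> linarith [hs.2]
  have : L < lam f c₀ δ c :=
    (lev_lt_lam_iff hL0).2 ⟨L + η, ⟨by linarith, by linarith⟩, by linarith, hbig⟩
  exact lt_irrefl _ this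

theorem cut_chi (hf : Continuous f) (hδ : 0 ≤ δ) (c : ℝ) :
    Cut c₀ δ {s | c < f s} (chi f c₀ δ c) (c < hh f c₀ δ) := by
  have hL0 : 0 ≤ lam f c₀ δ c := lev_lam_nonneg f c₀ δ c
  have hLδ : lam f c₀ δ c ≤ δ := lev_lam_le hδ f c₀ c
  have habs : |chi f c₀ δ c - c₀| ≤ lam f c₀ δ c := by
    unfold chi
    split_ifs
    · simpa using hL0
    · simp [abs_of_nonneg hL0]
    · simp [abs_of_nonneg hL0]
  refine ⟨(isOpen_lt continuous_const hf).measurableSet, habs.trans hLδ, ?_, ?_, ?_⟩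
  · intro s hs
    exact lev_mem_of_lt_lam (δ := δ) (c₀ := c₀) hf
      (abs_lt.2 ⟨by linarith [hs.1], by linarith [hs.2]⟩)
  · intro h
    exact ⟨by simp [chi, h], fun s hs => (lt_hh_iff hf hδ).1 h s hs⟩
  · intro h hmem
    simp only [chi, if_neg h, mem_ofPred_eq] at hmem
    split_ifs at hmem with h1
    · exact absurd hmem (not_lt.2 h1)
    · exact lev_short hf hδ h (not_le.1 h1) hmem

theorem near_long (hf : Continuous f) (hl : 0 ≤ l) (hlδ : l ≤ δ)
    (h : c < hh f c₀ δ ∨ l < |chi f c₀ δ c - c₀|) : c < hh f c₀ l := by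
  rcases h with h | h
  · exact h.trans_le (hh_anti hf hl hlδ)
  · refine (lt_hh_iff hf hl).2 fun s hs => ?_
    exact (cut_chi (c₀ := c₀) hf (hl.trans hlδ) c).sym ⟨by linarith [hs.1], by linarith [hs.2]⟩

theorem pm_le : pm f c₀ δ T s ≤ ENNReal.ofReal (f s) := by
  calc pm f c₀ δ T s ≤ volume (Ioo 0 (f s)) := measure_mono fun c hc => ⟨hc.1, hc.2.1⟩
    _ = ENNReal.ofReal (f s) := by simp

theorem pm_eq_zero (hf : Continuous f) (hδ : 0 ≤ δ) (hs : s ∉ Ioo (-T) (c₀ + δ)) :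
    pm f c₀ δ T s = 0 := by
  have : {c : ℝ | 0 < c ∧ c < f s ∧ -T < s ∧ s < chi f c₀ δ c} = ∅ := by
    refine eq_empty_of_forall_notMem fun c hc => hs ⟨hc.2.2.1, ?_⟩
    have := abs_le.1 (cut_chi (c₀ := c₀) hf hδ c).near
    linarith [hc.2.2.2, this.2]
  rw [pm, this, measure_empty]

theorem lev_set_eq (hf : Continuous f) (hδ : 0 ≤ δ) (hs : s ∈ Ioo (-T) (c₀ - δ)) :
    {c : ℝ | 0 < c ∧ c < f s ∧ -T < s ∧ s < chi f c₀ δ c} = Ioo 0 (f s) := by
  ext c
  constructor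
  · intro hc
    exact ⟨hc.1, hc.2.1⟩
  · intro hc
    refine ⟨hc.1, hc.2, hs.1, ?_⟩
    have := abs_le.1 (cut_chi (c₀ := c₀) hf hδ c).near
    linarith [hs.2, this.1]

theorem pm_eq (hf : Continuous f) (hδ : 0 ≤ δ) (hs : s ∈ Ioo (-T) (c₀ - δ)) :
    pm f c₀ δ T s = ENNReal.ofReal (f s) := by
  rw [pm, lev_set_eq hf hδ hs]
  simp

section param

variable {Θ : Type} [TopologicalSpace Θ] {F : Θ → ℝ → ℝ}

theorem continuous_hh (hF : Continuous (fun z : Θ × ℝ => F z.1 z.2)) (c₀ l : ℝ) :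
    Continuous (fun θ => hh (F θ) c₀ l) :=
  isCompact_Icc.continuous_sInf (f := F) hF

variable [MeasurableSpace Θ] [OpensMeasurableSpace Θ] [SecondCountableTopology Θ]

theorem lev_measurable_lam (hF : Continuous (fun z : Θ × ℝ => F z.1 z.2)) (c₀ δ : ℝ) :
    Measurable (fun z : Θ × ℝ => lam (F z.1) c₀ δ z.2) := by
  refine measurable_of_Ioi fun a => ?_
  rcases lt_or_ge a 0 with ha | ha
  · have : (fun z : Θ × ℝ => lam (F z.1) c₀ δ z.2) ⁻¹' Ioi a = univ :=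
      eq_univ_of_forall fun z => ha.trans_le (lev_lam_nonneg _ _ _ _)
    rw [this]
    exact MeasurableSet.univ
  · have : (fun z : Θ × ℝ => lam (F z.1) c₀ δ z.2) ⁻¹' Ioi a
        = ⋃ l ∈ {l | l ∈ Icc 0 δ ∧ a < l}, {z : Θ × ℝ | z.2 < hh (F z.1) c₀ l} := by
      ext z
      simp only [mem_preimage, mem_Ioi, mem_iUnion, mem_ofPred_eq, exists_prop]
      rw [lev_lt_lam_iff ha]
      constructor
      · rintro ⟨l, h1, h2, h3⟩
        exact ⟨l, ⟨h1, h2⟩, h3⟩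
      · rintro ⟨l, ⟨h1, h2⟩, h3⟩
        exact ⟨l, h1, h2, h3⟩
    rw [this]
    refine (isOpen_biUnion fun l _ => ?_).measurableSet
    exact isOpen_lt continuous_snd ((continuous_hh hF c₀ l).comp continuous_fst)

theorem measurable_chi (hF : Continuous (fun z : Θ × ℝ => F z.1 z.2)) (c₀ δ : ℝ) :
    Measurable (fun z : Θ × ℝ => chi (F z.1) c₀ δ z.2) := by
  have hl := lev_measurable_lam hF c₀ δ
  have h1 : MeasurableSet {z : Θ × ℝ | z.2 < hh (F z.1) c₀ δ} :=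
    (isOpen_lt continuous_snd ((continuous_hh hF c₀ δ).comp continuous_fst)).measurableSet
  have h2 : Measurable (fun z : Θ × ℝ => F z.1 (c₀ + lam (F z.1) c₀ δ z.2)) :=
    hF.measurable.comp (measurable_fst.prodMk (hl.const_add c₀))
  have h3 : MeasurableSet {z : Θ × ℝ | F z.1 (c₀ + lam (F z.1) c₀ δ z.2) ≤ z.2} :=
    measurableSet_le h2 measurable_snd
  unfold chi
  exact Measurable.ite h1 measurable_const (Measurable.ite h3 (hl.const_add c₀) (hl.const_sub c₀))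

theorem lev_measurableSet (hF : Continuous (fun z : Θ × ℝ => F z.1 z.2)) (c₀ δ T : ℝ) :
    MeasurableSet {w : (Θ × ℝ) × ℝ | 0 < w.2 ∧ w.2 < F w.1.1 w.1.2 ∧ -T < w.1.2 ∧
      w.1.2 < chi (F w.1.1) c₀ δ w.2} := by
  have h1 : Measurable (fun w : (Θ × ℝ) × ℝ => F w.1.1 w.1.2) :=
    hF.measurable.comp measurable_fst
  have h2 : Measurable (fun w : (Θ × ℝ) × ℝ => chi (F w.1.1) c₀ δ w.2) :=
    (measurable_chi hF c₀ δ).comp (measurable_fst.fst.prodMk measurable_snd)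
  refine (measurableSet_lt measurable_const measurable_snd).inter
    ((measurableSet_lt measurable_snd h1).inter
      ((measurableSet_lt measurable_const measurable_fst.snd).inter
        (measurableSet_lt measurable_fst.snd h2)))

theorem measurable_pm (hF : Continuous (fun z : Θ × ℝ => F z.1 z.2)) (c₀ δ T : ℝ) :
    Measurable (fun z : Θ × ℝ => pm (F z.1) c₀ δ T z.2) :=
  measurable_measure_prodMk_left (ν := volume) (lev_measurableSet hF c₀ δ T)

end param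

theorem measurable_chi' (hf : Continuous f) (c₀ δ : ℝ) : Measurable (chi f c₀ δ) :=
  (measurable_chi (Θ := Unit) (F := fun _ => f) (hf.comp continuous_snd) c₀ δ).comp
    (measurable_prodMk_left (x := ()))

theorem measurable_pm' (hf : Continuous f) (c₀ δ T : ℝ) : Measurable (pm f c₀ δ T) :=
  (measurable_pm (Θ := Unit) (F := fun _ => f) (hf.comp continuous_snd) c₀ δ T).comp
    (measurable_prodMk_left (x := ()))

end Vale.Agent.P100
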