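import Vale.Agent.P100.Defs

open MeasureTheory Set Metric
open scoped ENNReal

namespace Vale.Agent.P100

variable {n : ℕ}

/-- The Newtonian kernel in logarithmic polar coordinates. -/
noncomputable def kk (n : ℕ) (c : ℝ) (θ θ' : sphere (0 : EuclideanSpace ℝ (Fin n)) 1) (t : ℝ) : ℝ :=
  c * (2 * Real.cosh t - 2 * inner ℝ θ.1 θ'.1) ^ (-(((n : ℝ) - 2) / 2))

/-- A function in logarithmic polar coordinates with the conformal weight. -/
noncomputable def cyl (n : ℕ) (u : EuclideanSpace ℝ (Fin n) → ℝ)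
    (θ : sphere (0 : EuclideanSpace ℝ (Fin n)) 1) (s : ℝ) : ℝ :=
  Real.exp (((n : ℝ) - 2) / 2 * s) * u (Real.exp s • θ.1)

theorem polar_nontrivial (hn : 0 < n) : Nontrivial (EuclideanSpace ℝ (Fin n)) := by
  have : Nonempty (Fin n) := ⟨⟨0, hn⟩⟩
  infer_instance

theorem polar_radial (hn : 0 < n) {G : ℝ → ℝ≥0∞} (hG : Measurable G) :
    ∫⁻ r : Ioi (0 : ℝ), G r.1 ∂(Measure.volumeIoiPow (n - 1)) =
      ∫⁻ t : ℝ, ENNReal.ofReal (Real.exp (n * t)) * G (Real.exp t) := by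
  have h1 : Measurable fun r : Ioi (0 : ℝ) => ENNReal.ofReal (r.1 ^ (n - 1)) :=
    (measurable_subtype_coe.pow_const _).ennreal_ofReal
  rw [Measure.volumeIoiPow, lintegral_withDensity_eq_lintegral_mul _ h1
    (g := fun r : Ioi (0 : ℝ) => G r.1) (hG.comp measurable_subtype_coe)]
  simp only [Pi.mul_apply]
  rw [lintegral_subtype_comap measurableSet_Ioi fun r => ENNReal.ofReal (r ^ (n - 1)) * G r,
    ← Real.range_exp, ← image_univ, lintegral_image_eq_lintegral_abs_deriv_mul MeasurableSet.univ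
      (fun x _ => (Real.hasDerivAt_exp x).hasDerivWithinAt) Real.exp_injective.injOn,
    Measure.restrict_univ]
  refine lintegral_congr fun t => ?_
  rw [← mul_assoc, ← ENNReal.ofReal_mul (abs_nonneg _), abs_of_pos (Real.exp_pos t),
    ← pow_succ', Nat.sub_add_cancel hn, Real.exp_nat_mul]

theorem lintegral_polar (hn : 0 < n) {F : EuclideanSpace ℝ (Fin n) → ℝ≥0∞} (hF : Measurable F) :
    ∫⁻ y, F y = ∫⁻ θ, (∫⁻ t : ℝ, ENNReal.ofReal (Real.exp (n * t)) * F (Real.exp t • θ.1))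
      ∂(volume : Measure (EuclideanSpace ℝ (Fin n))).toSphere := by
  have := polar_nontrivial hn
  have h1 := (volume : Measure (EuclideanSpace ℝ (Fin n))).measurePreserving_homeomorphUnitSphereProd
    |>.lintegral_comp_emb (Homeomorph.measurableEmbedding _) fun z => F (z.2.1 • z.1.1)
  have h2 : ∀ a : ({0}ᶜ : Set (EuclideanSpace ℝ (Fin n))),
      (homeomorphUnitSphereProd _ a).2.1 • (homeomorphUnitSphereProd _ a).1.1 = a.1 := fun a => by
    rw [← homeomorphUnitSphereProd_symm_apply_coe, Homeomorph.symm_apply_apply]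
  simp only [h2] at h1
  rw [lintegral_subtype_comap (measurableSet_singleton _).compl, restrict_compl_singleton,
    finrank_euclideanSpace_fin] at h1
  have hm : Measurable fun b : sphere (0 : EuclideanSpace ℝ (Fin n)) 1 × Ioi (0 : ℝ) =>
      F (b.2.1 • b.1.1) := hF.comp (by fun_prop)
  rw [h1, lintegral_prod _ hm.aemeasurable]
  refine lintegral_congr fun θ => ?_
  exact polar_radial hn (G := fun r => F (r • θ.1)) (hF.comp (by fun_prop))

theorem polar_norm (θ : sphere (0 : EuclideanSpace ℝ (Fin n)) 1) : ‖θ.1‖ = 1 :=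
  norm_eq_of_mem_sphere θ

theorem polar_inner_abs (θ θ' : sphere (0 : EuclideanSpace ℝ (Fin n)) 1) :
    |inner ℝ θ.1 θ'.1| ≤ (1 : ℝ) := by
  simpa only [polar_norm, mul_one] using abs_real_inner_le_norm θ.1 θ'.1

theorem polar_base_nonneg (θ θ' : sphere (0 : EuclideanSpace ℝ (Fin n)) 1) (t : ℝ) :
    0 ≤ 2 * Real.cosh t - 2 * inner ℝ θ.1 θ'.1 := by
  have := (abs_le.1 (polar_inner_abs θ θ')).2
  have := Real.one_le_cosh t
  linarith

theorem polar_cosh_le (t : ℝ) : 2 * Real.cosh t + 2 ≤ 4 * Real.exp |t| := by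
  rw [← Real.cosh_abs, Real.cosh_eq]
  have h1 : Real.exp (-|t|) ≤ Real.exp |t| := Real.exp_le_exp.2 (neg_le_self (abs_nonneg t))
  have h2 : 1 ≤ Real.exp |t| := Real.one_le_exp (abs_nonneg t)
  linarith

theorem polar_cosh_ge {ρ t : ℝ} (h0 : 0 < ρ) (h1 : ρ ≤ 1) (ht : ρ ≤ |t|) :
    Real.exp |t| * (ρ / 2) ^ 2 ≤ 2 * Real.cosh t - 2 := by
  have e1 : Real.exp |t| * Real.exp (-|t|) = 1 := by rw [← Real.exp_add, add_neg_cancel, Real.exp_zero]
  have e2 : 2 * Real.cosh t - 2 = Real.exp |t| * (1 - Real.exp (-|t|)) ^ 2 := by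
    rw [← Real.cosh_abs, Real.cosh_eq]
    linear_combination (2 - Real.exp (-|t|)) * e1
  have e3 : Real.exp (-|t|) ≤ 1 - ρ / 2 := by
    refine (Real.exp_le_exp.2 (neg_le_neg ht)).trans ?_
    rw [Real.exp_neg, inv_le_iff_one_le_mul₀ (Real.exp_pos _)]
    have := Real.add_one_le_exp ρ
    nlinarith
  rw [e2]
  exact mul_le_mul_of_nonneg_left (pow_le_pow_left₀ (by positivity) (by linarith) 2)
    (Real.exp_pos _).le

theorem polar_upper (hn : 3 ≤ n) {c : ℝ} (hc : 0 < c) {ρ : ℝ} (h0 : 0 < ρ) (h1 : ρ ≤ 1)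
    (θ θ' : sphere (0 : EuclideanSpace ℝ (Fin n)) 1) {t : ℝ} (ht : ρ ≤ |t|) :
    kk n c θ θ' t ≤ c * 2 ^ (n - 2) * ρ⁻¹ ^ (n - 2) * Real.exp (-(((n : ℝ) - 2) / 2 * |t|)) := by
  have hn' : (3 : ℝ) ≤ n := by exact_mod_cast hn
  have e1 := (abs_le.1 (polar_inner_abs θ θ')).2
  have e2 := polar_cosh_ge h0 h1 ht
  have e3 : (2 * Real.cosh t - 2 * inner ℝ θ.1 θ'.1) ^ (-(((n : ℝ) - 2) / 2)) ≤
      (Real.exp |t| * (ρ / 2) ^ 2) ^ (-(((n : ℝ) - 2) / 2)) :=
    Real.rpow_le_rpow_of_nonpos (by positivity) (by linarith) (by linarith)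
  refine (mul_le_mul_of_nonneg_left e3 hc.le).trans (le_of_eq ?_)
  have e4 : ((ρ / 2) ^ 2) ^ (-(((n : ℝ) - 2) / 2)) = 2 ^ (n - 2) * ρ⁻¹ ^ (n - 2) := by
    have e5 : ((2 : ℕ) : ℝ) * -(((n : ℝ) - 2) / 2) = -((n - 2 : ℕ) : ℝ) := by
      rw [Nat.cast_sub (by omega)]
      push_cast
      ring
    rw [← Real.rpow_natCast, ← Real.rpow_mul (by positivity), e5, Real.rpow_neg (by positivity),
      Real.rpow_natCast, ← inv_pow, ← mul_pow, inv_div, div_eq_mul_inv]
  rw [Real.mul_rpow (by positivity) (by positivity), e4, ← Real.exp_mul]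
  have e6 : |t| * -(((n : ℝ) - 2) / 2) = -(((n : ℝ) - 2) / 2 * |t|) := by ring
  rw [e6]
  ring

theorem polar_int_exp {m : ℝ} (hm : 0 < m) : Integrable fun t : ℝ => Real.exp (-(m * |t|)) := by
  rw [← integrableOn_univ, ← Iic_union_Ioi (a := (0 : ℝ))]
  refine IntegrableOn.union ?_ ?_
  · refine (integrableOn_exp_mul_Iic hm 0).congr_fun (fun t ht => ?_) measurableSet_Iic
    simp only [abs_of_nonpos (mem_Iic.1 ht), mul_neg, neg_neg]
  · refine (integrableOn_exp_mul_Ioi (neg_lt_zero.2 hm) 0).congr_fun (fun t ht => ?_)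
      measurableSet_Ioi
    simp only [abs_of_pos (mem_Ioi.1 ht), neg_mul]

theorem polar_null (hn : 3 ≤ n) (θ : sphere (0 : EuclideanSpace ℝ (Fin n)) 1) :
    (volume : Measure (EuclideanSpace ℝ (Fin n))).toSphere {θ} = 0 := by
  rw [Measure.toSphere_apply' _ (measurableSet_singleton θ)]
  refine mul_eq_zero_of_right _ (measure_mono_null (t := (Submodule.span ℝ {θ.1} : Submodule ℝ _))
    ?_ (Measure.addHaar_submodule _ _ fun h => ?_))
  · rintro _ ⟨r, -, _, ⟨_, rfl, rfl⟩, rfl⟩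
    exact Submodule.smul_mem _ _ (Submodule.mem_span_singleton_self _)
  · have h1 := finrank_span_singleton (K := ℝ) (ne_zero_of_mem_unit_sphere θ)
    rw [h, finrank_top, finrank_euclideanSpace_fin] at h1
    omega

theorem polar_meas (n : ℕ) (c : ℝ) :
    Measurable fun z : sphere (0 : EuclideanSpace ℝ (Fin n)) 1 ×
      sphere (0 : EuclideanSpace ℝ (Fin n)) 1 × ℝ => kk n c z.1 z.2.1 z.2.2 := by
  refine Measurable.const_mul (Measurable.pow_const (Continuous.measurable ?_) _) _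
  fun_prop

theorem polar_nonneg {c : ℝ} (hc : 0 < c) (θ θ' : sphere (0 : EuclideanSpace ℝ (Fin n)) 1)
    (t : ℝ) : 0 ≤ kk n c θ θ' t :=
  mul_nonneg hc.le (Real.rpow_nonneg (polar_base_nonneg θ θ' t) _)

theorem polar_good (hn : 3 ≤ n) {c : ℝ} (hc : 0 < c)
    {θ θ' : sphere (0 : EuclideanSpace ℝ (Fin n)) 1} (h : θ' ≠ θ) : K1 (kk n c θ θ') := by
  have hn' : (3 : ℝ) ≤ n := by exact_mod_cast hn
  have hm : 0 < ((n : ℝ) - 2) / 2 := by linarith
  have hw : inner ℝ θ.1 θ'.1 < (1 : ℝ) :=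
    (inner_lt_one_iff_real_of_norm_eq_one (polar_norm θ) (polar_norm θ')).2
      fun h' => h (Subtype.ext h'.symm)
  have hmeas : Measurable (kk n c θ θ') :=
    (polar_meas n c).comp (f := fun t => (θ, θ', t)) (by fun_prop)
  have hle : ∀ s t, |s| ≤ |t| → kk n c θ θ' t ≤ kk n c θ θ' s := by
    intro s t hst
    have h1 := Real.cosh_le_cosh.2 hst
    have h2 := Real.one_le_cosh s
    exact mul_le_mul_of_nonneg_left
      (Real.rpow_le_rpow_of_nonpos (by linarith) (by linarith) (by linarith)) hc.le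
  refine ⟨hmeas, polar_nonneg hc θ θ', fun t => by simp only [kk, Real.cosh_neg],
    fun s hs t ht hst => hle s t (by rwa [abs_of_nonneg hs, abs_of_nonneg ht]), ?_⟩
  refine Integrable.mono' ((polar_int_exp hm).const_mul
    (kk n c θ θ' 0 * Real.exp (((n : ℝ) - 2) / 2) + c * 2 ^ (n - 2)))
    hmeas.aestronglyMeasurable (Filter.Eventually.of_forall fun t => ?_)
  rw [Real.norm_of_nonneg (polar_nonneg hc θ θ' t), add_mul]
  have h0 := polar_nonneg hc θ θ' 0
  rcases le_total 1 |t| with ht | ht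
  · have h1 := polar_upper hn hc one_pos le_rfl θ θ' ht
    rw [inv_one, one_pow, mul_one] at h1
    exact h1.trans (le_add_of_nonneg_left (by positivity))
  · refine le_trans ?_ (le_add_of_nonneg_right (by positivity))
    rw [mul_assoc, ← Real.exp_add]
    refine (hle 0 t (by simp)).trans (le_mul_of_one_le_right h0 (Real.one_le_exp ?_))
    nlinarith

theorem ker_kk (hn : 3 ≤ n) {c : ℝ} (hc : 0 < c) :
    Ker (volume : Measure (EuclideanSpace ℝ (Fin n))).toSphere (((n : ℝ) - 2) / 2) (n - 2)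
      (c * 2 ^ (n - 2)) (kk n c) := by
  have hn' : (3 : ℝ) ≤ n := by exact_mod_cast hn
  refine ⟨by linarith, by positivity, polar_meas n c, fun θ θ' => ?_, polar_nonneg hc,
    fun θ θ' t => by simp only [kk, Real.cosh_neg], fun θ => ?_,
    ⟨c * 4 ^ (-(((n : ℝ) - 2) / 2)), by positivity, fun θ θ' t ht => ?_⟩,
    fun ρ h0 h1 θ θ' t ht => polar_upper hn hc h0 h1 θ θ' ht⟩
  · funext t
    simp only [kk, real_inner_comm]
  · filter_upwards [compl_mem_ae_iff.2 (polar_null hn θ)] with θ' h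
    exact polar_good hn hc h
  · obtain ⟨e1, e2⟩ := abs_le.1 (polar_inner_abs θ θ')
    have e3 := Real.one_lt_cosh.2 ht
    have e4 := polar_cosh_le t
    have e5 : (4 * Real.exp |t|) ^ (-(((n : ℝ) - 2) / 2)) ≤
        (2 * Real.cosh t - 2 * inner ℝ θ.1 θ'.1) ^ (-(((n : ℝ) - 2) / 2)) :=
      Real.rpow_le_rpow_of_nonpos (by linarith) (by linarith) (by linarith)
    refine le_trans (le_of_eq ?_) (mul_le_mul_of_nonneg_left e5 hc.le)
    rw [Real.mul_rpow (by norm_num) (by positivity), ← Real.exp_mul, mul_assoc]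
    congr 3
    ring

theorem polar_norm_smul (θ : sphere (0 : EuclideanSpace ℝ (Fin n)) 1) (t : ℝ) :
    ‖Real.exp t • θ.1‖ = Real.exp t := by
  rw [norm_smul, polar_norm, mul_one, Real.norm_of_nonneg (Real.exp_pos t).le]

theorem polar_dist (θ θ' : sphere (0 : EuclideanSpace ℝ (Fin n)) 1) (s t : ℝ) :
    ‖Real.exp s • θ.1 - Real.exp t • θ'.1‖ ^ (2 - (n : ℝ)) =
      Real.exp (-(((n : ℝ) - 2) / 2) * (s + t)) *
        (2 * Real.cosh (s - t) - 2 * inner ℝ θ.1 θ'.1) ^ (-(((n : ℝ) - 2) / 2)) := by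
  have e1 : ‖Real.exp s • θ.1 - Real.exp t • θ'.1‖ ^ 2 =
      Real.exp (s + t) * (2 * Real.cosh (s - t) - 2 * inner ℝ θ.1 θ'.1) := by
    rw [norm_sub_sq_real, polar_norm_smul, polar_norm_smul, real_inner_smul_left,
      real_inner_smul_right, Real.cosh_eq, neg_sub, Real.exp_sub, Real.exp_sub, Real.exp_add]
    field_simp
    ring
  have e2 : 2 - (n : ℝ) = ((2 : ℕ) : ℝ) * -(((n : ℝ) - 2) / 2) := by
    push_cast
    ring
  rw [e2, Real.rpow_mul (norm_nonneg _), Real.rpow_natCast, e1,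
    Real.mul_rpow (Real.exp_pos _).le (polar_base_nonneg θ θ' _), ← Real.exp_mul, mul_comm (s + t)]

theorem polar_meas_src {c p A : ℝ} {v : EuclideanSpace ℝ (Fin n) → ℝ} (hv : Continuous v)
    (x : EuclideanSpace ℝ (Fin n)) :
    Measurable fun y => ENNReal.ofReal (c * ‖x - y‖ ^ (2 - (n : ℝ)) * (‖y‖ ^ A * v y ^ p)) :=
  ((((measurable_const.sub measurable_id).norm.pow_const _).const_mul c).mul
    ((measurable_norm.pow_const _).mul (hv.measurable.pow_const _))).ennreal_ofReal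

theorem half_cyl (hn : 3 ≤ n) {c p A : ℝ} (hc : 0 < c) (hp : 0 < p) (hA : -2 < A)
    {u v : EuclideanSpace ℝ (Fin n) → ℝ} (hv : Continuous v) (hv2 : ContDiffOn ℝ 2 v {0}ᶜ)
    (h0 : ∀ x, 0 < v x)
    (hr : ∀ x, ∫⁻ y, ENNReal.ofReal (c * ‖x - y‖ ^ (2 - (n : ℝ)) * (‖y‖ ^ A * v y ^ p))
      = ENNReal.ofReal (u x)) :
    Half (volume : Measure (EuclideanSpace ℝ (Fin n))).toSphere (kk n c) (((n : ℝ) - 2) / 2) p
      (((n : ℝ) - 2) / 2 + 2 + A - p * (((n : ℝ) - 2) / 2)) (cyl n u) (cyl n v) := by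
  have hne : ∀ (θ : sphere (0 : EuclideanSpace ℝ (Fin n)) 1) (s : ℝ),
      Real.exp s • θ.1 ∈ ({0}ᶜ : Set (EuclideanSpace ℝ (Fin n))) := fun θ s =>
    smul_ne_zero (Real.exp_pos s).ne' (ne_zero_of_mem_unit_sphere θ)
  have hc1 : Continuous fun z : sphere (0 : EuclideanSpace ℝ (Fin n)) 1 × ℝ =>
      Real.exp z.2 • z.1.1 := by fun_prop
  refine ⟨hp, ?_, fun θ s => mul_pos (Real.exp_pos _) (h0 _), ?_, ?_, by linarith, fun θ s => ?_⟩
  · unfold cyl
    fun_prop
  · refine ⟨fun θ s => Real.exp (((n : ℝ) - 2) / 2 * s) * (((n : ℝ) - 2) / 2) *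
      v (Real.exp s • θ.1) + Real.exp (((n : ℝ) - 2) / 2 * s) *
        fderiv ℝ v (Real.exp s • θ.1) (Real.exp s • θ.1), ?_, fun θ s => ?_⟩
    · have h1 : Continuous fun z : sphere (0 : EuclideanSpace ℝ (Fin n)) 1 × ℝ =>
          fderiv ℝ v (Real.exp z.2 • z.1.1) :=
        (hv2.continuousOn_fderiv_of_isOpen isOpen_compl_singleton (by norm_num)).comp_continuous
          hc1 fun z => hne z.1 z.2
      exact Continuous.add (by fun_prop) (Continuous.mul (by fun_prop) (h1.clm_apply hc1))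
    · have h1 : DifferentiableAt ℝ v (Real.exp s • θ.1) :=
        (hv2.differentiableOn (by norm_num)).differentiableAt
          (isOpen_compl_singleton.mem_nhds (hne θ s))
      have h2 := h1.hasFDerivAt.comp_hasDerivAt s ((Real.hasDerivAt_exp s).smul_const θ.1)
      have h3 : HasDerivAt (fun s => Real.exp (((n : ℝ) - 2) / 2 * s))
          (Real.exp (((n : ℝ) - 2) / 2 * s) * (((n : ℝ) - 2) / 2)) s := by
        simpa using ((hasDerivAt_id s).const_mul (((n : ℝ) - 2) / 2)).exp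
      exact h3.mul h2
  · obtain ⟨x, -, hx⟩ := (isCompact_closedBall (0 : EuclideanSpace ℝ (Fin n)) 1).exists_isMaxOn
      ⟨0, mem_closedBall_self zero_le_one⟩ hv.continuousOn
    refine ⟨v x, h0 x, fun θ s hs => ?_⟩
    rw [cyl, mul_comm]
    refine mul_le_mul_of_nonneg_right (hx ?_) (Real.exp_pos _).le
    rw [mem_closedBall_zero_iff, polar_norm_smul]
    exact Real.exp_le_one_iff.2 hs
  · rw [cyl, ENNReal.ofReal_mul (Real.exp_pos _).le, ← hr,
      lintegral_polar (by omega) (polar_meas_src hv _), pot,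
      ← lintegral_const_mul' _ _ ENNReal.ofReal_ne_top]
    refine lintegral_congr fun θ' => ?_
    rw [pt, ← lintegral_const_mul' _ _ ENNReal.ofReal_ne_top]
    refine lintegral_congr fun t => ?_
    rw [← ENNReal.ofReal_mul (Real.exp_pos _).le, ← ENNReal.ofReal_mul (Real.exp_pos _).le,
      ← ENNReal.ofReal_mul (polar_nonneg hc _ _ _), polar_dist, polar_norm_smul, src, cyl, kk,
      Real.mul_rpow (Real.exp_pos _).le (h0 _).le, ← Real.exp_mul, ← Real.exp_mul]
    congr 1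
    have e1 : Real.exp (((n : ℝ) - 2) / 2 * s) * Real.exp (n * t) *
        Real.exp (-(((n : ℝ) - 2) / 2) * (s + t)) * Real.exp (t * A) =
        Real.exp ((((n : ℝ) - 2) / 2 + 2 + A - p * (((n : ℝ) - 2) / 2)) * t) *
          Real.exp (((n : ℝ) - 2) / 2 * t * p) := by
      simp only [← Real.exp_add]
      congr 1
      ring
    linear_combination (c * (2 * Real.cosh (s - t) - 2 * inner ℝ θ.1 θ'.1) ^
      (-(((n : ℝ) - 2) / 2)) * v (Real.exp t • θ'.1) ^ p) * e1

theorem polar_infinite (hn : 3 ≤ n) {c p A b η : ℝ} (hc : 0 < c) (hp : 0 < p) (hη : 0 < η)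
    {v : EuclideanSpace ℝ (Fin n) → ℝ} (hv : Continuous v)
    (hr : ∫⁻ y, ENNReal.ofReal (c * ‖0 - y‖ ^ (2 - (n : ℝ)) * (‖y‖ ^ A * v y ^ p))
      ≤ ENNReal.ofReal b) {S : Set ℝ} (hS : MeasurableSet S) (hS' : volume S = ⊤)
    (h1 : ∀ t ∈ S, 0 ≤ (2 + A) * t)
    (h2 : ∀ t ∈ S, ∀ θ : sphere (0 : EuclideanSpace ℝ (Fin n)) 1, η ≤ v (Real.exp t • θ.1)) :
    False := by
  have := polar_nontrivial (n := n) (by omega)
  rw [lintegral_polar (by omega) (polar_meas_src hv _)] at hr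
  have h3 : ∀ θ : sphere (0 : EuclideanSpace ℝ (Fin n)) 1,
      ∫⁻ t : ℝ, ENNReal.ofReal (Real.exp (n * t)) * ENNReal.ofReal
        (c * ‖0 - Real.exp t • θ.1‖ ^ (2 - (n : ℝ)) *
          (‖Real.exp t • θ.1‖ ^ A * v (Real.exp t • θ.1) ^ p)) = ⊤ := by
    intro θ
    have h4 : ∫⁻ _ in S, ENNReal.ofReal (c * η ^ p) = ⊤ := by
      rw [setLIntegral_const, hS', ENNReal.mul_top]
      exact (ENNReal.ofReal_pos.2 (by positivity)).ne'
    rw [eq_top_iff, ← h4]
    refine le_trans (setLIntegral_mono' hS fun t ht => ?_) (setLIntegral_le_lintegral S _)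
    rw [← ENNReal.ofReal_mul (Real.exp_pos _).le, zero_sub, norm_neg, polar_norm_smul,
      ← Real.exp_mul, ← Real.exp_mul]
    refine ENNReal.ofReal_le_ofReal ?_
    have e1 : Real.exp (n * t) * Real.exp (t * (2 - (n : ℝ))) * Real.exp (t * A) =
        Real.exp ((2 + A) * t) := by
      simp only [← Real.exp_add]
      congr 1
      ring
    have e2 : η ^ p ≤ v (Real.exp t • θ.1) ^ p := Real.rpow_le_rpow hη.le (h2 t ht θ) hp.le
    have e3 : 1 ≤ Real.exp ((2 + A) * t) := Real.one_le_exp (h1 t ht)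
    have e4 : 0 < η ^ p := Real.rpow_pos_of_pos hη p
    calc c * η ^ p ≤ Real.exp ((2 + A) * t) * (c * v (Real.exp t • θ.1) ^ p) :=
          (mul_le_mul_of_nonneg_left e2 hc.le).trans
            (le_mul_of_one_le_left (mul_nonneg hc.le (e4.le.trans e2)) e3)
      _ = _ := by rw [← e1]; ring
  simp only [h3] at hr
  rw [lintegral_const, ENNReal.top_mul
    (Measure.measure_univ_ne_zero.2 (Measure.toSphere_ne_zero _))] at hr
  exact ENNReal.ofReal_ne_top (top_le_iff.1 hr)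

/-- Finiteness of the potential at the origin forces `A > -2` and `inf v = 0`. -/
theorem of_finite (hn : 3 ≤ n) {c p A b : ℝ} (hc : 0 < c) (hp : 0 < p)
    {v : EuclideanSpace ℝ (Fin n) → ℝ} (hv : Continuous v) (h0 : ∀ x, 0 < v x)
    (hr : ∫⁻ y, ENNReal.ofReal (c * ‖0 - y‖ ^ (2 - (n : ℝ)) * (‖y‖ ^ A * v y ^ p))
      ≤ ENNReal.ofReal b) :
    -2 < A ∧ ∀ η : ℝ, 0 < η → ∃ x, v x < η := by
  have hA : -2 < A := by
    by_contra hA
    obtain ⟨x, -, hx⟩ := (isCompact_closedBall (0 : EuclideanSpace ℝ (Fin n)) 1).exists_isMinOn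
      ⟨0, mem_closedBall_self zero_le_one⟩ hv.continuousOn
    refine polar_infinite hn hc hp (h0 x) hv hr measurableSet_Iic (Real.volume_Iic (a := 0))
      (fun t ht => mul_nonneg_of_nonpos_of_nonpos (by linarith) ht) fun t ht θ => hx ?_
    rw [mem_closedBall_zero_iff, polar_norm_smul]
    exact Real.exp_le_one_iff.2 ht
  refine ⟨hA, fun η hη => ?_⟩
  by_contra h
  exact polar_infinite hn hc hp hη hv hr measurableSet_Ici (Real.volume_Ici (a := 0))
    (fun t ht => mul_nonneg (by linarith) ht) fun t _ θ => not_lt.1 fun h' => h ⟨_, h'⟩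

end Vale.Agent.P100
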