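import Vale.Agent.P100.RepAux

open MeasureTheory Set Filter Topology Module
open scoped ENNReal Laplacian RealInnerProductSpace

namespace Vale.Agent.P100

set_option linter.unusedSectionVars false

section

variable {E : Type} [NormedAddCommGroup E] [InnerProductSpace ℝ E]
  [FiniteDimensional ℝ E] [MeasurableSpace E] [BorelSpace E] (μ : Measure E) [μ.IsAddHaarMeasure]

theorem rep_seq : Tendsto (fun j : ℕ => 1 / ((j : ℝ) + 1)) atTop (𝓝[>] 0) :=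
  tendsto_nhdsWithin_iff.2 ⟨tendsto_one_div_add_atTop_nhds_zero_nat,
    Eventually.of_forall fun _ => mem_Ioi.2 Nat.one_div_pos_of_nat⟩

theorem rep_ball {x y : E} {R : ℝ} (hR : 0 ≤ R) (h : y ∉ Metric.closedBall x R) :
    R ^ 2 < ‖y - x‖ ^ 2 :=
  pow_lt_pow_left₀ (by simpa [dist_eq_norm] using h) hR two_ne_zero

theorem rep_remove (hn : 3 ≤ finrank ℝ E) {u f : E → ℝ} (hc : Continuous u)
    (hu : ContDiffOn ℝ 2 u {0}ᶜ) (hf : ∀ x, x ≠ 0 → -(Δ u) x = f x) (f0 : ∀ x, x ≠ 0 → 0 ≤ f x)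
    (hm : Measurable f) {a a1 a2 L : ℝ → ℝ} (A : RepK a a1 a2) (x : E) {R : ℝ} (hR : 0 ≤ R)
    (a0 : ∀ t, 0 ≤ a t) (aR : ∀ t, R ^ 2 ≤ t → a t = 0)
    (hL : ∀ t, L t = -(2 * finrank ℝ E * a1 t + 4 * t * a2 t)) :
    0 ≤ ∫ y, u y * L (‖y - x‖ ^ 2) ∂μ ∧ ∫⁻ y, ENNReal.ofReal (f y * a (‖y - x‖ ^ 2)) ∂μ =
      ENNReal.ofReal (∫ y, u y * L (‖y - x‖ ^ 2) ∂μ) := by
  obtain ⟨β, β1, β2, B, bm, b0, b1, b2⟩ := rep_cut
  obtain ⟨p, hp⟩ : ∃ p, finrank ℝ E = p + 3 := Nat.exists_eq_add_of_le' hn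
  have : Nontrivial E := nontrivial_of_finrank_pos (R := ℝ) (by omega)
  have ae0 : ∀ᵐ y ∂μ, y ≠ 0 := compl_mem_ae_iff.2 (measure_singleton (0 : E))
  have c0 := A.c0
  have c1 := A.c1
  have c2 := A.c2
  have d0 := B.c0
  have d1 := B.c1
  have d2 := B.c2
  obtain rfl := funext hL
  have iL : Integrable (fun y => u y * -(2 * finrank ℝ E * a1 (‖y - x‖ ^ 2) +
      4 * ‖y - x‖ ^ 2 * a2 (‖y - x‖ ^ 2))) μ :=
    rep_int μ (isCompact_closedBall x R) (by fun_prop) fun y hy => by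
      simp [A.van aR _ (rep_ball hR hy)]
  let G : ℝ → E → ℝ := fun δ z => u (δ • z) * (δ ^ 2 * (2 * finrank ℝ E * a1 (‖δ • z - x‖ ^ 2) +
    4 * ‖δ • z - x‖ ^ 2 * a2 (‖δ • z - x‖ ^ 2)) * (β (‖z‖ ^ 2) - 1) +
    8 * δ * ⟪δ • z - x, z⟫ * a1 (‖δ • z - x‖ ^ 2) * β1 (‖z‖ ^ 2) +
    a (‖δ • z - x‖ ^ 2) * (2 * finrank ℝ E * β1 (‖z‖ ^ 2) + 4 * ‖z‖ ^ 2 * β2 (‖z‖ ^ 2)))
  have hG := rep_scale μ (G := G) (by unfold Function.uncurry; fun_prop) (fun δ z hz => by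
    have h : 2 < ‖z‖ ^ 2 := by nlinarith
    simp [G, B.van b2 _ h, b2 _ h.le]) 0
  have key : ∀ δ : ℝ, 0 < δ →
      Integrable (fun y => f y * (a (‖y - x‖ ^ 2) * β ((δ ^ 2)⁻¹ * ‖y‖ ^ 2))) μ ∧
      ∫ y, f y * (a (‖y - x‖ ^ 2) * β ((δ ^ 2)⁻¹ * ‖y‖ ^ 2)) ∂μ =
        ∫ y, u y * -(2 * finrank ℝ E * a1 (‖y - x‖ ^ 2) + 4 * ‖y - x‖ ^ 2 * a2 (‖y - x‖ ^ 2)) ∂μ -
          δ ^ (p + 1) * ∫ y, (δ ^ finrank ℝ E)⁻¹ * G δ (δ⁻¹ • (y - 0)) ∂μ := fun δ hδ => by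
    have g := fun i => rep_green μ hu ((A.rad x (stdOrthonormalBasis ℝ E i)).mul
      ((B.scale 1 (δ ^ 2)⁻¹).rad 0 _)) ((isCompact_closedBall x R).inter_right
      (isClosed_le (continuous_const (y := δ)) continuous_norm))
      (fun y hy h => by
        rw [mem_singleton_iff.1 h] at hy
        exact absurd hy.2 (by simpa using hδ)) fun y hy => by
        by_cases h : y ∈ Metric.closedBall x R
        · have h1 : ‖y‖ ≤ δ := le_of_not_ge fun h' => hy ⟨h, h'⟩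
          rw [b1, mul_zero, mul_zero]
          rw [sub_zero, inv_mul_le_one₀ (by positivity)]
          gcongr
        · rw [aR _ (rep_ball hR h).le, zero_mul]
    have e1 : ∀ y, f y * (a (‖y - x‖ ^ 2) * β ((δ ^ 2)⁻¹ * ‖y‖ ^ 2)) =
        -∑ i, iteratedFDeriv ℝ 2 u y ![stdOrthonormalBasis ℝ E i, stdOrthonormalBasis ℝ E i] *
          (a (‖y - x‖ ^ 2) * (1 * β ((δ ^ 2)⁻¹ * ‖y - 0‖ ^ 2))) := fun y => by
      rw [← Finset.sum_mul, one_mul, sub_zero]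
      by_cases h : y = 0
      · simp [h, b1]
      · rw [← hf y h, InnerProductSpace.laplacian_eq_iteratedFDeriv_stdOrthonormalBasis, neg_mul]
    have i1 := integrable_finsetSum Finset.univ fun i _ => (g i).1
    simp only [e1]
    refine ⟨(integrable_finsetSum _ fun i _ => (g i).2.1).neg, ?_⟩
    rw [integral_neg, integral_finsetSum _ fun i _ => (g i).2.1,
      ← Finset.sum_congr rfl fun i _ => (g i).2.2, ← integral_finsetSum _ fun i _ => (g i).1,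
      ← integral_const_mul, eq_sub_iff_add_eq', ← sub_eq_add_neg, sub_eq_iff_eq_add,
      ← integral_add iL i1]
    refine integral_congr_ae (Eventually.of_forall fun y => ?_)
    obtain ⟨z, rfl⟩ : ∃ z, y = δ • z := ⟨δ⁻¹ • y, (smul_inv_smul₀ hδ.ne' y).symm⟩
    have s1 := (stdOrthonormalBasis ℝ E).sum_sq_inner_left (δ • z - x)
    have s2 := (stdOrthonormalBasis ℝ E).sum_sq_inner_left z
    have s3 := (stdOrthonormalBasis ℝ E).sum_inner_mul_inner (δ • z - x) z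
    have s4 : (δ ^ 2)⁻¹ * ‖δ • z‖ ^ 2 = ‖z‖ ^ 2 := by
      rw [norm_smul, Real.norm_of_nonneg hδ.le, mul_pow, inv_mul_cancel_left₀ (by positivity)]
    simp only [G, sub_zero, inv_smul_smul₀ hδ.ne', s4, (stdOrthonormalBasis ℝ E).norm_eq_one,
      real_inner_smul_left]
    generalize a (‖δ • z - x‖ ^ 2) = A0, a1 (‖δ • z - x‖ ^ 2) = A1, a2 (‖δ • z - x‖ ^ 2) = A2,
      β (‖z‖ ^ 2) = B0, β1 (‖z‖ ^ 2) = B1, β2 (‖z‖ ^ 2) = B2, u (δ • z) = U
    rw [Finset.sum_congr rfl (g := fun i => U * (2 * A1 * B0 + 2 * (δ ^ 2)⁻¹ * A0 * B1) +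
      4 * U * A2 * B0 * ⟪δ • z - x, stdOrthonormalBasis ℝ E i⟫ ^ 2 +
      4 * U * (δ ^ 2)⁻¹ * A0 * B2 * ⟪z, stdOrthonormalBasis ℝ E i⟫ ^ 2 +
      8 * U * δ⁻¹ * A1 * B1 * (⟪δ • z - x, stdOrthonormalBasis ℝ E i⟫ *
        ⟪stdOrthonormalBasis ℝ E i, z⟫)) fun i _ => by
          rw [real_inner_comm z]
          field_simp
          ring]
    simp only [Finset.sum_add_distrib, ← Finset.mul_sum, s1, s2, s3, Finset.sum_const,
      Finset.card_univ, Fintype.card_fin, nsmul_eq_mul]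
    rw [hp]
    field_simp
    ring
  have lim : Tendsto (fun j : ℕ => ∫ y, f y * (a (‖y - x‖ ^ 2) *
      β (((1 / ((j : ℝ) + 1)) ^ 2)⁻¹ * ‖y‖ ^ 2)) ∂μ) atTop (𝓝 (∫ y, u y * -(2 * finrank ℝ E *
      a1 (‖y - x‖ ^ 2) + 4 * ‖y - x‖ ^ 2 * a2 (‖y - x‖ ^ 2)) ∂μ)) := by
    have h := ((tendsto_one_div_add_atTop_nhds_zero_nat.pow (p + 1)).mul
      (hG.comp rep_seq)).const_sub (∫ y, u y * -(2 * finrank ℝ E *
      a1 (‖y - x‖ ^ 2) + 4 * ‖y - x‖ ^ 2 * a2 (‖y - x‖ ^ 2)) ∂μ)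
    rw [zero_pow (by omega), zero_mul, sub_zero] at h
    exact h.congr fun j => (key _ Nat.one_div_pos_of_nat).2.symm
  have nn : ∀ s : ℝ, 0 ≤ᵐ[μ] fun y => f y * (a (‖y - x‖ ^ 2) * β (s * ‖y‖ ^ 2)) := fun s =>
    ae0.mono fun y hy => mul_nonneg (f0 y hy) (mul_nonneg (a0 _) (b0 _))
  refine ⟨ge_of_tendsto' lim fun j => integral_nonneg_of_ae (nn _), tendsto_nhds_unique
    (lintegral_tendsto_of_tendsto_of_monotone (fun j => ?_) (ae0.mono fun y hy i j hij => ?_)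
      (ae0.mono fun y hy => ?_)) ((ENNReal.tendsto_ofReal lim).congr fun j =>
      ofReal_integral_eq_lintegral_ofReal (key _ Nat.one_div_pos_of_nat).1 (nn _))⟩
  · fun_prop
  · refine ENNReal.ofReal_le_ofReal (mul_le_mul_of_nonneg_left
      (mul_le_mul_of_nonneg_left (bm ?_) (a0 _)) (f0 y hy))
    simp only [one_div, inv_pow, inv_inv]
    gcongr
  · refine tendsto_const_nhds.congr' ?_
    have h1 : 0 < ‖y‖ ^ 2 := by positivity
    filter_upwards [eventually_ge_atTop ⌈2 / ‖y‖ ^ 2⌉₊] with j hj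
    rw [b2, mul_one]
    have h2 := (div_le_iff₀ h1).1 (Nat.ceil_le.1 hj)
    simp only [one_div, inv_pow, inv_inv]
    refine h2.trans (mul_le_mul_of_nonneg_right ?_ h1.le)
    nlinarith [Nat.cast_nonneg (α := ℝ) j]

theorem rep_main (hn : 3 ≤ finrank ℝ E) :
    ∃ c : ℝ, 0 < c ∧ ∀ u f : E → ℝ, Continuous u →
      ContDiffOn ℝ 2 u {0}ᶜ → (∀ x, 0 < u x) → (∀ x, x ≠ 0 → -(Δ u) x = f x) →
      (∀ x, x ≠ 0 → 0 ≤ f x) → Measurable f →
      (∀ x, ∫⁻ y, ENNReal.ofReal (c * ‖x - y‖ ^ (2 - (finrank ℝ E : ℝ)) * f y) ∂μ ≤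
        ENNReal.ofReal (u x)) ∧ ((∀ η : ℝ, 0 < η → ∃ x, u x < η) →
        ∀ x, ∫⁻ y, ENNReal.ofReal (c * ‖x - y‖ ^ (2 - (finrank ℝ E : ℝ)) * f y) ∂μ =
          ENNReal.ofReal (u x)) := by
  obtain ⟨m, hm⟩ : ∃ m : ℝ, (finrank ℝ E : ℝ) = 2 * (m + 1) := ⟨finrank ℝ E / 2 - 1, by ring⟩
  have hm0 : 0 < m := by
    have : (3 : ℝ) ≤ finrank ℝ E := by exact_mod_cast hn
    linarith
  have : Nontrivial E := nontrivial_of_finrank_pos (R := ℝ) (by omega)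
  obtain ⟨k, k1, k2, A, hL, hk1, hk2, hk0⟩ := rep_ker hm0
  obtain ⟨α, hα, hL⟩ : ∃ α : ℝ, 0 < α ∧ ∀ t, 4 * (m + 1) * k1 t + 4 * t * k2 t =
    -(α * max (1 - t) 0) := ⟨_, by positivity, hL⟩
  obtain ⟨ρ, hρ⟩ : ∃ ρ : ℝ → ℝ → ℝ, ∀ ε t, ρ ε t =
    (ε ^ finrank ℝ E)⁻¹ * (α * max (1 - (ε ^ 2)⁻¹ * t) 0) := ⟨_, fun _ _ => rfl⟩
  obtain ⟨K, hK⟩ : ∃ K : ℝ → ℝ → ℝ, ∀ ε t, K ε t = (ε ^ 2) ^ (-m) * k ((ε ^ 2)⁻¹ * t) :=
    ⟨_, fun _ _ => rfl⟩
  have ρ0 : ∀ ε t, 0 < ε → 0 ≤ ρ ε t := fun ε t h => by rw [hρ]; positivity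
  have ρ1 : ∀ ε t, 0 < ε → ε ^ 2 ≤ t → ρ ε t = 0 := fun ε t h ht => by
    rw [hρ, max_eq_right (sub_nonpos.2 ((one_le_inv_mul₀ (by positivity)).2 ht)), mul_zero,
      mul_zero]
  have K1 : ∀ ε R t, 0 < ε → ε ≤ R → K R t ≤ K ε t := fun ε R t h h' => by
    rw [hK, hK]
    exact rep_anti A hk2 t (pow_pos h 2) (pow_pos (h.trans_le h') 2) (by gcongr)
  have K2 : ∀ ε t, 0 < ε → ε ^ 2 ≤ t → K ε t = t ^ (-m) := fun ε t h ht => by
    have h1 : 0 < ε ^ 2 := by positivity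
    rw [hK, hk1 _ ((one_le_inv_mul₀ h1).2 ht), ← Real.mul_rpow h1.le (mul_nonneg (by positivity)
      (h1.le.trans ht)), mul_inv_cancel_left₀ h1.ne']
  have K3 : ∀ t, Tendsto (fun j : ℕ => K (j + 1) t) atTop (𝓝 0) := fun t => by
    have h1 : Tendsto (fun j : ℕ => ((j : ℝ) + 1) ^ 2) atTop atTop :=
      (tendsto_pow_atTop two_ne_zero).comp
        (tendsto_atTop_add_const_right _ 1 tendsto_natCast_atTop_atTop)
    simpa only [hK, zero_mul, Function.comp_def] using ((tendsto_rpow_neg_atTop hm0).comp h1).mul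
      ((A.c0.tendsto _).comp ((tendsto_inv_atTop_zero.comp h1).mul_const t))
  have pw : ∀ ε : ℝ, 0 < ε → (ε ^ 2) ^ (-m) = (ε ^ finrank ℝ E)⁻¹ * ε ^ 2 := fun ε h => by
    rw [← Real.rpow_natCast ε (finrank ℝ E), hm, ← Real.rpow_neg h.le, ← Real.rpow_natCast,
      ← Real.rpow_mul h.le, ← Real.rpow_add h]
    congr 1
    push_cast
    ring
  have c0 : 0 < ∫ z : E, α * max (1 - ‖z‖ ^ 2) 0 ∂μ := by
    refine Continuous.integral_pos_of_hasCompactSupport_nonneg_nonzero (by fun_prop)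
      (HasCompactSupport.intro (isCompact_closedBall 0 1) fun z hz => ?_)
      (fun z => by positivity) (x := 0) (by simpa using hα.ne')
    have := rep_ball zero_le_one hz
    rw [sub_zero] at this
    rw [max_eq_right (by linarith), mul_zero]
  refine ⟨_, inv_pos.2 c0, fun u f hc hu hu0 hf f0 hfm => ?_⟩
  obtain ⟨M, hM⟩ : ∃ M : ℝ → E → ℝ, ∀ ε x, M ε x = ∫ y, u y * ρ ε (‖y - x‖ ^ 2) ∂μ :=
    ⟨_, fun _ _ => rfl⟩
  have iM : ∀ ε x, 0 < ε → Integrable (fun y => u y * ρ ε (‖y - x‖ ^ 2)) μ := fun ε x h =>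
    rep_int μ (isCompact_closedBall x ε) (by simp only [hρ]; fun_prop) fun y hy => by
      rw [ρ1 _ _ h (rep_ball h.le hy).le, mul_zero]
  have M0 : ∀ ε x, 0 < ε → 0 ≤ M ε x := fun ε x h => by
    rw [hM]
    exact integral_nonneg fun y => mul_nonneg (hu0 y).le (ρ0 _ _ h)
  have M1 : ∀ x, Tendsto (fun j : ℕ => M (1 / (j + 1)) x) atTop
      (𝓝 (u x * ∫ z : E, α * max (1 - ‖z‖ ^ 2) 0 ∂μ)) := fun x => by
    have h := (rep_scale μ (G := fun δ z => u (x + δ • z) * (α * max (1 - ‖z‖ ^ 2) 0))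
      (by unfold Function.uncurry; fun_prop) (fun δ z hz => by
        rw [max_eq_right (by nlinarith), mul_zero, mul_zero]) x).comp rep_seq
    simp only [zero_smul, add_zero, integral_const_mul (u x)] at h
    refine h.congr fun j => ?_
    have h1 : 0 < 1 / ((j : ℝ) + 1) := Nat.one_div_pos_of_nat
    simp only [Function.comp, hM, hρ, smul_inv_smul₀ h1.ne', add_sub_cancel, norm_smul, norm_inv,
      Real.norm_of_nonneg h1.le, mul_pow, inv_pow, mul_left_comm]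
  have M2 : ∀ ε R x, 0 < ε → ε ≤ R → M R x ≤ M ε x ∧ ∫⁻ y, ENNReal.ofReal (f y *
      (K ε (‖y - x‖ ^ 2) - K R (‖y - x‖ ^ 2))) ∂μ = ENNReal.ofReal (M ε x - M R x) := by
    intro ε R x h h'
    have hR := h.trans_le h'
    have h1 := rep_remove μ hn hc hu hf f0 hfm ((A.scale ((ε ^ 2) ^ (-m)) (ε ^ 2)⁻¹).sub
      (A.scale ((R ^ 2) ^ (-m)) (R ^ 2)⁻¹)) x hR.le (L := fun t => ρ ε t - ρ R t)
      (fun t => by rw [← hK, ← hK]; exact sub_nonneg.2 (K1 _ _ _ h h'))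
      (fun t ht => by rw [← hK, ← hK, K2 R t hR ht, K2 ε t h (le_trans (by gcongr) ht), sub_self])
      fun t => by
        rw [hρ, hρ, ← neg_eq_iff_eq_neg.2 (hL _), ← neg_eq_iff_eq_neg.2 (hL _), pw ε h, pw R hR, hm]
        field_simp
        ring
    simp only [mul_sub (u _), integral_sub (iM ε x h) (iM R x hR), ← hM, ← hK] at h1
    exact ⟨sub_nonneg.1 h1.1, h1.2⟩
  have M3 : ∀ R x, 0 < R → M R x ≤ u x * ∫ z : E, α * max (1 - ‖z‖ ^ 2) 0 ∂μ := fun R x h =>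
    ge_of_tendsto (M1 x) ((tendsto_one_div_add_atTop_nhds_zero_nat.eventually_le_const h).mono
      fun j hj => (M2 _ _ x Nat.one_div_pos_of_nat hj).1)
  have M4 : ∀ R x x', 0 < R → ‖x - x'‖ ≤ R → M R x ≤ 2 * 4 ^ finrank ℝ E * M (4 * R) x' := by
    intro R x x' h hx
    rw [hM, hM, ← integral_const_mul]
    refine integral_mono (iM R x h) ((iM _ x' (by positivity)).const_mul _) fun y => ?_
    dsimp only
    rw [mul_left_comm]
    refine mul_le_mul_of_nonneg_left ?_ (hu0 y).le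
    by_cases hy : y ∈ Metric.closedBall x R
    · have h1 : ‖y - x'‖ ≤ 2 * R := by
        have := norm_sub_le_norm_sub_add_norm_sub y x x'
        rw [mem_closedBall_iff_norm] at hy
        linarith
      have h2 : ((4 * R) ^ 2)⁻¹ * ‖y - x'‖ ^ 2 ≤ 1 / 4 := by
        rw [inv_mul_le_iff₀ (by positivity)]
        exact (pow_le_pow_left₀ (norm_nonneg _) h1 2).trans (le_of_eq (by ring))
      have h3 : max (1 - (R ^ 2)⁻¹ * ‖y - x‖ ^ 2) 0 ≤
          2 * max (1 - ((4 * R) ^ 2)⁻¹ * ‖y - x'‖ ^ 2) 0 := by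
        have : 0 ≤ (R ^ 2)⁻¹ * ‖y - x‖ ^ 2 := by positivity
        rw [max_eq_left (a := 1 - ((4 * R) ^ 2)⁻¹ * ‖y - x'‖ ^ 2) (by linarith)]
        exact max_le (by linarith) (by linarith)
      rw [hρ, hρ]
      refine (mul_le_mul_of_nonneg_left (mul_le_mul_of_nonneg_left h3 hα.le)
        (by positivity)).trans (le_of_eq ?_)
      rw [mul_pow 4 R (finrank ℝ E)]
      field_simp
    · rw [ρ1 _ _ h (rep_ball h.le hy).le]
      exact mul_nonneg (by positivity) (ρ0 _ _ (by positivity))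
  generalize ∫ z : E, α * max (1 - ‖z‖ ^ 2) 0 ∂μ = c at c0 M1 M3 ⊢
  have le1 : ∀ j : ℕ, 1 / ((j : ℝ) + 1) ≤ j + 1 := fun j => by
    have : (1 : ℝ) ≤ j + 1 := by simp
    exact (div_le_self zero_le_one this).trans this
  have lim : ∀ x, Tendsto (fun j : ℕ => ENNReal.ofReal (c⁻¹ * (M (1 / (j + 1)) x - M (j + 1) x)))
      atTop (𝓝 (∫⁻ y, ENNReal.ofReal (c⁻¹ * ‖x - y‖ ^ (2 - (finrank ℝ E : ℝ)) * f y) ∂μ)) := by
    intro x
    have ae0 : ∀ᵐ y ∂μ, y ≠ 0 := compl_mem_ae_iff.2 (measure_singleton (0 : E))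
    have aex : ∀ᵐ y ∂μ, y ≠ x := compl_mem_ae_iff.2 (measure_singleton x)
    refine (lintegral_tendsto_of_tendsto_of_monotone (f := fun j y => ENNReal.ofReal (c⁻¹ *
      (f y * (K (1 / (j + 1)) (‖y - x‖ ^ 2) - K (j + 1) (‖y - x‖ ^ 2))))) (fun j => ?_)
      (ae0.mono fun y hy i j hij => ?_) (aex.mono fun y hy => ENNReal.tendsto_ofReal ?_)).congr
      fun j => ?_
    · have := A.c0
      simp only [hK]
      fun_prop
    · have h1 : (i : ℝ) + 1 ≤ j + 1 := by gcongr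
      exact ENNReal.ofReal_le_ofReal (mul_le_mul_of_nonneg_left (mul_le_mul_of_nonneg_left
        (sub_le_sub (K1 _ _ _ Nat.one_div_pos_of_nat (by gcongr)) (K1 _ _ _ (by positivity) h1))
        (f0 y hy)) (by positivity))
    · have h1 : 0 < ‖y - x‖ := norm_pos_iff.2 (sub_ne_zero.2 hy)
      have h2 : Tendsto (fun j : ℕ => K (1 / (j + 1)) (‖y - x‖ ^ 2)) atTop
          (𝓝 (‖x - y‖ ^ (2 - (finrank ℝ E : ℝ)))) := by
        refine tendsto_const_nhds.congr' ?_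
        filter_upwards [tendsto_one_div_add_atTop_nhds_zero_nat.eventually_le_const h1] with j hj
        rw [K2 _ _ Nat.one_div_pos_of_nat (by gcongr), norm_sub_rev x, ← Real.rpow_natCast,
          ← Real.rpow_mul h1.le, hm]
        congr 1
        push_cast
        ring
      have h3 := ((h2.sub (K3 (‖y - x‖ ^ 2))).const_mul (f y)).const_mul c⁻¹
      rwa [sub_zero, mul_comm (f y), ← mul_assoc] at h3
    · simp only [ENNReal.ofReal_mul (inv_pos.2 c0).le]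
      rw [lintegral_const_mul' _ _ ENNReal.ofReal_ne_top,
        (M2 _ _ x Nat.one_div_pos_of_nat (le1 j)).2]
  have e : ∀ x, c⁻¹ * (u x * c - 0) = u x := fun x => by field_simp; simp
  refine ⟨fun x => le_of_tendsto_of_tendsto' (lim x) (e x ▸ ENNReal.tendsto_ofReal
    (((M1 x).sub_const 0).const_mul c⁻¹)) fun j => ENNReal.ofReal_le_ofReal ?_,
    fun h x => tendsto_nhds_unique (lim x) (e x ▸ ENNReal.tendsto_ofReal
      (((M1 x).sub ?_).const_mul c⁻¹))⟩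
  · gcongr
    exact M0 _ _ (by positivity)
  · refine tendsto_order.2 ⟨fun η hη => Eventually.of_forall fun j =>
      hη.trans_le (M0 _ _ (by positivity)), fun η hη => ?_⟩
    obtain ⟨x', hx'⟩ := h (η / (2 * 4 ^ finrank ℝ E * c)) (by positivity)
    filter_upwards [eventually_ge_atTop ⌈‖x - x'‖⌉₊] with j hj
    rw [lt_div_iff₀ (by positivity)] at hx'
    calc _ ≤ _ := M4 _ x x' (by positivity) (by linarith [Nat.ceil_le.1 hj])
      _ ≤ 2 * 4 ^ finrank ℝ E * (u x' * c) := by gcongr; exact M3 _ _ (by positivity)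
      _ < η := by linarith

end

/-- Riesz representation of a positive superharmonic function with a removable singularity. -/
theorem riesz_rep {n : ℕ} (hn : 3 ≤ n) :
    ∃ c : ℝ, 0 < c ∧ ∀ u f : EuclideanSpace ℝ (Fin n) → ℝ, Continuous u →
      ContDiffOn ℝ 2 u {0}ᶜ → (∀ x, 0 < u x) → (∀ x, x ≠ 0 → -(Δ u) x = f x) →
      (∀ x, x ≠ 0 → 0 ≤ f x) → Measurable f →
      (∀ x, ∫⁻ y, ENNReal.ofReal (c * ‖x - y‖ ^ (2 - (n : ℝ)) * f y) ≤ ENNReal.ofReal (u x)) ∧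
      ((∀ η : ℝ, 0 < η → ∃ x, u x < η) →
        ∀ x, ∫⁻ y, ENNReal.ofReal (c * ‖x - y‖ ^ (2 - (n : ℝ)) * f y) = ENNReal.ofReal (u x)) := by
  simpa only [finrank_euclideanSpace_fin] using rep_main (E := EuclideanSpace ℝ (Fin n)) volume
    (by rwa [finrank_euclideanSpace_fin])

end Vale.Agent.P100
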