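import Vale.Agent.P100.Step
import Vale.Agent.P100.Polar
import Vale.Agent.P100.Rep
import Vale.Agent.P100.Dim2

open MeasureTheory Set
open scoped Laplacian

namespace Vale.Agent.P100

theorem main (n : ℕ) (p q A B : ℝ) (hn : 2 ≤ n) (hp : 0 < p) (hq : 0 < q)
    (hs : (n : ℝ) - 2 < ((n : ℝ) + A) / (p + 1) + ((n : ℝ) + B) / (q + 1)) :
    ¬ ∃ u v : EuclideanSpace ℝ (Fin n) → ℝ, Continuous u ∧ Continuous v ∧
      ContDiffOn ℝ 2 u {0}ᶜ ∧ ContDiffOn ℝ 2 v {0}ᶜ ∧ (∀ x, 0 < u x) ∧ (∀ x, 0 < v x) ∧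
      (∀ x, x ≠ 0 → -(Δ u) x = ‖x‖ ^ A * v x ^ p) ∧
      (∀ x, x ≠ 0 → -(Δ v) x = ‖x‖ ^ B * u x ^ q) := by
  rintro ⟨u, v, hu, hv, hu2, hv2, u0, v0, e1, e2⟩
  rcases eq_or_lt_of_le hn with rfl | hn3
  · refine dim_two hu hu2 u0 fun x hx => ?_
    have h1 := e1 x hx
    have h2 : 0 < ‖x‖ ^ A * v x ^ p :=
      mul_pos (Real.rpow_pos_of_pos (norm_pos_iff.2 hx) _) (Real.rpow_pos_of_pos (v0 x) _)
    linarith
  obtain ⟨c, hc, hrep⟩ := riesz_rep (n := n) hn3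
  have m1 : Measurable fun x : EuclideanSpace ℝ (Fin n) => ‖x‖ ^ A * v x ^ p :=
    (measurable_norm.pow_const _).mul (hv.measurable.pow_const _)
  have m2 : Measurable fun x : EuclideanSpace ℝ (Fin n) => ‖x‖ ^ B * u x ^ q :=
    (measurable_norm.pow_const _).mul (hu.measurable.pow_const _)
  obtain ⟨r1, r1'⟩ := hrep u _ hu hu2 u0 e1
    (fun x _ => mul_nonneg (by positivity) (Real.rpow_nonneg (v0 x).le _)) m1
  obtain ⟨r2, r2'⟩ := hrep v _ hv hv2 v0 e2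
    (fun x _ => mul_nonneg (by positivity) (Real.rpow_nonneg (u0 x).le _)) m2
  obtain ⟨hA, iv⟩ := of_finite hn3 hc hp hv v0 (r1 0)
  obtain ⟨hB, iu⟩ := of_finite hn3 hc hq hu u0 (r2 0)
  have : Nontrivial (EuclideanSpace ℝ (Fin n)) := by
    have : Nonempty (Fin n) := ⟨⟨0, by omega⟩⟩
    infer_instance
  refine cyl_false (ker_kk hn3 hc) (Measure.toSphere_ne_zero _)
    (half_cyl hn3 hc hp hA hv hv2 v0 (r1' iu)) (half_cyl hn3 hc hq hB hu hu2 u0 (r2' iv)) ?_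
  have e3 : ∀ p A : ℝ, 0 < p → (((n : ℝ) - 2) / 2 + 2 + A - p * (((n : ℝ) - 2) / 2)) / (p + 1)
      = ((n : ℝ) + A) / (p + 1) - ((n : ℝ) - 2) / 2 := by
    intro p A hp; field_simp; ring
  rw [e3 p A hp, e3 q B hq]
  linarith

end Vale.Agent.P100
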