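import Mathlib

namespace Vale.Agent.P100

/-- A monotone function cannot satisfy the feedback inequality. -/
theorem ode_false {M : ℝ → ℝ} (hM : Monotone M) (h0 : 0 < M 0) {C γ : ℝ} {N : ℕ} (hC : 0 < C)
    (hγ : 0 < γ) (h : ∀ S δ : ℝ, 0 ≤ S → 0 < δ → δ ≤ 1 →
      M S ≤ C * (M (S + 5 * δ) - M S) + C * δ⁻¹ ^ N * Real.exp (-(γ * S))) : False := by
  obtain ⟨θ, hθ⟩ : ∃ θ, θ = 1 + 1 / (2 * C) := ⟨_, rfl⟩
  have hθ1 : 1 < θ := by rw [hθ]; linarith [show 0 < 1 / (2 * C) by positivity]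
  have hθC : C * θ = C + 1 / 2 := by rw [hθ]; field_simp
  obtain ⟨q, hq1, hq⟩ : ∃ q : ℝ, 1 < q ∧ q ^ N ≤ θ := by
    refine ⟨θ ^ ((N + 1 : ℕ) : ℝ)⁻¹, Real.one_lt_rpow hθ1 (by positivity), ?_⟩
    conv_rhs => rw [← Real.rpow_inv_natCast_pow (by linarith : 0 ≤ θ) (Nat.succ_ne_zero N)]
    exact pow_le_pow_right₀ (Real.one_le_rpow hθ1.le (by positivity)) (by omega)
  obtain ⟨S0, hS0, hS⟩ : ∃ S0 : ℝ, 0 ≤ S0 ∧ C * Real.exp (-(γ * S0)) ≤ M 0 / 2 := by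
    refine ⟨2 * C / M 0 / γ, by positivity, ?_⟩
    have h1 := Real.add_one_le_exp (2 * C / M 0)
    rw [mul_div_cancel₀ _ hγ.ne', Real.exp_neg, ← div_eq_mul_inv, div_le_iff₀ (Real.exp_pos _)]
    have h2 : M 0 / 2 * (2 * C / M 0) = C := by field_simp
    nlinarith
  have hr0 : 0 < q⁻¹ := by positivity
  have hr1 : q⁻¹ < 1 := inv_lt_one_of_one_lt₀ hq1
  have key : ∀ k : ℕ, θ ^ k * M 0 ≤ M (S0 + 5 * ∑ i ∈ Finset.range k, q⁻¹ ^ i) := by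
    intro k
    induction k with
    | zero => simpa using hM hS0
    | succ k ih =>
      have hs : 0 ≤ ∑ i ∈ Finset.range k, q⁻¹ ^ i := by positivity
      have h1 := h (S0 + 5 * ∑ i ∈ Finset.range k, q⁻¹ ^ i) (q⁻¹ ^ k) (by positivity)
        (by positivity) (pow_le_one₀ hr0.le hr1.le)
      rw [Finset.sum_range_succ, mul_add, ← add_assoc]
      have h2 : (q⁻¹ ^ k)⁻¹ ^ N ≤ θ ^ k := by
        rw [inv_pow q k, inv_inv, ← pow_mul, mul_comm, pow_mul]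
        exact pow_le_pow_left₀ (by positivity) hq k
      have h3 : Real.exp (-(γ * (S0 + 5 * ∑ i ∈ Finset.range k, q⁻¹ ^ i))) ≤
          Real.exp (-(γ * S0)) := Real.exp_le_exp.2 (by nlinarith)
      have h4 : C * (q⁻¹ ^ k)⁻¹ ^ N * Real.exp (-(γ * (S0 + 5 * ∑ i ∈ Finset.range k, q⁻¹ ^ i))) ≤
          θ ^ k * (M 0 / 2) := by
        calc _ ≤ C * θ ^ k * Real.exp (-(γ * S0)) := by gcongr
          _ = θ ^ k * (C * Real.exp (-(γ * S0))) := by ring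
          _ ≤ _ := by gcongr
      generalize M (S0 + 5 * ∑ i ∈ Finset.range k, q⁻¹ ^ i + 5 * q⁻¹ ^ k) = b at *
      generalize M (S0 + 5 * ∑ i ∈ Finset.range k, q⁻¹ ^ i) = a at *
      have h5 : C * (θ * a) ≤ C * b := by rw [← mul_assoc, hθC]; linarith
      have h6 := le_of_mul_le_mul_left h5 hC
      rw [pow_succ']
      nlinarith
  obtain ⟨k, hk⟩ := pow_unbounded_of_one_lt (M (S0 + 5 * (1 - q⁻¹)⁻¹) / M 0) hθ1
  have h1 : ∑ i ∈ Finset.range k, q⁻¹ ^ i ≤ (1 - q⁻¹)⁻¹ := by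
    rw [← tsum_geometric_of_lt_one hr0.le hr1]
    exact (summable_geometric_of_lt_one hr0.le hr1).sum_le_tsum _ fun _ _ => by positivity
  have h2 := (key k).trans (hM (show _ ≤ S0 + 5 * (1 - q⁻¹)⁻¹ by linarith))
  rw [div_lt_iff₀ h0] at hk
  linarith

end Vale.Agent.P100
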