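import Vale.Agent.P100.Defs

open MeasureTheory Set
open scoped ENNReal Classical

namespace Vale.Agent.P100

/-- The integral of the kernel over a window of half-width `r` about `y`. -/
noncomputable def pairK (k : ℝ → ℝ) (r y : ℝ) : ℝ≥0∞ :=
  ∫⁻ x in Ioo (-r) r, ENNReal.ofReal (k (x + y))

section aux
variable {k : ℝ → ℝ}

theorem pair_shift (f : ℝ → ℝ≥0∞) (a b y : ℝ) :
    ∫⁻ s in Ioo a b, f (s + y) = ∫⁻ u in Ioo (a + y) (b + y), f u := by
  rw [← (measurePreserving_add_right volume y).setLIntegral_comp_preimage_emb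
    (measurableEmbedding_addRight y) f (Ioo (a + y) (b + y)), preimage_add_const_Ioo,
    add_sub_cancel_right, add_sub_cancel_right]

theorem pair_refl (f : ℝ → ℝ≥0∞) (y : ℝ) (S : Set ℝ) :
    ∫⁻ s in (fun t => y - t) ⁻¹' S, f (y - s) = ∫⁻ u in S, f u :=
  (Measure.measurePreserving_sub_left volume y).setLIntegral_comp_preimage_emb
    (measurableEmbedding_subLeft y) f S

theorem pair_add (f : ℝ → ℝ≥0∞) {a b c : ℝ} (h1 : a ≤ b) (h2 : b ≤ c) :
    (∫⁻ s in Ioo a b, f s) + ∫⁻ s in Ioo b c, f s = ∫⁻ s in Ioo a c, f s := by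
  simp only [setLIntegral_congr Ioo_ae_eq_Ioc]
  rw [← lintegral_union measurableSet_Ioc (Ioc_disjoint_Ioc_of_le le_rfl),
    Ioc_union_Ioc_eq_Ioc h1 h2]

theorem pair_split (f : ℝ → ℝ≥0∞) {A S : Set ℝ} (hS : MeasurableSet S) (h : S ⊆ A) :
    ∫⁻ s in A, f s = (∫⁻ s in A \ S, f s) + ∫⁻ s in S, f s := by
  rw [← lintegral_union hS disjoint_sdiff_left, sdiff_union_of_subset h]

theorem pair_split3 (f : ℝ → ℝ≥0∞) {E : Set ℝ} (hE : MeasurableSet E) {a b : ℝ} (h : a ≤ b) :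
    ∫⁻ s in E, f s = (∫⁻ s in E ∩ Iic a, f s) + (∫⁻ s in E ∩ Ioo a b, f s) +
      ∫⁻ s in E ∩ Ioi b, f s := by
  rw [setLIntegral_congr (ae_eq_set_inter (ae_eq_refl E) Ioo_ae_eq_Ioc),
    ← lintegral_union (hE.inter measurableSet_Ioc)
      ((Iic_disjoint_Ioc le_rfl).mono inter_subset_right inter_subset_right),
    ← inter_union_distrib_left, Iic_union_Ioc_eq_Iic h,
    ← lintegral_union (hE.inter measurableSet_Ioi)
      ((Iic_disjoint_Ioi le_rfl).mono inter_subset_right inter_subset_right),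
    ← inter_union_distrib_left, Iic_union_Ioi, inter_univ]

theorem pair_F2 (k : ℝ → ℝ) {α β r : ℝ} (h : α ≤ β) (hr : 0 ≤ r) (t : ℝ) :
    (∫⁻ s in Ioo α β, ENNReal.ofReal (k (s + -r - t))) + pairK k r (β - t) =
      (∫⁻ s in Ioo α β, ENNReal.ofReal (k (s + r - t))) + pairK k r (α - t) := by
  simp only [pairK, add_sub_assoc, pair_shift fun u => ENNReal.ofReal (k u)]
  rw [show -r + (β - t) = β + (-r - t) by ring, pair_add _ (by linarith) (by linarith),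
    add_comm (∫⁻ u in Ioo (α + (r - t)) _, _), show r + (α - t) = α + (r - t) by ring,
    pair_add _ (by linarith) (by linarith)]
  congr 3 <;> ring

variable (hk : K1 k)
include hk

theorem pair_mono {a b : ℝ} (h : |a| ≤ |b|) : ENNReal.ofReal (k b) ≤ ENNReal.ofReal (k a) := by
  have e : ∀ x, k x = k |x| := fun x => by
    rcases abs_choice x with h | h <;> rw [h]
    exact (hk.even x).symm
  rw [e a, e b]
  exact ENNReal.ofReal_le_ofReal (hk.anti (abs_nonneg a) (abs_nonneg b) h)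

theorem pair_F1 {s t τ : ℝ} (hτ : 0 ≤ τ) (h : s ≤ t) :
    ENNReal.ofReal (k (s + -τ - t)) ≤ ENNReal.ofReal (k (s + τ - t)) := by
  refine pair_mono hk ?_
  rw [abs_of_nonpos (by linarith : s + -τ - t ≤ 0), abs_le]
  constructor <;> linarith

theorem pair_meas (x : ℝ) :
    Measurable fun z : ℝ × ℝ => ENNReal.ofReal (k (z.1 + x - z.2)) :=
  (hk.meas.comp (by fun_prop)).ennreal_ofReal

theorem pair_meas1 (A : Set ℝ) (x : ℝ) :
    Measurable fun t => ∫⁻ s in A, ENNReal.ofReal (k (s + x - t)) :=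
  (pair_meas hk x).lintegral_prod_left'

theorem pair_meas2 (A : Set ℝ) (x : ℝ) :
    Measurable fun s => ∫⁻ t in A, ENNReal.ofReal (k (s + x - t)) :=
  (pair_meas hk x).lintegral_prod_right'

theorem pair_swap (A B : Set ℝ) (x : ℝ) :
    II k A B x = ∫⁻ t in B, ∫⁻ s in A, ENNReal.ofReal (k (s + x - t)) :=
  lintegral_lintegral_swap (pair_meas hk x).aemeasurable

theorem pair_F3 (A B : Set ℝ) (x : ℝ) : II k A B (-x) = II k B A x := by
  rw [pair_swap hk, II]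
  congr 1; funext t; congr 1; funext s
  rw [← hk.even]; congr 2; ring

theorem pair_win (B : Set ℝ) (r y : ℝ) : II k (Ioo (-r) r) B y = ∫⁻ t in B, pairK k r (y - t) := by
  simp only [pair_swap hk, pairK, add_sub_assoc]

theorem pairK_neg (r y : ℝ) : pairK k r (-y) = pairK k r y := by
  rw [pairK, ← pair_refl _ 0, preimage_const_sub_Ioo, zero_sub, zero_sub, neg_neg, pairK]
  congr 1; funext s
  rw [← hk.even]; congr 2; ring

theorem pair_fin (A : Set ℝ) (y : ℝ) : ∫⁻ s in A, ENNReal.ofReal (k (s + y)) ≠ ∞ := by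
  refine ne_top_of_le_ne_top ?_ (setLIntegral_le_lintegral _ _)
  rw [lintegral_add_right_eq_self fun u => ENNReal.ofReal (k u)]
  exact hk.int.lintegral_lt_top.ne

theorem pairK_anti {r a b : ℝ} (hr : 0 ≤ r) (h : |a| ≤ |b|) : pairK k r b ≤ pairK k r a := by
  have e : ∀ x, pairK k r x = pairK k r |x| := fun x => by
    rcases abs_choice x with h | h <;> rw [h]
    exact (pairK_neg hk r x).symm
  rw [e a, e b]
  have h1 := pair_F2 k h hr 0
  have h2 : ∫⁻ s in Ioo |a| |b|, ENNReal.ofReal (k (s + r - 0)) ≤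
      ∫⁻ s in Ioo |a| |b|, ENNReal.ofReal (k (s + -r - 0)) :=
    setLIntegral_mono' measurableSet_Ioo fun s hs => pair_mono hk (by
      have := (abs_nonneg a).trans hs.1.le
      rw [abs_of_nonneg (by linarith : 0 ≤ s + r - 0), abs_le]
      constructor <;> linarith)
  simp only [sub_zero] at h1 h2
  exact (ENNReal.add_le_add_iff_left (pair_fin hk _ _)).1 (h1.le.trans (add_le_add h2 le_rfl))

theorem pairK_total (B : Set ℝ) {r : ℝ} (y : ℝ) :
    ∫⁻ t in B, pairK k r (y - t) ≤ ENNReal.ofReal (2 * r) * ∫⁻ t, ENNReal.ofReal (k t) := by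
  rw [← pair_win hk, II]
  refine (setLIntegral_mono' measurableSet_Ioo fun s _ => (setLIntegral_le_lintegral _ _).trans
    (lintegral_sub_left_eq_self (fun u => ENNReal.ofReal (k u)) (s + y)).le).trans ?_
  rw [setLIntegral_const, Real.volume_Ioo, mul_comm, sub_neg_eq_add, two_mul]

theorem pair_pt {A B : Set ℝ} (hA : MeasurableSet A) (hB : MeasurableSet B) {τ : ℝ} (hτ : 0 ≤ τ)
    (h : ∀ s ∈ A, ∀ t ∈ B, s ≤ t) : II k A B (-τ) ≤ II k A B τ :=
  setLIntegral_mono' hA fun s hs => setLIntegral_mono' hB fun t ht => pair_F1 hk hτ (h s hs t ht)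

omit hk in
theorem pair_sym (c r x t : ℝ) :
    ∫⁻ s in Ioo (c - r) (c + r), ENNReal.ofReal (k (s + x - t)) = pairK k r (x - (t - c)) := by
  simp only [pairK, add_sub_assoc, pair_shift fun u => ENNReal.ofReal (k u)]
  congr 3 <;> ring

theorem pair_symL {B : Set ℝ} (hB : MeasurableSet B) {c r τ : ℝ} (hτ : 0 ≤ τ) (hr : 0 ≤ r)
    (h : ∀ t ∈ B, c ≤ t) :
    II k (Ioo (c - r) (c + r)) B (-τ) ≤ II k (Ioo (c - r) (c + r)) B τ := by
  simp only [pair_swap hk, pair_sym]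
  refine setLIntegral_mono' hB fun t ht => pairK_anti hk hr ?_
  have := h t ht
  rw [abs_of_nonpos (by linarith : -τ - (t - c) ≤ 0), abs_le]
  constructor <;> linarith

theorem pair_symR {A : Set ℝ} (hA : MeasurableSet A) {c r τ : ℝ} (hτ : 0 ≤ τ) (hr : 0 ≤ r)
    (h : ∀ t ∈ A, t ≤ c) :
    II k A (Ioo (c - r) (c + r)) (-τ) ≤ II k A (Ioo (c - r) (c + r)) τ := by
  rw [pair_F3 hk, ← pair_F3 hk (Ioo _ _) A τ]
  simp only [pair_swap hk, pair_sym]
  refine setLIntegral_mono' hA fun t ht => pairK_anti hk hr ?_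
  have := h t ht
  rw [abs_of_nonneg (by linarith : 0 ≤ τ - (t - c)), abs_le]
  constructor <;> linarith

theorem pair_symLR (c r l τ : ℝ) : II k (Ioo (c - r) (c + r)) (Ioo (c - l) (c + l)) (-τ) =
    II k (Ioo (c - r) (c + r)) (Ioo (c - l) (c + l)) τ := by
  simp only [pair_swap hk, pair_sym]
  rw [← pair_refl _ (c + c), preimage_const_sub_Ioo, show c + c - (c + l) = c - l by ring,
    show c + c - (c - l) = c + l by ring]
  congr 1; funext t
  rw [← pairK_neg hk]; congr 1; ring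

omit hk in
theorem pair_splitL {A S : Set ℝ} (hS : MeasurableSet S) (h : S ⊆ A) (B : Set ℝ) (x : ℝ) :
    II k A B x = II k (A \ S) B x + II k S B x := pair_split _ hS h

theorem pair_splitR {B S : Set ℝ} (hS : MeasurableSet S) (h : S ⊆ B) (A : Set ℝ) (x : ℝ) :
    II k A B x = II k A (B \ S) x + II k A S x := by
  simp only [pair_swap hk]; exact pair_split _ hS h

theorem pair_split3R {E : Set ℝ} (hE : MeasurableSet E) {a b : ℝ} (h : a ≤ b) (A : Set ℝ) (x : ℝ) :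
    II k A E x = II k A (E ∩ Iic a) x + II k A (E ∩ Ioo a b) x + II k A (E ∩ Ioi b) x := by
  simp only [pair_swap hk]; exact pair_split3 _ hE h

theorem pair_X {c₀ δ τ T : ℝ} (hτ : 0 ≤ τ) (hT : -T ≤ c₀ - δ) {E E' : Set ℝ} {χ χ' : ℝ}
    {L L' : Prop} (h : Cut c₀ δ E χ L) (h' : Cut c₀ δ E' χ' L') :
    II k (E ∩ Ioo (-T) χ) (E' ∩ Ioi χ') (-τ) ≤ II k (E ∩ Ioo (-T) χ) (E' ∩ Ioi χ') τ := by
  have mP : MeasurableSet (E ∩ Ioo (-T) χ) := h.meas.inter measurableSet_Ioo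
  have mQ : MeasurableSet (E' ∩ Ioi χ') := h'.meas.inter measurableSet_Ioi
  obtain ⟨r, hr, s1, s2⟩ : ∃ r, 0 ≤ r ∧ Ioo (c₀ - r) (c₀ + r) ⊆ E ∩ Ioo (-T) χ ∧
      ∀ s ∈ (E ∩ Ioo (-T) χ) \ Ioo (c₀ - r) (c₀ + r), s ≤ c₀ := by
    rcases le_total χ c₀ with a | a
    · exact ⟨0, le_rfl, by simp, fun s hs => hs.1.2.2.le.trans a⟩
    · have b1 := h.sym
      have b2 := h.near
      rw [abs_of_nonneg (sub_nonneg.2 a)] at b1 b2
      refine ⟨χ - c₀, sub_nonneg.2 a, fun s hs => ⟨b1 hs, by linarith [hs.1], by linarith [hs.2]⟩,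
        fun s hs => ?_⟩
      by_contra b3
      exact hs.2 ⟨by linarith, by linarith [hs.1.2.2]⟩
  obtain ⟨l, hl, t1, t2⟩ : ∃ l, 0 ≤ l ∧ Ioo (c₀ - l) (c₀ + l) ⊆ E' ∩ Ioi χ' ∧
      ∀ t ∈ (E' ∩ Ioi χ') \ Ioo (c₀ - l) (c₀ + l), c₀ ≤ t := by
    rcases le_total c₀ χ' with a | a
    · exact ⟨0, le_rfl, by simp, fun s hs => a.trans (le_of_lt hs.1.2)⟩
    · have b1 := h'.sym
      rw [abs_of_nonpos (sub_nonpos.2 a), neg_sub] at b1
      refine ⟨c₀ - χ', sub_nonneg.2 a, fun s hs => ⟨b1 hs, by simpa using hs.1⟩, fun s hs => ?_⟩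
      by_contra b3
      exact hs.2 ⟨by simpa using hs.1.2, by linarith⟩
  simp only [pair_splitL measurableSet_Ioo s1, pair_splitR hk measurableSet_Ioo t1]
  exact add_le_add (add_le_add (pair_pt hk (mP.diff measurableSet_Ioo) (mQ.diff measurableSet_Ioo)
      hτ fun s hs t ht => (s2 s hs).trans (t2 t ht))
    (pair_symR hk (mP.diff measurableSet_Ioo) hτ hl s2))
    (add_le_add (pair_symL hk (mQ.diff measurableSet_Ioo) hτ hr t2) (pair_symLR hk _ _ _ _).le)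

theorem pair_tail1 {B : Set ℝ} (hB : MeasurableSet B) {τ a s : ℝ} (hτ : 0 ≤ τ) (h : B ⊆ Iic a)
    (hs : a ≤ s) : ∫⁻ t in B, ENNReal.ofReal (k (s + -τ - t)) ≤
      (∫⁻ t in B, ENNReal.ofReal (k (s + τ - t))) + pairK k τ (a - s) := by
  have e : ∀ y, ∫⁻ t in Iic a, ENNReal.ofReal (k (y - t)) =
      ∫⁻ u in Ici (y - a), ENNReal.ofReal (k u) := fun y => by
    rw [← pair_refl (fun u => ENNReal.ofReal (k u)) y, preimage_const_sub_Ici, sub_sub_cancel]
  have h1 : ∫⁻ t in Iic a, ENNReal.ofReal (k (s + -τ - t)) =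
      (∫⁻ t in Iic a, ENNReal.ofReal (k (s + τ - t))) + pairK k τ (a - s) := by
    rw [e, e, ← pairK_neg hk, pairK, pair_shift fun u => ENNReal.ofReal (k u),
      setLIntegral_congr Ioo_ae_eq_Ico, add_comm _ (∫⁻ u in Ico _ _, _),
      show -τ + -(a - s) = s + -τ - a by ring, show τ + -(a - s) = s + τ - a by ring,
      ← lintegral_union measurableSet_Ici ((Iio_disjoint_Ici le_rfl).mono_left Ico_subset_Iio_self),
      Ico_union_Ici_eq_Ici (by linarith)]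
  have h2 : ∫⁻ t in Iic a \ B, ENNReal.ofReal (k (s + τ - t)) ≤
      ∫⁻ t in Iic a \ B, ENNReal.ofReal (k (s + -τ - t)) :=
    setLIntegral_mono' (measurableSet_Iic.diff hB) fun t ht => pair_mono hk (by
      have : t ≤ a := ht.1
      rw [abs_of_nonneg (by linarith : 0 ≤ s + τ - t), abs_le]
      constructor <;> linarith)
  have h3 : ∫⁻ t in Iic a \ B, ENNReal.ofReal (k (s + -τ - t)) ≠ ∞ := by
    refine ne_top_of_le_ne_top ?_ (setLIntegral_le_lintegral _ _)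
    rw [lintegral_sub_left_eq_self fun u => ENNReal.ofReal (k u)]
    exact hk.int.lintegral_lt_top.ne
  rw [pair_split _ hB h, pair_split _ hB h, add_assoc] at h1
  exact (ENNReal.add_le_add_iff_left h3).1 (h1.le.trans (add_le_add h2 le_rfl))

theorem pairK_meas (r y : ℝ) : Measurable fun t => pairK k r (y - t) := by
  simp only [pairK, ← add_sub_assoc]
  exact pair_meas1 hk _ y

theorem pair_tail {τ T χ : ℝ} (hτ : 0 ≤ τ) {E E' : Set ℝ} (h : MeasurableSet E)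
    (h' : MeasurableSet E') :
    II k (E ∩ Ioo (-T) χ) (E' ∩ Iic (-T)) (-τ) ≤ II k (E ∩ Ioo (-T) χ) (E' ∩ Iic (-T)) τ +
      (if (E' ∩ Iic (-T)).Nonempty then II k (Ioo (-τ) τ) E (-T) else 0) := by
  split_ifs with hn
  · rw [pair_win hk]
    refine le_trans ?_ (add_le_add le_rfl (lintegral_mono_set (inter_subset_left (t := Ioo (-T) χ))))
    rw [II, II, ← lintegral_add_right _ (pairK_meas hk τ (-T))]
    exact setLIntegral_mono' (h.inter measurableSet_Ioo) fun s hs =>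
      pair_tail1 hk (h'.inter measurableSet_Iic) hτ inter_subset_right hs.2.1.le
  · simp [II, not_nonempty_iff_eq_empty.1 hn]

theorem pair_near {B : Set ℝ} (hB : MeasurableSet B) {τ ρ y : ℝ} {J : ℝ → ℝ≥0∞}
    (hJ : ∀ t, ρ ≤ |t - y| → pairK k τ (y - t) ≤ J t) {N : Prop} (hN : ∀ t ∈ B, |t - y| < ρ → N) :
    ∫⁻ t in B, pairK k τ (y - t) ≤ (∫⁻ t in B, J t) +
      if N then ENNReal.ofReal (2 * τ) * ∫⁻ t, ENNReal.ofReal (k t) else 0 := by
  split_ifs with h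
  · exact (pairK_total hk B y).trans le_add_self
  · rw [add_zero]
    exact setLIntegral_mono' hB fun t ht => hJ t (not_lt.1 fun e => h (hN t ht e))

theorem pair_L {c₀ δ ρ τ T : ℝ} (hτ : 0 ≤ τ) (hρ : 0 < ρ) (hρδ : ρ ≤ δ) (hT : -T ≤ c₀ - δ)
    {E E' : Set ℝ} {χ' : ℝ} {L' : Prop} (h : MeasurableSet E) (hE : Icc (c₀ - δ) (c₀ + δ) ⊆ E)
    (h' : Cut c₀ δ E' χ' L') {J : ℝ → ℝ≥0∞}
    (hJ : ∀ t y, |y - c₀| ≤ δ → ρ ≤ |t - y| → pairK k τ (y - t) ≤ J t) :
    II k (E ∩ Ioo (-T) c₀) (E' ∩ Ioi χ') (-τ) + II k (E' ∩ Ioo (-T) χ') (E ∩ Ioi c₀) (-τ) +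
      II k (Ioo (-τ) τ) E' c₀ ≤
    II k (E ∩ Ioo (-T) c₀) (E' ∩ Ioi χ') τ + II k (E' ∩ Ioo (-T) χ') (E ∩ Ioi c₀) τ +
      ((∫⁻ t in E', J t) + if δ - ρ < |χ' - c₀| then
        ENNReal.ofReal (2 * τ) * ∫⁻ t, ENNReal.ofReal (k t) else 0) := by
  have hδ : 0 ≤ δ := hρ.le.trans hρδ
  obtain ⟨n1, n2⟩ := abs_le.1 h'.near
  have mP : MeasurableSet (E' ∩ Ioo (-T) χ') := h'.meas.inter measurableSet_Ioo
  have mQ : MeasurableSet (E' ∩ Ioi χ') := h'.meas.inter measurableSet_Ioi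
  have s1 : Ioo (c₀ - δ) c₀ ⊆ E ∩ Ioo (-T) c₀ := fun s hs =>
    ⟨hE ⟨hs.1.le, by linarith [hs.2]⟩, by linarith [hs.1], hs.2⟩
  have s2 : Ioo c₀ (c₀ + δ) ⊆ E ∩ Ioi c₀ := fun s hs => ⟨hE ⟨by linarith [hs.1], hs.2.le⟩, hs.1⟩
  have a1 : II k ((E ∩ Ioo (-T) c₀) \ Ioo (c₀ - δ) c₀) (E' ∩ Ioi χ') (-τ) ≤
      II k ((E ∩ Ioo (-T) c₀) \ Ioo (c₀ - δ) c₀) (E' ∩ Ioi χ') τ :=
    pair_pt hk ((h.inter measurableSet_Ioo).diff measurableSet_Ioo) mQ hτ fun s hs t ht => by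
      have : χ' < t := ht.2
      by_contra b
      exact hs.2 ⟨by linarith, hs.1.2.2⟩
  have a2 : II k (E' ∩ Ioo (-T) χ') ((E ∩ Ioi c₀) \ Ioo c₀ (c₀ + δ)) (-τ) ≤
      II k (E' ∩ Ioo (-T) χ') ((E ∩ Ioi c₀) \ Ioo c₀ (c₀ + δ)) τ :=
    pair_pt hk mP ((h.inter measurableSet_Ioi).diff measurableSet_Ioo) hτ fun s hs t ht => by
      by_contra b
      exact ht.2 ⟨ht.1.2, by linarith [hs.2.2]⟩
  have a3 : II k (Ioo (c₀ - δ) c₀) (E' ∩ Ioi χ') (-τ) + ∫⁻ t in E' ∩ Ioi χ', pairK k τ (c₀ - t) =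
      II k (Ioo (c₀ - δ) c₀) (E' ∩ Ioi χ') τ + ∫⁻ t in E' ∩ Ioi χ', pairK k τ (c₀ - δ - t) := by
    rw [pair_swap hk, pair_swap hk, ← lintegral_add_right _ (pairK_meas hk _ _),
      ← lintegral_add_right _ (pairK_meas hk _ _)]
    exact lintegral_congr fun t => pair_F2 k (by linarith) hτ t
  have a4 : II k (E' ∩ Ioo (-T) χ') (Ioo c₀ (c₀ + δ)) (-τ) +
      ∫⁻ t in E' ∩ Ioo (-T) χ', pairK k τ (c₀ - t) = II k (E' ∩ Ioo (-T) χ') (Ioo c₀ (c₀ + δ)) τ +
      ∫⁻ t in E' ∩ Ioo (-T) χ', pairK k τ (c₀ + δ - t) := by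
    rw [pair_F3 hk, ← pair_F3 hk (Ioo _ _) _ τ, pair_swap hk, pair_swap hk,
      ← lintegral_add_right _ (pairK_meas hk _ _), ← lintegral_add_right _ (pairK_meas hk _ _)]
    exact lintegral_congr fun t => (pair_F2 k (by linarith) hτ t).symm
  have a5 : ∫⁻ t in E' ∩ Iic (-T), pairK k τ (c₀ - t) ≤ ∫⁻ t in E' ∩ Iic (-T), J t :=
    setLIntegral_mono' (h'.meas.inter measurableSet_Iic) fun t ht => hJ t c₀ (by simpa using hδ) (by
      have : t ≤ -T := ht.2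
      exact le_abs.2 (Or.inr (by linarith)))
  have a6 := pair_near hk mQ (N := δ - ρ < c₀ - χ') (fun t => hJ t (c₀ - δ) (by
    rw [sub_sub_cancel_left, abs_neg, abs_of_nonneg hδ])) fun t ht e => by
      have : χ' < t := ht.2
      linarith [(abs_lt.1 e).2]
  have a7 := pair_near hk mP (N := δ - ρ < χ' - c₀) (fun t => hJ t (c₀ + δ) (by
    rw [add_sub_cancel_left, abs_of_nonneg hδ])) fun t ht e => by
      linarith [(abs_lt.1 e).1, ht.2.2]
  have a8 : ∀ W : ℝ≥0∞, ((if δ - ρ < c₀ - χ' then W else 0) + if δ - ρ < χ' - c₀ then W else 0) ≤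
      if δ - ρ < |χ' - c₀| then W else 0 := fun W => by
    by_cases b1 : δ - ρ < c₀ - χ'
    · rw [if_pos b1, if_neg (by linarith), if_pos (lt_abs.2 (Or.inr (by linarith))), add_zero]
    · by_cases b2 : δ - ρ < χ' - c₀
      · rw [if_neg b1, if_pos b2, if_pos (lt_abs.2 (Or.inl b2)), zero_add]
      · rw [if_neg b1, if_neg b2, zero_add]; exact zero_le
  have hχ : -T ≤ χ' := by linarith
  rw [pair_win hk, pair_split3 _ h'.meas hχ, pair_split3 J h'.meas hχ]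
  simp only [pair_splitL measurableSet_Ioo s1, pair_splitR hk measurableSet_Ioo s2]
  have a9 := add_le_add (add_le_add (add_le_add a1 a2) (add_le_add
    (a3.le.trans (add_le_add le_rfl a6)) (a4.le.trans (add_le_add le_rfl a7)))) a5
  refine le_trans (le_of_eq (by ring)) (a9.trans (le_trans (le_of_eq ?_)
    (add_le_add le_rfl (add_le_add le_rfl (a8 _)))))
  ring

end aux

/-- The rearrangement inequality for a pair of cut sets. -/
theorem pair_ineq {k : ℝ → ℝ} (hk : K1 k) {c₀ δ ρ τ T : ℝ} (hτ : 0 < τ) (hρ : 0 < ρ)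
    (hρδ : ρ ≤ δ) (hT : -T ≤ c₀ - δ) {E E' : Set ℝ} {χ χ' : ℝ} {L L' N N' : Prop}
    (h : Cut c₀ δ E χ L) (h' : Cut c₀ δ E' χ' L')
    (hN : L ∨ δ - ρ < |χ - c₀| → N) (hN' : L' ∨ δ - ρ < |χ' - c₀| → N')
    {J : ℝ → ℝ≥0∞} (hJm : Measurable J)
    (hJ : ∀ t y, |y - c₀| ≤ δ → ρ ≤ |t - y| →
      ∫⁻ x in Ioo (-τ) τ, ENNReal.ofReal (k (x + y - t)) ≤ J t) :
    II k (E ∩ Ioo (-T) χ) E' (-τ) + II k (E' ∩ Ioo (-T) χ') E (-τ)
      + (if L then II k (Ioo (-τ) τ) E' c₀ else 0) + (if L' then II k (Ioo (-τ) τ) E c₀ else 0)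
    ≤ II k (E ∩ Ioo (-T) χ) E' τ + II k (E' ∩ Ioo (-T) χ') E τ
      + (if N ∧ N' then ENNReal.ofReal (2 * τ) * ∫⁻ t, ENNReal.ofReal (k t) else 0)
      + (if L then ∫⁻ t in E', J t else 0) + (if L' then ∫⁻ s in E, J s else 0)
      + (if (E' ∩ Iic (-T)).Nonempty then II k (Ioo (-τ) τ) E (-T) else 0)
      + (if (E ∩ Iic (-T)).Nonempty then II k (Ioo (-τ) τ) E' (-T) else 0) := by
  have hJ' : ∀ t y, |y - c₀| ≤ δ → ρ ≤ |t - y| → pairK k τ (y - t) ≤ J t := fun t y a b => by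
    simpa only [pairK, add_sub_assoc] using hJ t y a b
  have hχ : -T ≤ χ := by linarith [(abs_le.1 h.near).1]
  have hχ' : -T ≤ χ' := by linarith [(abs_le.1 h'.near).1]
  have key : II k (E ∩ Ioo (-T) χ) (E' ∩ Ioi χ') (-τ) + II k (E' ∩ Ioo (-T) χ') (E ∩ Ioi χ) (-τ)
      + (if L then II k (Ioo (-τ) τ) E' c₀ else 0) + (if L' then II k (Ioo (-τ) τ) E c₀ else 0)
      ≤ II k (E ∩ Ioo (-T) χ) (E' ∩ Ioi χ') τ + II k (E' ∩ Ioo (-T) χ') (E ∩ Ioi χ) τ
      + (if N ∧ N' then ENNReal.ofReal (2 * τ) * ∫⁻ t, ENNReal.ofReal (k t) else 0)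
      + (if L then ∫⁻ t in E', J t else 0) + (if L' then ∫⁻ s in E, J s else 0) := by
    by_cases hL : L
    · obtain ⟨rfl, e⟩ := h.long hL
      have a := pair_L hk hτ.le hρ hρδ hT h.meas e h' hJ'
      by_cases hL' : L'
      · have b := pairK_total hk E (r := τ) χ
        rw [(h'.long hL').1, sub_self, abs_zero, if_neg (by linarith), add_zero] at a
        rw [if_pos hL, if_pos hL, if_pos hL', if_pos hL', if_pos ⟨hN (Or.inl hL), hN' (Or.inl hL')⟩,
          (h'.long hL').1, pair_win hk E]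
        exact (add_le_add a b).trans (le_trans (le_of_eq (by ring)) le_self_add)
      · rw [if_pos hL, if_pos hL, if_neg hL', if_neg hL', add_zero, add_zero]
        refine a.trans ?_
        rw [add_comm (∫⁻ t in E', J t), ← add_assoc]
        gcongr
        split_ifs with b1 b2
        exacts [le_rfl, (b2 ⟨hN (Or.inl hL), hN' (Or.inr b1)⟩).elim, zero_le, le_rfl]
    · by_cases hL' : L'
      · obtain ⟨rfl, e⟩ := h'.long hL'
        have a := pair_L hk hτ.le hρ hρδ hT h'.meas e h hJ'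
        rw [if_neg hL, if_neg hL, if_pos hL', if_pos hL', add_zero, add_zero,
          add_comm (II k (E ∩ Ioo (-T) χ) _ (-τ)), add_comm (II k (E ∩ Ioo (-T) χ) _ τ)]
        refine a.trans ?_
        rw [add_comm (∫⁻ t in E, J t), ← add_assoc]
        gcongr
        split_ifs with b1 b2
        exacts [le_rfl, (b2 ⟨hN (Or.inr b1), hN' (Or.inl hL')⟩).elim, zero_le, le_rfl]
      · rw [if_neg hL, if_neg hL, if_neg hL', if_neg hL', add_zero, add_zero, add_zero, add_zero]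
        exact (add_le_add (pair_X hk hτ.le hT h h') (pair_X hk hτ.le hT h' h)).trans le_self_add
  have t1 := pair_tail hk (T := T) (χ := χ) hτ.le h.meas h'.meas
  have t2 := pair_tail hk (T := T) (χ := χ') hτ.le h'.meas h.meas
  rw [pair_split3R hk h'.meas hχ' _ (-τ), pair_split3R hk h'.meas hχ' _ τ,
    pair_split3R hk h.meas hχ _ (-τ), pair_split3R hk h.meas hχ _ τ,
    pair_F3 hk (E ∩ Ioo (-T) χ) (E' ∩ Ioo (-T) χ'), pair_F3 hk (E' ∩ Ioo (-T) χ') (E ∩ Ioo (-T) χ)]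
  have := add_le_add (add_le_add (add_le_add key t1) t2)
    (le_refl (II k (E ∩ Ioo (-T) χ) (E' ∩ Ioo (-T) χ') τ + II k (E' ∩ Ioo (-T) χ') (E ∩ Ioo (-T) χ) τ))
  exact le_trans (le_of_eq (by ring)) (this.trans (le_of_eq (by ring)))

end Vale.Agent.P100
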