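import Vale.Agent.P100.Mass

open MeasureTheory Set
open scoped ENNReal

namespace Vale.Agent.P100

variable {Θ : Type} [MetricSpace Θ] [CompactSpace Θ] [MeasurableSpace Θ] [BorelSpace Θ]
  {σ : Measure Θ} [IsFiniteMeasure σ] {k : Θ → Θ → ℝ → ℝ} {m p q e e' CK : ℝ} {N : ℕ}
  {W Z : Θ → ℝ → ℝ}

set_option linter.unusedSectionVars false

theorem PhiB_le (hk : Ker σ m N CK k) (h : Half σ k m p e W Z) : ∃ c : ℝ, 0 < c ∧ ∀ θ s,
    ENNReal.ofReal c * Phi σ m (src e p Z) s ≤ ENNReal.ofReal (W θ s) := by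
  obtain ⟨c, hc, hl⟩ := hk.lower
  refine ⟨c, hc, fun θ s => ?_⟩
  simp only [h.rep, Phi, pot, pt, ← lintegral_const_mul' _ _ ENNReal.ofReal_ne_top]
  refine lintegral_mono fun θ' => lintegral_mono_ae ?_
  filter_upwards [(countable_singleton s).ae_notMem volume] with t ht
  rw [← mul_assoc, ← ENNReal.ofReal_mul hc.le, abs_sub_comm]
  exact mul_le_mul_left (ENNReal.ofReal_le_ofReal (hl θ θ' _ (sub_ne_zero.2 (Ne.symm ht)))) _

theorem PhiB_nonempty (hσ : σ ≠ 0) : Nonempty Θ := by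
  by_contra h
  exact hσ (@Measure.eq_zero_of_isEmpty _ (not_nonempty_iff.1 h) _ σ)

theorem Phi_ne_top (hk : Ker σ m N CK k) (hσ : σ ≠ 0) (h : Half σ k m p e W Z) (s : ℝ) :
    Phi σ m (src e p Z) s ≠ ⊤ := by
  obtain ⟨c, hc, hl⟩ := PhiB_le hk h
  obtain ⟨θ⟩ := PhiB_nonempty hσ
  intro ht
  have := hl θ s
  rw [ht, ENNReal.mul_top (by simpa using hc)] at this
  exact ENNReal.ofReal_ne_top (top_le_iff.1 this)

theorem PhiB_ge {f : Θ → ℝ → ℝ} (hm : 0 ≤ m) {a s : ℝ} (ha : 0 ≤ a)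
    (h : ∀ θ, ∀ t ∈ Icc s (s + 1), a ≤ f θ t) (ht : Phi σ m f s ≠ ⊤) :
    Real.exp (-m) * σ.real univ * a ≤ (Phi σ m f s).toReal := by
  rw [← ENNReal.ofReal_le_iff_le_toReal ht, mul_right_comm,
    ENNReal.ofReal_mul (p := _ * _) (by positivity), ofReal_measureReal, ← lintegral_const]
  refine lintegral_mono fun θ => le_trans ?_ (setLIntegral_le_lintegral (Icc s (s + 1)) _)
  refine le_trans ?_ (setLIntegral_mono' (f := fun _ => ENNReal.ofReal (Real.exp (-m) * a))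
    measurableSet_Icc fun t ht => ?_)
  · simp
  · rw [← ENNReal.ofReal_mul (Real.exp_pos _).le]
    refine ENNReal.ofReal_le_ofReal (mul_le_mul (Real.exp_le_exp.2 ?_) (h θ t ht) ha
      (Real.exp_pos _).le)
    have : |t - s| ≤ 1 := abs_le.2 ⟨by linarith [ht.1], by linarith [ht.2]⟩
    nlinarith

theorem PhiB_univ (hσ : σ ≠ 0) : 0 < σ.real univ :=
  ENNReal.toReal_pos (Measure.measure_univ_ne_zero.2 hσ) (measure_ne_top _ _)

theorem PhiB_pos (hk : Ker σ m N CK k) (hσ : σ ≠ 0) (h : Half σ k m p e W Z) (s : ℝ) :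
    0 < (Phi σ m (src e p Z) s).toReal := by
  obtain ⟨θ⟩ := PhiB_nonempty hσ
  obtain ⟨z, -, hz⟩ := (isCompact_univ.prod (isCompact_Icc (a := s) (b := s + 1))).exists_isMinOn
    ⟨(θ, s), mem_univ _, left_mem_Icc.2 (by linarith)⟩ h.cont_src.continuousOn
  exact (mul_pos (mul_pos (Real.exp_pos _) (PhiB_univ hσ)) (h.src_pos z.1 z.2)).trans_le
    (PhiB_ge hk.m_pos.le (h.src_pos _ _).le (fun θ t ht => hz (a := (θ, t)) ⟨mem_univ _, ht⟩)
      (Phi_ne_top hk hσ h s))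

theorem PhiB_shift (hk : Ker σ m N CK k) (hσ : σ ≠ 0) (h : Half σ k m p e W Z) (s s' : ℝ) :
    Real.log (Phi σ m (src e p Z) s).toReal ≤
      m * |s - s'| + Real.log (Phi σ m (src e p Z) s').toReal := by
  have := ENNReal.toReal_mono (ENNReal.mul_ne_top ENNReal.ofReal_ne_top (Phi_ne_top hk hσ h s'))
    (Phi_shift hk.m_pos.le s s')
  rw [ENNReal.toReal_mul, ENNReal.toReal_ofReal (Real.exp_pos _).le] at this
  have h2 := Real.log_le_log (PhiB_pos hk hσ h s) this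
  rwa [Real.log_mul (Real.exp_pos _).ne' (PhiB_pos hk hσ h s').ne', Real.log_exp] at h2

theorem PhiB_low (hk : Ker σ m N CK k) (hσ : σ ≠ 0) (h : Half σ k m p e W Z)
    (h' : Half σ k m q e' Z W) : ∃ K : ℝ, ∀ s,
      e' * s + q * Real.log (Phi σ m (src e p Z) s).toReal ≤
        K + Real.log (Phi σ m (src e' q W) s).toReal := by
  obtain ⟨c, hc, hl⟩ := PhiB_le hk h
  have hm := hk.m_pos
  have hq := h'.p_pos
  refine ⟨m - Real.log (σ.real univ) + |e'| + q * (m - Real.log c), fun s => ?_⟩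
  have key := PhiB_ge hm.le (Real.exp_pos (e' * s - |e'| +
    q * (Real.log c - m + Real.log (Phi σ m (src e p Z) s).toReal))).le (fun θ t ht => ?_)
    (Phi_ne_top hk hσ h' s)
  · have := Real.log_le_log (mul_pos (mul_pos (Real.exp_pos _) (PhiB_univ hσ)) (Real.exp_pos _)) key
    rw [Real.log_mul (mul_pos (Real.exp_pos _) (PhiB_univ hσ)).ne' (Real.exp_pos _).ne',
      Real.log_mul (Real.exp_pos _).ne' (PhiB_univ hσ).ne', Real.log_exp, Real.log_exp] at this
    linarith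
  · have a0 : |s - t| ≤ 1 := abs_le.2 ⟨by linarith [ht.2], by linarith [ht.1]⟩
    have a1 := PhiB_shift hk hσ h s t
    have a2 := ENNReal.toReal_mono ENNReal.ofReal_ne_top (hl θ t)
    rw [ENNReal.toReal_mul, ENNReal.toReal_ofReal hc.le, ENNReal.toReal_ofReal (h'.pos θ t).le] at a2
    have a3 := Real.log_le_log (mul_pos hc (PhiB_pos hk hσ h t)) a2
    rw [Real.log_mul hc.ne' (PhiB_pos hk hσ h t).ne'] at a3
    rw [src, Real.rpow_def_of_pos (h'.pos θ t), ← Real.exp_add, Real.exp_le_exp]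
    have a4 : e' * (s - t) ≤ |e'| := (le_abs_self _).trans (by
      rw [abs_mul]; exact mul_le_of_le_one_right (abs_nonneg _) a0)
    have a5 : Real.log c - m + Real.log (Phi σ m (src e p Z) s).toReal ≤ Real.log (W θ t) := by
      nlinarith
    nlinarith [mul_le_mul_of_nonneg_left a5 hq.le]

theorem PhiB_self (hk : Ker σ m N CK k) (hσ : σ ≠ 0) (h : Half σ k m p e W Z)
    (h' : Half σ k m q e' Z W) : ∃ K : ℝ, ∀ s,
      (e + p * e') * s + (p * q - 1) * Real.log (Phi σ m (src e p Z) s).toReal ≤ K := by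
  obtain ⟨K, h1⟩ := PhiB_low hk hσ h h'
  obtain ⟨K', h2⟩ := PhiB_low hk hσ h' h
  exact ⟨K' + p * K, fun s => by nlinarith [mul_le_mul_of_nonneg_left (h1 s) h.p_pos.le, h2 s]⟩

theorem one_lt_pq (hk : Ker σ m N CK k) (hσ : σ ≠ 0) (h : Half σ k m p e W Z)
    (h' : Half σ k m q e' Z W) : 1 < p * q := by
  by_contra hc
  obtain ⟨K, h1⟩ := PhiB_self hk hσ h h'
  have hd : 0 < e + p * e' + (p * q - 1) * m := by
    nlinarith [h.ex, mul_lt_mul_of_pos_left h'.ex h.p_pos]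
  set L := Real.log (Phi σ m (src e p Z) 0).toReal
  have a0 : 0 ≤ (|K - (p * q - 1) * L| + 1) / (e + p * e' + (p * q - 1) * m) := by positivity
  have a1 := mul_div_cancel₀ (|K - (p * q - 1) * L| + 1) hd.ne'
  generalize (|K - (p * q - 1) * L| + 1) / (e + p * e' + (p * q - 1) * m) = s at a0 a1
  have a2 := PhiB_shift hk hσ h s 0
  rw [sub_zero, abs_of_nonneg a0] at a2
  nlinarith [mul_le_mul_of_nonneg_left a2 (sub_nonneg.2 (not_lt.1 hc)), h1 s,
    le_abs_self (K - (p * q - 1) * L)]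

/-- The product of the weighted masses decays exponentially in the subcritical case. -/
theorem Phi_prod (hk : Ker σ m N CK k) (hσ : σ ≠ 0) (h : Half σ k m p e W Z)
    (h' : Half σ k m q e' Z W) (hs : 0 < e / (p + 1) + e' / (q + 1)) :
    ∃ C γ : ℝ, 0 < C ∧ 0 < γ ∧ ∀ s,
      (Phi σ m (src e p Z) s).toReal * (Phi σ m (src e' q W) s).toReal
        ≤ C * Real.exp (-(γ * s)) := by
  obtain ⟨K, h1⟩ := PhiB_self hk hσ h h'
  obtain ⟨K', h2⟩ := PhiB_self hk hσ h' h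
  have hd := sub_pos.2 (one_lt_pq hk hσ h h')
  have hp := h.p_pos
  have hq := h'.p_pos
  rw [div_add_div _ _ (by positivity) (by positivity), div_pos_iff_of_pos_right (by positivity)] at hs
  refine ⟨Real.exp ((K + K') / (p * q - 1)), (e * (q + 1) + (p + 1) * e') / (p * q - 1),
    Real.exp_pos _, div_pos hs hd, fun s => ?_⟩
  rw [← Real.exp_add, ← Real.log_le_iff_le_exp (mul_pos (PhiB_pos hk hσ h s) (PhiB_pos hk hσ h' s)),
    Real.log_mul (PhiB_pos hk hσ h s).ne' (PhiB_pos hk hσ h' s).ne', div_mul_eq_mul_div,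
    ← neg_div, ← add_div, le_div_iff₀ hd]
  linarith [h1 s, h2 s]

end Vale.Agent.P100
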