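import Vale.Agent.P100.Pair
import Vale.Agent.P100.Lev

open MeasureTheory Set
open scoped ENNReal

namespace Vale.Agent.P100

/-- The measure on levels. -/
noncomputable abbrev rayMu : Measure ℝ := volume.restrict (Ioi 0)

/-- Interaction of two families of weights. -/
noncomputable def rayT (κ φ ψ : ℝ × ℝ → ℝ≥0∞) (z : ℝ × ℝ) : ℝ≥0∞ :=
  ∫⁻ s, φ (z.1, s) * ∫⁻ t, κ (s, t) * ψ (z.2, t)

theorem ray_measT {κ φ ψ : ℝ × ℝ → ℝ≥0∞} (hκ : Measurable κ) (hφ : Measurable φ)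
    (hψ : Measurable ψ) : Measurable (rayT κ φ ψ) := by
  unfold rayT
  refine Measurable.lintegral_prod_right' (f := fun w : (ℝ × ℝ) × ℝ =>
    φ (w.1.1, w.2) * ∫⁻ t, κ (w.2, t) * ψ (w.1.2, t)) (Measurable.mul (by fun_prop) ?_)
  exact Measurable.lintegral_prod_right' (f := fun v : ((ℝ × ℝ) × ℝ) × ℝ =>
    κ (v.1.2, v.2) * ψ (v.1.1.2, v.2)) (by fun_prop)

theorem ray_intT {κ φ ψ : ℝ × ℝ → ℝ≥0∞} (hκ : Measurable κ) (hφ : Measurable φ)
    (hψ : Measurable ψ) : ∫⁻ z, rayT κ φ ψ z ∂(rayMu.prod rayMu)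
      = ∫⁻ s, (∫⁻ c, φ (c, s) ∂rayMu) * ∫⁻ t, κ (s, t) * ∫⁻ c, ψ (c, t) ∂rayMu := by
  have hH : Measurable fun w : ℝ × ℝ => ∫⁻ t, κ (w.2, t) * ψ (w.1, t) :=
    Measurable.lintegral_prod_right' (f := fun v : (ℝ × ℝ) × ℝ =>
      κ (v.1.2, v.2) * ψ (v.1.1, v.2)) (by fun_prop)
  have hΨ : Measurable fun t => ∫⁻ c, ψ (c, t) ∂rayMu := hψ.lintegral_prod_left'
  have hG : Measurable fun s => ∫⁻ t, κ (s, t) * ∫⁻ c, ψ (c, t) ∂rayMu :=
    Measurable.lintegral_prod_right' (f := fun v : ℝ × ℝ =>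
      κ (v.1, v.2) * ∫⁻ c, ψ (c, v.2) ∂rayMu) (Measurable.mul (by fun_prop) (hΨ.comp measurable_snd))
  have h1 : ∀ s, ∫⁻ c', (∫⁻ t, κ (s, t) * ψ (c', t)) ∂rayMu
      = ∫⁻ t, κ (s, t) * ∫⁻ c, ψ (c, t) ∂rayMu := fun s => by
    rw [lintegral_lintegral_swap (Measurable.aemeasurable (by fun_prop))]
    exact lintegral_congr fun t => lintegral_const_mul _ (by fun_prop)
  have h2 : ∀ c, ∫⁻ c', rayT κ φ ψ (c, c') ∂rayMu
      = ∫⁻ s, φ (c, s) * ∫⁻ t, κ (s, t) * ∫⁻ c, ψ (c, t) ∂rayMu := fun c => by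
    unfold rayT
    rw [lintegral_lintegral_swap]
    swap
    · exact ((hφ.comp (measurable_const.prodMk measurable_snd)).mul hH).aemeasurable
    refine lintegral_congr fun s => ?_
    rw [← h1]
    exact lintegral_const_mul (φ (c, s)) (f := fun c' => ∫⁻ t, κ (s, t) * ψ (c', t))
      (hH.comp (measurable_prodMk_right (y := s)))
  rw [lintegral_prod _ (ray_measT hκ hφ hψ).aemeasurable]
  simp only [h2]
  rw [lintegral_lintegral_swap]
  · exact lintegral_congr fun s => lintegral_mul_const _ (by fun_prop)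
  · exact (hφ.mul (hG.comp measurable_snd)).aemeasurable

theorem ray_II (k : ℝ → ℝ) {A B : Set (ℝ × ℝ)} (hA : MeasurableSet A) (hB : MeasurableSet B)
    (x : ℝ) (z : ℝ × ℝ) : II k (Prod.mk z.1 ⁻¹' A) (Prod.mk z.2 ⁻¹' B) x
      = rayT (fun w => ENNReal.ofReal (k (w.1 + x - w.2))) (A.indicator 1) (B.indicator 1) z := by
  rw [II, rayT, ← lintegral_indicator (measurable_prodMk_left hA)]
  refine lintegral_congr fun s => ?_
  by_cases hs : (z.1, s) ∈ A
  · rw [indicator_of_mem (show s ∈ Prod.mk z.1 ⁻¹' A from hs), indicator_of_mem hs, Pi.one_apply,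
      one_mul, ← lintegral_indicator (measurable_prodMk_left hB)]
    refine lintegral_congr fun t => ?_
    by_cases ht : (z.2, t) ∈ B
    · rw [indicator_of_mem (show t ∈ Prod.mk z.2 ⁻¹' B from ht), indicator_of_mem ht,
        Pi.one_apply, mul_one]
    · rw [indicator_of_notMem (show t ∉ Prod.mk z.2 ⁻¹' B from ht), indicator_of_notMem ht,
        mul_zero]
  · rw [indicator_of_notMem (show s ∉ Prod.mk z.1 ⁻¹' A from hs), indicator_of_notMem hs, zero_mul]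

theorem ray_ind {A : Set (ℝ × ℝ)} (hA : MeasurableSet A) (s : ℝ) :
    ∫⁻ c, A.indicator (1 : ℝ × ℝ → ℝ≥0∞) (c, s) ∂rayMu = volume {c | 0 < c ∧ (c, s) ∈ A} := by
  have h := lintegral_indicator_one (μ := rayMu) (measurable_prodMk_right (y := s) hA)
  rw [Measure.restrict_apply (measurable_prodMk_right hA), inter_comm] at h
  exact h

theorem ray_lev (a : ℝ) : volume {c : ℝ | 0 < c ∧ c < a} = ENNReal.ofReal a := by
  have := Real.volume_Ioo (a := 0) (b := a)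
  rwa [sub_zero] at this

/-- The region below the graph. -/
def rayE (g : ℝ → ℝ) : Set (ℝ × ℝ) := {w | w.1 < g w.2}

theorem ray_measE {g : ℝ → ℝ} (hg : Continuous g) : MeasurableSet (rayE g) :=
  measurableSet_lt measurable_fst (hg.measurable.comp measurable_snd)

theorem ray_gen {k g : ℝ → ℝ} (hk : Measurable k) (hg : Continuous g) {A : Set (ℝ × ℝ)}
    (hA : MeasurableSet A) (x : ℝ) :
    Measurable (fun z : ℝ × ℝ => II k (Prod.mk z.1 ⁻¹' A) {t | z.2 < g t} x) ∧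
    ∫⁻ z, II k (Prod.mk z.1 ⁻¹' A) {t | z.2 < g t} x ∂(rayMu.prod rayMu)
      = ∫⁻ s, volume {c | 0 < c ∧ (c, s) ∈ A} * pt k g (s + x) := by
  have e : (fun z : ℝ × ℝ => II k (Prod.mk z.1 ⁻¹' A) {t | z.2 < g t} x) = _ :=
    funext (ray_II k hA (ray_measE hg) x)
  have h1 : Measurable fun w : ℝ × ℝ => ENNReal.ofReal (k (w.1 + x - w.2)) := by fun_prop
  have h2 : Measurable (A.indicator (1 : ℝ × ℝ → ℝ≥0∞)) := measurable_one.indicator hA
  have h3 : Measurable ((rayE g).indicator (1 : ℝ × ℝ → ℝ≥0∞)) :=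
    measurable_one.indicator (ray_measE hg)
  rw [e]
  refine ⟨ray_measT h1 h2 h3, ?_⟩
  rw [ray_intT h1 h2 h3]
  refine lintegral_congr fun s => ?_
  rw [ray_ind hA, pt]
  congr 1
  refine lintegral_congr fun t => ?_
  rw [ray_ind (ray_measE hg)]
  exact congrArg _ (ray_lev (g t))

theorem ray_A {k f g : ℝ → ℝ} (hk : Measurable k) (hf : Continuous f) (hg : Continuous g)
    (c₀ δ T x : ℝ) :
    Measurable (fun z : ℝ × ℝ =>
      II k ({s | z.1 < f s} ∩ Ioo (-T) (chi f c₀ δ z.1)) {t | z.2 < g t} x) ∧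
    ∫⁻ z, II k ({s | z.1 < f s} ∩ Ioo (-T) (chi f c₀ δ z.1)) {t | z.2 < g t} x ∂(rayMu.prod rayMu)
      = ∫⁻ s, pm f c₀ δ T s * pt k g (s + x) :=
  ray_gen hk hg (A := {w | w.1 < f w.2 ∧ -T < w.2 ∧ w.2 < chi f c₀ δ w.1})
    ((ray_measE hf).inter ((measurableSet_lt measurable_const measurable_snd).inter
      (measurableSet_lt measurable_snd ((measurable_chi' hf c₀ δ).comp measurable_fst)))) x

open Classical in
theorem ray_B {k g : ℝ → ℝ} (hk : Measurable k) (hg : Continuous g) (a τ x : ℝ) :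
    Measurable (fun z : ℝ × ℝ => if z.1 < a then II k (Ioo (-τ) τ) {t | z.2 < g t} x else 0) ∧
    ∫⁻ z, (if z.1 < a then II k (Ioo (-τ) τ) {t | z.2 < g t} x else 0) ∂(rayMu.prod rayMu)
      = ENNReal.ofReal a * ∫⁻ s in Ioo (-τ) τ, pt k g (s + x) := by
  have h := ray_gen hk hg (A := Iio a ×ˢ Ioo (-τ) τ) (measurableSet_Iio.prod measurableSet_Ioo) x
  have e : (fun z : ℝ × ℝ => if z.1 < a then II k (Ioo (-τ) τ) {t | z.2 < g t} x else 0)
      = fun z : ℝ × ℝ => II k (Prod.mk z.1 ⁻¹' (Iio a ×ˢ Ioo (-τ) τ)) {t | z.2 < g t} x := by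
    funext z
    split_ifs with hz
    · rw [mk_preimage_prod_right (show z.1 ∈ Iio a from hz)]
    · rw [mk_preimage_prod_right_eq_empty (show z.1 ∉ Iio a from hz)]
      simp [II]
  rw [e]
  refine ⟨h.1, h.2.trans ?_⟩
  rw [← lintegral_const_mul' _ _ ENNReal.ofReal_ne_top, ← lintegral_indicator measurableSet_Ioo]
  refine lintegral_congr fun s => ?_
  by_cases hs : s ∈ Ioo (-τ) τ
  · rw [indicator_of_mem hs, ← ray_lev]
    simp [hs]
  · rw [indicator_of_notMem hs]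
    simp [hs]

open Classical in
theorem ray_ite (a : ℝ) : Measurable (fun c : ℝ => if c < a then (1 : ℝ≥0∞) else 0) ∧
    ∫⁻ c, (if c < a then (1 : ℝ≥0∞) else 0) ∂rayMu = ENNReal.ofReal a := by
  refine ⟨Measurable.ite measurableSet_Iio measurable_const measurable_const, ?_⟩
  have h := lintegral_indicator_one (μ := rayMu) (measurableSet_Iio (a := a))
  rw [Measure.restrict_apply measurableSet_Iio, inter_comm] at h
  exact h.trans (ray_lev a)

open Classical in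
theorem ray_C {g : ℝ → ℝ} (hg : Continuous g) (a : ℝ) {J : ℝ → ℝ≥0∞} (hJ : Measurable J) :
    Measurable (fun z : ℝ × ℝ => if z.1 < a then ∫⁻ t in {t | z.2 < g t}, J t else 0) ∧
    ∫⁻ z, (if z.1 < a then ∫⁻ t in {t | z.2 < g t}, J t else 0) ∂(rayMu.prod rayMu)
      = ENNReal.ofReal a * ∫⁻ t, J t * ENNReal.ofReal (g t) := by
  have h3 : Measurable ((rayE g).indicator (1 : ℝ × ℝ → ℝ≥0∞)) :=
    measurable_one.indicator (ray_measE hg)
  have e1 : ∀ c, ∫⁻ t in {t | c < g t}, J t = ∫⁻ t, J t * (rayE g).indicator 1 (c, t) := fun c => by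
    rw [← lintegral_indicator (measurableSet_lt measurable_const hg.measurable)]
    refine lintegral_congr fun t => ?_
    by_cases ht : c < g t <;> simp [indicator, rayE, ht]
  have h4 : Measurable fun c => ∫⁻ t, J t * (rayE g).indicator 1 (c, t) :=
    Measurable.lintegral_prod_right' (f := fun w : ℝ × ℝ => J w.2 * (rayE g).indicator 1 w)
      (by fun_prop)
  have e : (fun z : ℝ × ℝ => if z.1 < a then ∫⁻ t in {t | z.2 < g t}, J t else 0)
      = fun z : ℝ × ℝ => (if z.1 < a then (1 : ℝ≥0∞) else 0)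
        * ∫⁻ t, J t * (rayE g).indicator 1 (z.2, t) := by
    funext z
    rw [e1]
    split_ifs <;> simp
  rw [e]
  refine ⟨((ray_ite a).1.comp measurable_fst).mul (h4.comp measurable_snd), ?_⟩
  rw [lintegral_prod_mul (ray_ite a).1.aemeasurable h4.aemeasurable, (ray_ite a).2,
    lintegral_lintegral_swap (Measurable.aemeasurable (by fun_prop))]
  congr 1
  refine lintegral_congr fun t => ?_
  rw [lintegral_const_mul _ (by fun_prop), ray_ind (ray_measE hg)]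
  exact congrArg _ (ray_lev (g t))

open Classical in
theorem ray_D (a b : ℝ) (K : ℝ≥0∞) :
    Measurable (fun z : ℝ × ℝ => if z.1 < a ∧ z.2 < b then K else 0) ∧
    ∫⁻ z, (if z.1 < a ∧ z.2 < b then K else 0) ∂(rayMu.prod rayMu)
      = ENNReal.ofReal a * ENNReal.ofReal b * K := by
  have e : (fun z : ℝ × ℝ => if z.1 < a ∧ z.2 < b then K else 0)
      = fun z : ℝ × ℝ => (if z.1 < a then (1 : ℝ≥0∞) else 0)
        * (if z.2 < b then (1 : ℝ≥0∞) else 0) * K := by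
    funext z
    by_cases h1 : z.1 < a <;> by_cases h2 : z.2 < b <;> simp [h1, h2]
  have h : Measurable fun z : ℝ × ℝ => (if z.1 < a then (1 : ℝ≥0∞) else 0)
      * (if z.2 < b then (1 : ℝ≥0∞) else 0) :=
    ((ray_ite a).1.comp measurable_fst).mul ((ray_ite b).1.comp measurable_snd)
  rw [e]
  refine ⟨h.mul_const K, ?_⟩
  rw [lintegral_mul_const K h, ← (ray_ite a).2, ← (ray_ite b).2,
    ← lintegral_prod_mul (ray_ite a).1.aemeasurable (ray_ite b).1.aemeasurable]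

theorem ray_swap {F : ℝ × ℝ → ℝ≥0∞} {a : ℝ≥0∞}
    (h : Measurable F ∧ ∫⁻ z, F z ∂(rayMu.prod rayMu) = a) :
    Measurable (fun z : ℝ × ℝ => F z.swap) ∧ ∫⁻ z, F z.swap ∂(rayMu.prod rayMu) = a :=
  ⟨h.1.comp measurable_swap, (lintegral_prod_swap F).trans h.2⟩

theorem ray_add {α : Type} [MeasurableSpace α] {ν : Measure α} {F G : α → ℝ≥0∞} {a b : ℝ≥0∞}
    (h : Measurable F ∧ ∫⁻ z, F z ∂ν = a) (h' : Measurable G ∧ ∫⁻ z, G z ∂ν = b) :
    Measurable (fun z => F z + G z) ∧ ∫⁻ z, (F z + G z) ∂ν = a + b :=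
  ⟨h.1.add h'.1, by rw [lintegral_add_left h.1, h.2, h'.2]⟩

/-- The rearrangement inequality for a pair of rays, after integrating over the levels. -/
theorem ray_ineq {k f g : ℝ → ℝ} (hk : K1 k) {c₀ δ ρ τ T ε ε' : ℝ} (hτ : 0 < τ) (hρ : 0 < ρ)
    (hρδ : ρ ≤ δ) (hT : -T ≤ c₀ - δ) (hf : Continuous f) (hg : Continuous g)
    (hε : ∀ s, s ≤ -T → f s ≤ ε) (hε' : ∀ s, s ≤ -T → g s ≤ ε')
    {J : ℝ → ℝ≥0∞} (hJm : Measurable J)
    (hJ : ∀ t y, |y - c₀| ≤ δ → ρ ≤ |t - y| →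
      ∫⁻ x in Ioo (-τ) τ, ENNReal.ofReal (k (x + y - t)) ≤ J t) :
    (∫⁻ s, pm f c₀ δ T s * pt k g (s + -τ)) + (∫⁻ s, pm g c₀ δ T s * pt k f (s + -τ))
      + ENNReal.ofReal (hh f c₀ δ) * (∫⁻ x in Ioo (-τ) τ, pt k g (x + c₀))
      + ENNReal.ofReal (hh g c₀ δ) * (∫⁻ x in Ioo (-τ) τ, pt k f (x + c₀))
    ≤ (∫⁻ s, pm f c₀ δ T s * pt k g (s + τ)) + (∫⁻ s, pm g c₀ δ T s * pt k f (s + τ))
      + ENNReal.ofReal (2 * τ) * (ENNReal.ofReal (hh f c₀ (δ - ρ))
          * ENNReal.ofReal (hh g c₀ (δ - ρ)) * ∫⁻ t, ENNReal.ofReal (k t))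
      + ENNReal.ofReal (hh f c₀ δ) * (∫⁻ t, J t * ENNReal.ofReal (g t))
      + ENNReal.ofReal (hh g c₀ δ) * (∫⁻ t, J t * ENNReal.ofReal (f t))
      + ENNReal.ofReal ε' * (∫⁻ x in Ioo (-τ) τ, pt k f (x + -T))
      + ENNReal.ofReal ε * (∫⁻ x in Ioo (-τ) τ, pt k g (x + -T)) := by
  classical
  have hδ : 0 ≤ δ := hρ.le.trans hρδ
  have hL := ray_add (ray_add (ray_add (ray_A hk.meas hf hg c₀ δ T (-τ))
    (ray_swap (ray_A hk.meas hg hf c₀ δ T (-τ)))) (ray_B hk.meas hg (hh f c₀ δ) τ c₀))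
    (ray_swap (ray_B hk.meas hf (hh g c₀ δ) τ c₀))
  have hR := ray_add (ray_add (ray_add (ray_add (ray_add (ray_add (ray_A hk.meas hf hg c₀ δ T τ)
    (ray_swap (ray_A hk.meas hg hf c₀ δ T τ)))
    (ray_D (hh f c₀ (δ - ρ)) (hh g c₀ (δ - ρ))
      (ENNReal.ofReal (2 * τ) * ∫⁻ t, ENNReal.ofReal (k t))))
    (ray_C hg (hh f c₀ δ) hJm)) (ray_swap (ray_C hf (hh g c₀ δ) hJm)))
    (ray_swap (ray_B hk.meas hf ε' τ (-T)))) (ray_B hk.meas hg ε τ (-T))
  rw [mul_left_comm] at hR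
  rw [← hL.2, ← hR.2]
  refine lintegral_mono fun z => ?_
  have h := pair_ineq hk hτ hρ hρδ hT (cut_chi (c₀ := c₀) hf hδ z.1) (cut_chi hg hδ z.2)
    (near_long hf (sub_nonneg.2 hρδ) (sub_le_self _ hρ.le))
    (near_long hg (sub_nonneg.2 hρδ) (sub_le_self _ hρ.le)) hJm hJ
  simp only [Prod.fst_swap, Prod.snd_swap]
  refine le_trans (le_of_eq (by congr)) (h.trans ?_)
  refine add_le_add (add_le_add (le_of_eq (by congr)) ?_) ?_
  · split_ifs with h1 h2
    · exact le_rfl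
    · obtain ⟨s, hs1, hs2⟩ := h1
      exact absurd (lt_of_lt_of_le hs1 (hε' s hs2)) h2
    · exact zero_le
    · exact le_rfl
  · split_ifs with h1 h2
    · exact le_rfl
    · obtain ⟨s, hs1, hs2⟩ := h1
      exact absurd (lt_of_lt_of_le hs1 (hε s hs2)) h2
    · exact zero_le
    · exact le_rfl

end Vale.Agent.P100
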