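import Mathlib

open MeasureTheory Set Filter Topology Module
open scoped ENNReal Laplacian RealInnerProductSpace

namespace Vale.Agent.P100

set_option linter.unusedSectionVars false

/-- A function of one variable with two derivatives. -/
structure RepK (a a1 a2 : ℝ → ℝ) : Prop where
  d1 : ∀ t, HasDerivAt a (a1 t) t
  d2 : ∀ t, HasDerivAt a1 (a2 t) t
  c2 : Continuous a2

theorem RepK.c0 {a a1 a2 : ℝ → ℝ} (h : RepK a a1 a2) : Continuous a :=
  continuous_iff_continuousAt.2 fun t => (h.d1 t).continuousAt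

theorem RepK.c1 {a a1 a2 : ℝ → ℝ} (h : RepK a a1 a2) : Continuous a1 :=
  continuous_iff_continuousAt.2 fun t => (h.d2 t).continuousAt

theorem RepK.scale {a a1 a2 : ℝ → ℝ} (h : RepK a a1 a2) (c s : ℝ) : RepK (fun t => c * a (s * t))
    (fun t => c * s * a1 (s * t)) (fun t => c * s ^ 2 * a2 (s * t)) :=
  ⟨fun t => (((h.d1 (s * t)).comp t ((hasDerivAt_id t).const_mul s)).const_mul c).congr_deriv
    (by ring), fun t => (((h.d2 (s * t)).comp t ((hasDerivAt_id t).const_mul s)).const_mul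
    (c * s)).congr_deriv (by ring), by have := h.c2; fun_prop⟩

theorem RepK.sub {a a1 a2 b b1 b2 : ℝ → ℝ} (h : RepK a a1 a2) (h' : RepK b b1 b2) :
    RepK (fun t => a t - b t) (fun t => a1 t - b1 t) (fun t => a2 t - b2 t) :=
  ⟨fun t => (h.d1 t).sub (h'.d1 t), fun t => (h.d2 t).sub (h'.d2 t), h.c2.sub h'.c2⟩

theorem RepK.van {a a1 a2 : ℝ → ℝ} (h : RepK a a1 a2) {T c : ℝ} (ha : ∀ t, T ≤ t → a t = c)
    (t : ℝ) (ht : T < t) : a1 t = 0 ∧ a2 t = 0 := by
  have key : ∀ {g g' : ℝ → ℝ} {c : ℝ}, (∀ t, HasDerivAt g (g' t) t) → (∀ t, T < t → g t = c) →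
      ∀ t, T < t → g' t = 0 := fun hg h0 t ht => (hg t).unique ((hasDerivAt_const t _).congr_of_eventuallyEq
        (by filter_upwards [Ioi_mem_nhds ht] with s hs using h0 s hs))
  have h1 := key h.d1 fun t ht => ha t ht.le
  exact ⟨h1 t ht, key h.d2 h1 t ht⟩

theorem rep_cut : ∃ β β1 β2 : ℝ → ℝ, RepK β β1 β2 ∧ Monotone β ∧ (∀ t, 0 ≤ β t) ∧
    (∀ t, t ≤ 1 → β t = 0) ∧ ∀ t, 2 ≤ t → β t = 1 := by
  have h : ContDiff ℝ 2 fun t : ℝ => Real.smoothTransition (t - 1) :=
    Real.smoothTransition.contDiff.comp (contDiff_id.sub contDiff_const)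
  have h1 : ContDiff ℝ 1 (deriv fun t : ℝ => Real.smoothTransition (t - 1)) :=
    h.deriv' (n := 1)
  exact ⟨_, _, _, ⟨fun t => (h.differentiable (by norm_num) t).hasDerivAt,
    fun t => (h1.differentiable (by norm_num) t).hasDerivAt, h1.continuous_deriv le_rfl⟩,
    fun s t hst => Real.smoothTransition.monotone (by linarith),
    fun t => Real.smoothTransition.nonneg _,
    fun t ht => Real.smoothTransition.zero_of_nonpos (by linarith),
    fun t ht => Real.smoothTransition.one_of_one_le (by linarith)⟩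

theorem rep_glue {f g f' g' : ℝ → ℝ} (hf : ∀ t, HasDerivAt f (f' t) t)
    (hg : ∀ t, 0 < t → HasDerivAt g (g' t) t) (h0 : f 1 = g 1) (h1 : f' 1 = g' 1) (t : ℝ) :
    HasDerivAt (fun t => if t ≤ 1 then f t else g t) (if t ≤ 1 then f' t else g' t) t := by
  rcases lt_trichotomy t 1 with h | rfl | h
  · rw [if_pos h.le]
    exact (hf t).congr_of_eventuallyEq
      (by filter_upwards [Iio_mem_nhds h] with s hs using if_pos (le_of_lt hs))
  · rw [if_pos le_rfl, ← hasDerivWithinAt_univ, ← Iic_union_Ici (a := (1 : ℝ))]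
    refine HasDerivWithinAt.union ((hf 1).hasDerivWithinAt.congr (fun s hs => if_pos hs)
      (if_pos le_rfl)) ?_
    rw [h1]
    refine (hg 1 one_pos).hasDerivWithinAt.congr (fun s hs => ?_) ((if_pos le_rfl).trans h0)
    split_ifs with h
    · rw [le_antisymm h hs, h0]
    · rfl
  · rw [if_neg h.not_ge]
    exact (hg t (by linarith)).congr_of_eventuallyEq
      (by filter_upwards [Ioi_mem_nhds h] with s hs using if_neg (not_le.2 hs))

theorem rep_ker {m : ℝ} (hm : 0 < m) : ∃ k k1 k2 : ℝ → ℝ, RepK k k1 k2 ∧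
    (∀ t, 4 * (m + 1) * k1 t + 4 * t * k2 t = -(4 * m * (m + 1) * (m + 2) * max (1 - t) 0)) ∧
    (∀ t, 1 ≤ t → k t = t ^ (-m)) ∧ (∀ t, 0 ≤ m * k t + t * k1 t) ∧ ∀ t, 0 ≤ k t := by
  have e : ∀ t : ℝ, 1 < t → t ^ (-m) = t * t ^ (-m - 1) ∧ t ^ (-m - 1) = t * t ^ (-m - 1 - 1) :=
    fun t ht => ⟨by rw [Real.rpow_sub_one (by linarith)]; field_simp,
      by rw [Real.rpow_sub_one (by linarith) (-m - 1)]; field_simp⟩
  refine ⟨fun t => if t ≤ 1 then 1 + m * (1 - t) + m * (m + 1) / 2 * (1 - t) ^ 2 else t ^ (-m),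
    fun t => if t ≤ 1 then -m - m * (m + 1) * (1 - t) else -m * t ^ (-m - 1),
    fun t => if t ≤ 1 then m * (m + 1) else -m * ((-m - 1) * t ^ (-m - 1 - 1)),
    ⟨rep_glue (fun t => ?_) (fun t ht => Real.hasDerivAt_rpow_const (Or.inl ht.ne')) (by simp)
      (by simp), rep_glue (fun t => ?_) (fun t ht =>
      (Real.hasDerivAt_rpow_const (Or.inl ht.ne')).const_mul _) (by simp) (by simp; ring), ?_⟩,
    fun t => ?_, fun t ht => ?_, fun t => ?_, fun t => ?_⟩
  · have h := (hasDerivAt_id t).const_sub 1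
    exact (((h.const_mul m).const_add 1).add ((h.pow 2).const_mul _)).congr_deriv (by simp; ring)
  · exact ((((hasDerivAt_id t).const_sub 1).const_mul _).const_sub _).congr_deriv (by ring)
  · refine continuous_if_le continuous_id continuous_const continuousOn_const
      (continuousOn_const.mul (continuousOn_const.mul (continuousOn_id.rpow_const
        fun t ht => Or.inl (lt_of_lt_of_le one_pos ht).ne'))) ?_
    rintro _ rfl
    simp
    ring
  · dsimp only
    split_ifs with h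
    · rw [max_eq_left (by linarith)]; ring
    · rw [max_eq_right (by linarith), (e t (not_le.1 h)).2]; ring
  · dsimp only
    split_ifs with h
    · simp [le_antisymm h ht]
    · rfl
  · dsimp only
    split_ifs with h
    · exact le_of_le_of_eq (by positivity : 0 ≤ (1 - t) ^ 2 * m * (m + 1) * (m + 2) / 2) (by ring)
    · rw [(e t (not_le.1 h)).1]; exact le_of_eq (by ring)
  · dsimp only
    split_ifs with h
    · have : 0 ≤ 1 - t := by linarith
      positivity
    · exact Real.rpow_nonneg (by linarith) _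

theorem rep_anti {m : ℝ} {k k1 k2 : ℝ → ℝ} (h : RepK k k1 k2) (hk : ∀ t, 0 ≤ m * k t + t * k1 t)
    (t : ℝ) : AntitoneOn (fun σ : ℝ => σ ^ (-m) * k (σ⁻¹ * t)) (Ioi 0) := by
  have hd : ∀ σ : ℝ, 0 < σ → HasDerivAt (fun σ : ℝ => σ ^ (-m) * k (σ⁻¹ * t))
      (-(σ ^ (-m - 1) * (m * k (σ⁻¹ * t) + σ⁻¹ * t * k1 (σ⁻¹ * t)))) σ := fun σ hσ =>
    ((Real.hasDerivAt_rpow_const (Or.inl hσ.ne')).mul ((h.d1 _).comp σ
      ((hasDerivAt_inv hσ.ne').mul_const t))).congr_deriv (by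
        rw [Real.rpow_sub_one hσ.ne']
        simp only [Function.comp]
        field_simp
        ring)
  refine antitoneOn_of_deriv_nonpos (convex_Ioi 0)
    (fun σ hσ => (hd σ hσ).continuousAt.continuousWithinAt)
    (fun σ hσ => (hd σ (interior_subset hσ)).differentiableAt.differentiableWithinAt) fun σ hσ => ?_
  have h0 : 0 < σ := interior_subset hσ
  rw [(hd σ h0).deriv]
  exact neg_nonpos.2 (mul_nonneg (by positivity) (hk _))

variable {E : Type} [NormedAddCommGroup E] [InnerProductSpace ℝ E]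

/-- A function with two derivatives in the direction `v`. -/
structure RepJ (v : E) (g g1 g2 : E → ℝ) : Prop where
  d1 : ∀ y, HasLineDerivAt ℝ g (g1 y) y v
  d2 : ∀ y, HasLineDerivAt ℝ g1 (g2 y) y v
  c0 : Continuous g
  c1 : Continuous g1
  c2 : Continuous g2

theorem rep_lmul {g h : E → ℝ} {g' h' : ℝ} {y v : E} (hg : HasLineDerivAt ℝ g g' y v)
    (hh : HasLineDerivAt ℝ h h' y v) :
    HasLineDerivAt ℝ (fun y => g y * h y) (g' * h y + g y * h') y v :=
  (HasDerivAt.mul hg hh).congr_deriv (by simp)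

theorem RepJ.mul {v : E} {g g1 g2 h h1 h2 : E → ℝ} (G : RepJ v g g1 g2) (H : RepJ v h h1 h2) :
    RepJ v (fun y => g y * h y) (fun y => g1 y * h y + g y * h1 y)
      (fun y => g2 y * h y + 2 * (g1 y * h1 y) + g y * h2 y) :=
  ⟨fun y => rep_lmul (G.d1 y) (H.d1 y), fun y => (HasDerivAt.add (rep_lmul (G.d2 y) (H.d1 y))
    (rep_lmul (G.d1 y) (H.d2 y))).congr_deriv (by ring), G.c0.mul H.c0,
    (G.c1.mul H.c0).add (G.c0.mul H.c1),
    ((G.c2.mul H.c0).add (continuous_const.mul (G.c1.mul H.c1))).add (G.c0.mul H.c2)⟩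

theorem RepK.rad {a a1 a2 : ℝ → ℝ} (h : RepK a a1 a2) (x v : E) :
    RepJ v (fun y => a (‖y - x‖ ^ 2)) (fun y => 2 * ⟪y - x, v⟫ * a1 (‖y - x‖ ^ 2))
      (fun y => 2 * ‖v‖ ^ 2 * a1 (‖y - x‖ ^ 2) + 4 * ⟪y - x, v⟫ ^ 2 * a2 (‖y - x‖ ^ 2)) := by
  have l : ∀ y : E, HasDerivAt (fun s : ℝ => y + s • v - x) v 0 := fun y =>
    ((((hasDerivAt_id (0 : ℝ)).smul_const v).const_add y).sub_const x).congr_deriv (one_smul _ _)
  have q : ∀ {g g' : ℝ → ℝ}, (∀ t, HasDerivAt g (g' t) t) → ∀ y : E, HasLineDerivAt ℝ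
      (fun y => g (‖y - x‖ ^ 2)) (2 * ⟪y - x, v⟫ * g' (‖y - x‖ ^ 2)) y v := fun hg y =>
    ((hg _).comp 0 (l y).norm_sq).congr_deriv (by simp [mul_comm])
  have p : ∀ y : E, HasLineDerivAt ℝ (fun y => 2 * ⟪y - x, v⟫) (2 * ‖v‖ ^ 2) y v := fun y =>
    (((l y).inner ℝ (hasDerivAt_const 0 v)).const_mul 2).congr_deriv (by simp)
  have c0 := h.c0
  have c1 := h.c1
  have c2 := h.c2
  exact ⟨q h.d1, fun y => HasDerivAt.congr_deriv (rep_lmul (p y) (q h.d2 y)) (by ring),
    by fun_prop, by fun_prop, by fun_prop⟩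

variable [FiniteDimensional ℝ E] [MeasurableSpace E] [BorelSpace E] (μ : Measure E)
  [μ.IsAddHaarMeasure]

theorem rep_int {F : E → ℝ} {K : Set E} (hK : IsCompact K) (hF : ContinuousOn F K)
    (h0 : ∀ y, y ∉ K → F y = 0) : Integrable F μ :=
  (hF.integrableOn_compact hK).integrable_of_forall_notMem_eq_zero h0

theorem rep_green {u : E → ℝ} (hu : ContDiffOn ℝ 2 u {0}ᶜ) {v : E} {g g1 g2 : E → ℝ}
    (J : RepJ v g g1 g2) {K : Set E} (hK : IsCompact K) (h0 : K ⊆ {0}ᶜ)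
    (hg : ∀ y, y ∉ K → g y = 0) : Integrable (fun y => u y * g2 y) μ ∧
    Integrable (fun y => iteratedFDeriv ℝ 2 u y ![v, v] * g y) μ ∧
    ∫ y, u y * g2 y ∂μ = ∫ y, iteratedFDeriv ℝ 2 u y ![v, v] * g y ∂μ := by
  have key : ∀ {g g' : E → ℝ}, (∀ y, HasLineDerivAt ℝ g (g' y) y v) → (∀ y, y ∉ K → g y = 0) →
      ∀ y, y ∉ K → g' y = 0 := fun hg h0 y hy => (hg y).unique
        (((hasFDerivAt_const (0 : ℝ) y).hasLineDerivAt v).congr_of_eventuallyEq
        (by filter_upwards [hK.isClosed.isOpen_compl.mem_nhds hy] with s hs using h0 s hs))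
  have ts : ∀ {g : E → ℝ}, (∀ y, y ∉ K → g y = 0) → ∀ y ∈ tsupport g, ({0}ᶜ : Set E) ∈ 𝓝 y :=
    fun h y hy => isOpen_compl_singleton.mem_nhds (h0 (closure_minimal
      (Function.support_subset_iff'.2 h) hK.isClosed hy))
  have hg1 := key J.d1 hg
  have hg2 := key J.d2 hg1
  have hu1 : ContDiffOn ℝ 1 (fderiv ℝ u) {0}ᶜ :=
    hu.fderiv_of_isOpen isOpen_compl_singleton (by norm_num)
  have a0 := hu.continuousOn.mono h0
  have a1 : ContinuousOn (fun y => fderiv ℝ u y v) K :=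
    (hu1.continuousOn.mono h0).clm_apply continuousOn_const
  have a2 : ContinuousOn (fun y => fderiv ℝ (fderiv ℝ u) y v v) K :=
    (((hu1.continuousOn_fderiv_of_isOpen isOpen_compl_singleton le_rfl).mono h0).clm_apply
      continuousOn_const).clm_apply continuousOn_const
  have I : ∀ {p q : E → ℝ}, ContinuousOn p K → Continuous q → (∀ y, y ∉ K → q y = 0) →
      Integrable (fun y => p y * q y) μ := fun hp hq h =>
    rep_int μ hK (hp.mul hq.continuousOn) fun y hy => by rw [h y hy, mul_zero]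
  simp only [iteratedFDeriv_two_apply, Matrix.cons_val_zero, Matrix.cons_val_one]
  refine ⟨I a0 J.c2 hg2, I a2 J.c0 hg, ?_⟩
  have e1 := integral_bilinear_hasLineDerivAt_right_eq_neg_left_of_integrable
    (B := ContinuousLinearMap.mul ℝ ℝ) (I a1 J.c1 hg1) (I a0 J.c2 hg2) (I a0 J.c1 hg1)
    (fun y hy => ((hu.contDiffAt (ts hg1 y hy)).differentiableAt
      (by norm_num)).hasFDerivAt.hasLineDerivAt v) fun y _ => J.d2 y
  have e2 := integral_bilinear_hasLineDerivAt_right_eq_neg_left_of_integrable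
    (B := ContinuousLinearMap.mul ℝ ℝ) (I a2 J.c0 hg) (I a1 J.c1 hg1) (I a1 J.c0 hg)
    (fun y hy => (HasDerivAt.clm_apply (((hu1.contDiffAt (ts hg y hy)).differentiableAt
      (by norm_num)).hasFDerivAt.hasLineDerivAt v) (hasDerivAt_const 0 v)).congr_deriv (by simp))
    fun y _ => J.d1 y
  simp only [ContinuousLinearMap.mul_apply'] at e1 e2
  rw [e1, e2, neg_neg]

theorem rep_scale {G : ℝ → E → ℝ} (hG : Continuous G.uncurry)
    (h0 : ∀ δ z, 2 < ‖z‖ → G δ z = 0) (x : E) :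
    Tendsto (fun δ : ℝ => ∫ y, (δ ^ finrank ℝ E)⁻¹ * G δ (δ⁻¹ • (y - x)) ∂μ) (𝓝[>] 0)
      (𝓝 (∫ z, G 0 z ∂μ)) := by
  have h1 := continuous_parametric_integral_of_continuous (μ := μ) hG
    (isCompact_closedBall (0 : E) 2)
  have h2 : ∀ δ, ∫ z in Metric.closedBall (0 : E) 2, G δ z ∂μ = ∫ z, G δ z ∂μ := fun δ =>
    setIntegral_eq_integral_of_forall_compl_eq_zero fun z hz => h0 δ z (by simpa using hz)
  simp only [h2] at h1
  refine ((h1.tendsto 0).mono_left nhdsWithin_le_nhds).congr' ?_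
  filter_upwards [self_mem_nhdsWithin] with δ hδ
  have h3 : 0 < δ := hδ
  rw [integral_const_mul, integral_sub_right_eq_self (fun y => G δ (δ⁻¹ • y)),
    Measure.integral_comp_inv_smul_of_nonneg μ _ h3.le, smul_eq_mul,
    inv_mul_cancel_left₀ (by positivity)]

end Vale.Agent.P100
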