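import Vale.Agent.P100.Glob
import Vale.Agent.P100.PhiB
import Vale.Agent.P100.Bal
import Vale.Agent.P100.Ode

open MeasureTheory Set
open scoped ENNReal

namespace Vale.Agent.P100

set_option linter.unusedSectionVars false

variable {Θ : Type} [MetricSpace Θ] [CompactSpace Θ] [MeasurableSpace Θ] [BorelSpace Θ]
  {σ : Measure Θ} [IsFiniteMeasure σ] {k : Θ → Θ → ℝ → ℝ} {m p q e e' CK : ℝ} {N : ℕ}
  {W Z : Θ → ℝ → ℝ}

theorem Half.left_le (h : Half σ k m p e W Z) (hm : 0 < m) :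
    ∃ D : ℝ, 0 ≤ D ∧ ∀ τ T : ℝ, 0 < τ → τ ≤ T →
      ∫⁻ θ, (∫⁻ x in Ioo (-τ) τ, ENNReal.ofReal (Z θ (x + -T))) ∂σ
        ≤ ENNReal.ofReal (2 * τ * D) := by
  obtain ⟨C, hC, hb⟩ := h.bd
  refine ⟨C * σ.real univ, by positivity, fun τ T hτ hT => ?_⟩
  calc _ ≤ ∫⁻ _θ, (∫⁻ _x in Ioo (-τ) τ, ENNReal.ofReal C ∂volume) ∂σ := by
        refine lintegral_mono fun θ => setLIntegral_mono' measurableSet_Ioo fun x hx =>
          ENNReal.ofReal_le_ofReal ?_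
        have h1 : x + -T ≤ 0 := by linarith [hx.2]
        refine (hb θ _ h1).trans (mul_le_of_le_one_right hC.le ?_)
        exact Real.exp_le_one_iff.2 (mul_nonpos_of_nonneg_of_nonpos hm.le h1)
    _ = _ := by
        rw [lintegral_const, setLIntegral_const, Real.volume_Ioo, ← ofReal_measureReal (μ := σ),
          ← ENNReal.ofReal_mul hC.le, ← ENNReal.ofReal_mul (by nlinarith)]
        congr 1; ring

theorem Half.HH_real (h : Half σ k m p e W Z) (hk : Ker σ m N CK k) (hσ : σ ≠ 0) (c₀ : ℝ)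
    {l l₀ : ℝ} (h0 : 0 < l₀) (h1 : l₀ ≤ 1) (hl : l₀ ≤ l) :
    HH σ (src e p Z) c₀ l ≠ ⊤ ∧ (HH σ (src e p Z) c₀ l).toReal
      ≤ Real.exp m * l₀⁻¹ * (Phi σ m (src e p Z) c₀).toReal := by
  have a1 := HH_le (σ := σ) hk.m_pos.le h.cont_src c₀ h0.le
  have a2 := HH_anti (σ := σ) h.cont_src c₀ h0.le hl
  have a3 := Phi_ne_top hk hσ h c₀
  have a4 : HH σ (src e p Z) c₀ l₀ ≠ ⊤ := by
    intro ht
    rw [ht, ENNReal.mul_top (by simpa using h0)] at a1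
    exact ENNReal.mul_ne_top ENNReal.ofReal_ne_top a3 (top_le_iff.1 a1)
  refine ⟨ne_top_of_le_ne_top a4 a2, (ENNReal.toReal_mono a4 a2).trans ?_⟩
  have a5 := ENNReal.toReal_mono (ENNReal.mul_ne_top ENNReal.ofReal_ne_top a3) a1
  rw [ENNReal.toReal_mul, ENNReal.toReal_mul, ENNReal.toReal_ofReal (by linarith),
    ENNReal.toReal_ofReal (Real.exp_pos _).le] at a5
  have a6 : Real.exp (m * l₀) ≤ Real.exp m :=
    Real.exp_le_exp.2 (mul_le_of_le_one_right hk.m_pos.le h1)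
  have a7 : (0 : ℝ) ≤ (Phi σ m (src e p Z) c₀).toReal := ENNReal.toReal_nonneg
  have a8 : (0 : ℝ) ≤ (HH σ (src e p Z) c₀ l₀).toReal := ENNReal.toReal_nonneg
  rw [mul_right_comm, ← div_eq_mul_inv, le_div_iff₀ h0]
  nlinarith

theorem EE_real (hk : Ker σ m N CK k) (hσ : σ ≠ 0) (h : Half σ k m p e W Z)
    (h' : Half σ k m q e' Z W) (c₀ : ℝ) {ρ l : ℝ} (hρ : 0 < ρ) (hρ1 : ρ ≤ 1) (hl : ρ ≤ l) :
    EE σ k (src e p Z) (src e' q W) c₀ l ≠ ⊤ ∧ (EE σ k (src e p Z) (src e' q W) c₀ l).toReal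
      ≤ Real.exp (|e| / p * l) * mf σ e p Z c₀ (l - ρ) + CK * ρ⁻¹ ^ N * (2 / m)
          * ((HH σ (src e p Z) c₀ l).toReal * (HH σ (src e' q W) c₀ l).toReal) := by
  have a1 := EE_le hk h h' c₀ hρ hρ1 hl
  have a2 := (h.HH_real hk hσ c₀ hρ hρ1 hl).1
  have a3 := (h'.HH_real hk hσ c₀ hρ hρ1 hl).1
  have a4 := ENNReal.mul_ne_top (a := ENNReal.ofReal (CK * ρ⁻¹ ^ N * (2 / m)))
    ENNReal.ofReal_ne_top (ENNReal.mul_ne_top a2 a3)
  have a5 := ENNReal.add_ne_top.2 ⟨ENNReal.ofReal_ne_top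
    (r := Real.exp (|e| / p * l) * mf σ e p Z c₀ (l - ρ)), a4⟩
  refine ⟨ne_top_of_le_ne_top a5 a1, (ENNReal.toReal_mono a5 a1).trans_eq ?_⟩
  have := h.mf_nonneg c₀ (sub_nonneg.2 hl)
  have := hk.CK_pos
  have := hk.m_pos
  rw [ENNReal.toReal_add ENNReal.ofReal_ne_top a4, ENNReal.toReal_ofReal (by positivity),
    ENNReal.toReal_mul, ENNReal.toReal_mul, ENNReal.toReal_ofReal (by positivity)]

theorem step1 (hk : Ker σ m N CK k) (hσ : σ ≠ 0) (h : Half σ k m p e W Z)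
    (h' : Half σ k m q e' Z W) (c₀ : ℝ) {δ ρ : ℝ} (hρ : 0 < ρ) (hρ1 : ρ ≤ 1) (hρδ : 2 * ρ ≤ δ) :
    e / (p + 1) * MM σ (src e p Z) Z (c₀ - δ) + e' / (q + 1) * MM σ (src e' q W) W (c₀ - δ)
      + p / (p + 1) * mf σ e p Z c₀ δ + q / (q + 1) * mf σ e' q W c₀ δ
    ≤ |e| / (p + 1) * (MM σ (src e p Z) Z (c₀ + δ) - MM σ (src e p Z) Z (c₀ - δ))
      + |e'| / (q + 1) * (MM σ (src e' q W) W (c₀ + δ) - MM σ (src e' q W) W (c₀ - δ))
      + (EE σ k (src e p Z) (src e' q W) c₀ (δ - ρ)).toReal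
      + CK * (ρ / 2)⁻¹ ^ N * Real.exp (m * (δ + 1))
        * ((HH σ (src e p Z) c₀ δ).toReal * (Phi σ m (src e' q W) c₀).toReal
          + (HH σ (src e' q W) c₀ δ).toReal * (Phi σ m (src e p Z) c₀).toReal) := by
  have hm := hk.m_pos
  have hp := h.p_pos
  have hq := h'.p_pos
  obtain ⟨D, hD, hl⟩ := h.left_le hm
  obtain ⟨D', hD', hl'⟩ := h'.left_le hm
  refine le_of_forall_pos_le_add fun η hη => ?_
  obtain ⟨B, hB⟩ : ∃ B, B = |e| / (p + 1) + |e'| / (q + 1) + D + D' + 2 := ⟨_, rfl⟩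
  have hB0 : 0 < B := by rw [hB]; positivity
  obtain ⟨ε, hε⟩ : ∃ ε, ε = η / B := ⟨_, rfl⟩
  have hε0 : 0 < ε := by rw [hε]; positivity
  have hεB : ε * B = η := by rw [hε]; field_simp
  obtain ⟨T₁, s1⟩ := h.src_small hm hε0
  obtain ⟨T₂, s2⟩ := h'.src_small hm hε0
  obtain ⟨T₃, s3⟩ := h.MM_small hm hε0
  obtain ⟨T₄, s4⟩ := h'.MM_small hm hε0
  obtain ⟨T, t1, t2, t3, t4, t5, t6⟩ : ∃ T : ℝ, T₁ ≤ T ∧ T₂ ≤ T ∧ T₃ ≤ T ∧ T₄ ≤ T ∧ 1 ≤ T
      ∧ δ - c₀ ≤ T :=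
    ⟨max (max (max T₁ T₂) (max T₃ T₄)) (max 1 (δ - c₀)), by simp, by simp, by simp, by simp,
      by simp, by simp⟩
  have hT : -T ≤ c₀ - δ := by linarith
  have hδ : 0 ≤ δ := by linarith
  obtain ⟨τ₁, hτ₁, c1⟩ := h.cost' hm hδ hT hε0
  obtain ⟨τ₂, hτ₂, c2⟩ := h'.cost' hm hδ hT hε0
  obtain ⟨τ, hτ, u1, u2, u3⟩ : ∃ τ : ℝ, 0 < τ ∧ τ ≤ τ₁ ∧ τ ≤ τ₂ ∧ τ ≤ ρ / 2 :=
    ⟨min τ₁ (min τ₂ (ρ / 2)), by positivity, by simp, by simp, by simp⟩
  have g := glob_ineq hk h h' (ε := ε) (ε' := ε) hτ (by linarith) (by linarith) hρ1 hT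
    (fun θ s hs => s1 θ s (by linarith)) (fun θ s hs => s2 θ s (by linarith))
  have l1 := hl τ T hτ (by linarith)
  have l2 := hl' τ T hτ (by linarith)
  have g2 := g.trans (add_le_add (add_le_add le_rfl (mul_le_mul' le_rfl l2)) (mul_le_mul' le_rfl l1))
  have f1 := h.AA_ne_top' c₀ T τ hδ
  have f2 := h'.AA_ne_top' c₀ T τ hδ
  have f3 := h.AA_ne_top' c₀ T (-τ) hδ
  have f4 := h'.AA_ne_top' c₀ T (-τ) hδ
  have f5 := h.CC_ne_top c₀ δ τ
  have f6 := h'.CC_ne_top c₀ δ τ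
  have f7 := (EE_real hk hσ h h' c₀ hρ hρ1 (show ρ ≤ δ - ρ by linarith)).1
  have f8 := (h.HH_real hk hσ c₀ hρ hρ1 (show ρ ≤ δ by linarith)).1
  have f9 := (h'.HH_real hk hσ c₀ hρ hρ1 (show ρ ≤ δ by linarith)).1
  have f10 := Phi_ne_top hk hσ h c₀
  have f11 := Phi_ne_top hk hσ h' c₀
  have g3 := ENNReal.toReal_mono (by finiteness) g2
  have hCK := hk.CK_pos
  rw [ENNReal.toReal_add (by finiteness) f6, ENNReal.toReal_add (by finiteness) f5,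
    ENNReal.toReal_add f3 f4, ENNReal.toReal_add (by finiteness) (by finiteness),
    ENNReal.toReal_add (by finiteness) (by finiteness),
    ENNReal.toReal_add (by finiteness) (by finiteness),
    ENNReal.toReal_add (by finiteness) (by finiteness), ENNReal.toReal_add f1 f2] at g3
  simp only [ENNReal.toReal_mul] at g3
  rw [ENNReal.toReal_add (by finiteness) (by finiteness), ENNReal.toReal_mul, ENNReal.toReal_mul,
    ENNReal.toReal_ofReal (by positivity), ENNReal.toReal_ofReal (by positivity),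
    ENNReal.toReal_ofReal hε0.le, ENNReal.toReal_ofReal (by positivity),
    ENNReal.toReal_ofReal (by positivity)] at g3
  have d1 := c1 τ hτ u1
  have d2 := c2 τ hτ u2
  have m1 : e / (p + 1) * MM σ (src e p Z) Z (-T) ≤ |e| / (p + 1) * ε :=
    mul_le_mul (div_le_div_of_nonneg_right (le_abs_self _) (by linarith)) (s3 T t3)
      ENNReal.toReal_nonneg (by positivity)
  have m2 : e' / (q + 1) * MM σ (src e' q W) W (-T) ≤ |e'| / (q + 1) * ε :=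
    mul_le_mul (div_le_div_of_nonneg_right (le_abs_self _) (by linarith)) (s4 T t4)
      ENNReal.toReal_nonneg (by positivity)
  rw [← hεB, hB]
  refine le_of_mul_le_mul_left ?_ (show 0 < 2 * τ by linarith)
  have m3 := mul_le_mul_of_nonneg_left m1 (show 0 ≤ 2 * τ by linarith)
  have m4 := mul_le_mul_of_nonneg_left m2 (show 0 ≤ 2 * τ by linarith)
  linarith

theorem step_pigeon (u : ℕ → ℝ) {K : ℕ} (hK : 0 < K) (h0 : 0 ≤ u K) :
    ∃ j < K, u j - u (j + 1) ≤ u 0 / K := by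
  by_contra hc
  push Not at hc
  have h1 : ∑ _j ∈ Finset.range K, u 0 / K < ∑ j ∈ Finset.range K, (u j - u (j + 1)) :=
    Finset.sum_lt_sum_of_nonempty (Finset.nonempty_range_iff.2 hK.ne')
      fun j hj => hc j (Finset.mem_range.1 hj)
  rw [Finset.sum_range_sub', Finset.sum_const, Finset.card_range, nsmul_eq_mul,
    mul_div_cancel₀ _ (by positivity)] at h1
  linarith

theorem step_exp {x y d : ℝ} (hx : 0 ≤ x) (hy : 0 ≤ y) (hd : d ≤ 1) (h : x ≤ 2 * y * d) :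
    Real.exp x ≤ 1 + 2 * y * Real.exp (2 * y) * d := by
  have h1 := Real.add_one_le_exp (-x)
  have h2 : Real.exp (-x) * Real.exp x = 1 := by rw [← Real.exp_add]; simp
  have h3 := Real.exp_pos x
  have h4 : Real.exp x ≤ Real.exp (2 * y) := Real.exp_le_exp.2 (by nlinarith)
  have h5 : Real.exp x ≤ 1 + x * Real.exp x := by nlinarith
  have h6 : x * Real.exp x ≤ 2 * y * d * Real.exp (2 * y) :=
    mul_le_mul h h4 h3.le (hx.trans h)
  linarith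

theorem balance_real (hk : Ker σ m N CK k) (hσ : σ ≠ 0) (h : Half σ k m p e W Z)
    (h' : Half σ k m q e' Z W) (S : ℝ) {ρ : ℝ} (hρ : 0 < ρ) (hρ1 : ρ ≤ 1) :
    MM σ (src e p Z) Z (S - ρ) ≤ MM σ (src e' q W) W S + CK * ρ⁻¹ ^ N
      * ((Phi σ m (src e p Z) S).toReal * (Phi σ m (src e' q W) S).toReal) := by
  have f1 := Phi_ne_top hk hσ h S
  have f2 := Phi_ne_top hk hσ h' S
  have f3 := h'.lm_ne_top hk.m_pos S
  have hCK := hk.CK_pos
  have := ENNReal.toReal_mono (by finiteness) (balance hk h h' S hρ hρ1)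
  rwa [ENNReal.toReal_add f3 (by finiteness), ENNReal.toReal_mul, ENNReal.toReal_mul,
    ENNReal.toReal_ofReal (by positivity)] at this

theorem step_alg {a b α β x y x₀ y₀ x₁ y₁ xt yt u v u' v' u₀ v₀ E F₁ F₂ F₃ lam κ d : ℝ}
    (ha : 0 ≤ a) (ha1 : a ≤ 1) (hb : 0 ≤ b) (hab : a ≤ 1 - b) (hd : 0 ≤ d) (hlam : 0 ≤ lam)
    (hs : 0 < α + β)
    (h1 : α * x + β * y + (1 - a) * u + (1 - b) * v ≤ |α| * (x₁ - x) + |β| * (y₁ - y) + E + F₁)
    (e1 : E ≤ (1 + lam * d) * u' + F₂) (e2 : E ≤ (1 + lam * d) * v' + F₂)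
    (p1 : u' + v' - (u + v) ≤ d * (u₀ + v₀)) (hu : u ≤ u') (hv : v ≤ v') (hu' : u' ≤ u₀)
    (hv' : v' ≤ v₀) (hu0 : 0 ≤ u) (hv0 : 0 ≤ v) (m1 : 2 * d * u₀ ≤ κ * (xt - x₀))
    (m2 : 2 * d * v₀ ≤ κ * (yt - y₀)) (x0 : x₀ ≤ x) (x1 : x ≤ x₁) (x2 : x₁ ≤ xt) (y0 : y₀ ≤ y)
    (y1 : y ≤ y₁) (y2 : y₁ ≤ yt) (b1 : x₀ ≤ y + F₃) (b2 : y₀ ≤ x + F₃) :
    (α + β) / 2 * (x₀ + y₀) ≤ (|α| + |β| + |α - β| + (1 + lam) * κ / 2) * (xt + yt - (x₀ + y₀))
      + F₁ + F₂ + |α - β| / 2 * F₃ := by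
  have a1 := mul_le_mul_of_nonneg_left e1 (show 0 ≤ 1 - a by linarith)
  have a2 := mul_le_mul_of_nonneg_left e2 ha
  have a3 : a * v' ≤ (1 - b) * v' := mul_le_mul_of_nonneg_right hab (by linarith)
  have a4 : (1 - a) * (u' - u) ≤ u' - u := mul_le_of_le_one_left (by linarith) (by linarith)
  have a5 : (1 - b) * (v' - v) ≤ v' - v := mul_le_of_le_one_left (by linarith) (by linarith)
  have ld := mul_nonneg hlam hd
  have a6 : (1 - a) * (lam * d * u') ≤ lam * d * u₀ :=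
    (mul_le_of_le_one_left (mul_nonneg ld (by linarith)) (by linarith)).trans
      (mul_le_mul_of_nonneg_left hu' ld)
  have a7 : a * (lam * d * v') ≤ lam * d * v₀ :=
    (mul_le_of_le_one_left (mul_nonneg ld (by linarith)) ha1).trans
      (mul_le_mul_of_nonneg_left hv' ld)
  have a8 := mul_le_mul_of_nonneg_left (add_le_add m1 m2) (show 0 ≤ 1 + lam by linarith)
  have a9 : |α| * (x₁ - x) ≤ |α| * (xt + yt - (x₀ + y₀)) :=
    mul_le_mul_of_nonneg_left (by linarith) (abs_nonneg _)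
  have a10 : |β| * (y₁ - y) ≤ |β| * (xt + yt - (x₀ + y₀)) :=
    mul_le_mul_of_nonneg_left (by linarith) (abs_nonneg _)
  have a11 : |x - y| ≤ xt + yt - (x₀ + y₀) + F₃ := abs_le.2 ⟨by linarith, by linarith⟩
  have a12 : -((α - β) * (x - y)) ≤ |α - β| * (xt + yt - (x₀ + y₀) + F₃) :=
    (neg_le_abs _).trans ((abs_mul _ _).trans_le (mul_le_mul_of_nonneg_left a11 (abs_nonneg _)))
  have a13 := mul_le_mul_of_nonneg_left (add_le_add x0 y0) hs.le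
  have a14 : 0 ≤ |α - β| * (xt + yt - (x₀ + y₀)) := mul_nonneg (abs_nonneg _) (by linarith)
  linarith

set_option maxHeartbeats 1000000 in
theorem step2 (hk : Ker σ m N CK k) (hσ : σ ≠ 0) (h : Half σ k m p e W Z)
    (h' : Half σ k m q e' Z W) (hs : 0 < e / (p + 1) + e' / (q + 1)) :
    ∃ C γ : ℝ, 0 < C ∧ 0 < γ ∧ ∀ S δ : ℝ, 0 ≤ S → 0 < δ → δ ≤ 1 →
      MM σ (src e p Z) Z S + MM σ (src e' q W) W S
        ≤ C * (MM σ (src e p Z) Z (S + 5 * δ) + MM σ (src e' q W) W (S + 5 * δ)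
          - (MM σ (src e p Z) Z S + MM σ (src e' q W) W S))
          + C * δ⁻¹ ^ (2 * N + 2) * Real.exp (-(γ * S)) := by
  have hm := hk.m_pos
  have hp := h.p_pos
  have hq := h'.p_pos
  have hCK := hk.CK_pos
  have hpq := one_lt_pq hk hσ h h'
  obtain ⟨CP, γ, hCP, hγ, hP⟩ := Phi_prod hk hσ h h' hs
  have S1 := @step1 _ _ _ _ _ _ _ _ _ _ _ _ _ _ _ _ _ hk hσ h h'
  have E1 := fun c₀ ρ l a b c => (@EE_real _ _ _ _ _ _ _ _ _ _ _ _ _ _ _ _ _ hk hσ h h' c₀ ρ l a b c).2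
  have E2 := fun c₀ ρ l a b c => (@EE_real _ _ _ _ _ _ _ _ _ _ _ _ _ _ _ _ _ hk hσ h' h c₀ ρ l a b c).2
  simp only [← EE_symm hk h.cont_src h'.cont_src] at E2
  have N1 := fun c₀ l => h.mf_nonneg c₀ (l := l)
  have N2 := fun c₀ l => h'.mf_nonneg c₀ (l := l)
  have A1 := fun c₀ l l' => h.mf_anti c₀ (l := l) (l' := l')
  have A2 := fun c₀ l l' => h'.mf_anti c₀ (l := l) (l' := l')
  have L1 := fun c₀ l => h.mf_le hm c₀ (l := l)
  have L2 := fun c₀ l => h'.mf_le hm c₀ (l := l)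
  have M1 := h.MM_mono hm
  have M2 := h'.MM_mono hm
  have B1 := fun S ρ => balance_real hk hσ h h' S (ρ := ρ)
  have B2 := fun S ρ => balance_real hk hσ h' h S (ρ := ρ)
  have G1 := fun c₀ l l₀ a b c => (h.HH_real hk hσ c₀ (l := l) (l₀ := l₀) a b c).2
  have G2 := fun c₀ l l₀ a b c => (h'.HH_real hk hσ c₀ (l := l) (l₀ := l₀) a b c).2
  generalize MM σ (src e p Z) Z = Mf at *
  generalize MM σ (src e' q W) W = Mg at *
  generalize mf σ e p Z = uf at *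
  generalize mf σ e' q W = ug at *
  generalize HH σ (src e p Z) = Hf at *
  generalize HH σ (src e' q W) = Hg at *
  generalize Phi σ m (src e p Z) = Pf at *
  generalize Phi σ m (src e' q W) = Pg at *
  generalize EE σ k (src e p Z) (src e' q W) = E at *
  clear h h' hk hσ
  obtain ⟨κ, hκ⟩ : ∃ κ, κ = |e| / p + |e'| / q := ⟨_, rfl⟩
  have k1 : 0 ≤ |e| / p := by positivity
  have k2 : 0 ≤ |e'| / q := by positivity
  have hκ0 : 0 ≤ κ := by rw [hκ]; positivity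
  obtain ⟨α, hα⟩ : ∃ α, α = e / (p + 1) := ⟨_, rfl⟩
  obtain ⟨β, hβ⟩ : ∃ β, β = e' / (q + 1) := ⟨_, rfl⟩
  rw [← hα, ← hβ] at hs
  obtain ⟨C₁, hC₁⟩ : ∃ C₁, C₁ = |α| + |β| + |α - β|
    + (1 + 2 * κ * Real.exp (2 * κ)) * Real.exp κ / 2 := ⟨_, rfl⟩
  obtain ⟨C₂, hC₂⟩ : ∃ C₂, C₂ = CK * 8 ^ N * CP * (Real.exp (m * 3) * (2 * Real.exp m)
    + 2 / m * (Real.exp m * Real.exp m) + |α - β| / 2) := ⟨_, rfl⟩
  have hC₁0 : 0 < C₁ := by rw [hC₁]; positivity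
  have hC₂0 : 0 < C₂ := by rw [hC₂]; positivity
  refine ⟨2 / (α + β) * (C₁ + C₂), γ, by positivity, hγ, fun S d hS hd hd1 => ?_⟩
  obtain ⟨y, hy⟩ : ∃ y, y = d⁻¹ := ⟨_, rfl⟩
  have hy1 : 1 ≤ y := by rw [hy]; exact (one_le_inv₀ hd).2 hd1
  have hdy : d * y = 1 := by rw [hy]; field_simp
  obtain ⟨K, hK⟩ : ∃ K : ℕ, K = ⌈y⌉₊ := ⟨_, rfl⟩
  have hK1 : y ≤ K := hK ▸ Nat.le_ceil y
  have hK2 : (K : ℝ) ≤ 2 * y := by
    have := Nat.ceil_lt_add_one (show 0 ≤ y by linarith)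
    rw [hK]; linarith
  have hK0 : (0 : ℝ) < K := by linarith
  obtain ⟨ρ, hρ⟩ : ∃ ρ, ρ = d / (2 * K) := ⟨_, rfl⟩
  have hρ0 : 0 < ρ := by rw [hρ]; positivity
  have hρK : 2 * ρ * K = d := by rw [hρ]; field_simp
  have hρd : 2 * ρ ≤ d := by nlinarith
  have hρ1 : ρ ≤ 1 := by linarith
  have hρi : (ρ / 2)⁻¹ ≤ 8 * y ^ 2 := by
    have : (ρ / 2)⁻¹ = 4 * K * y := by rw [hρ, hy]; field_simp; ring
    rw [this]; nlinarith
  have hρi' : ρ⁻¹ ≤ 8 * y ^ 2 := (inv_anti₀ (by positivity) (by linarith)).trans hρi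
  obtain ⟨c₀, hc₀⟩ : ∃ c₀, c₀ = S + 3 * d := ⟨_, rfl⟩
  obtain ⟨j, hj, hpig⟩ := step_pigeon (fun j : ℕ => uf c₀ (d + 2 * ρ * j)
    + ug c₀ (d + 2 * ρ * j)) (K := K) (by exact_mod_cast hK0)
    (add_nonneg (N1 _ _ (by positivity)) (N2 _ _ (by positivity)))
  obtain ⟨δ, hδ⟩ : ∃ δ, δ = d + 2 * ρ * (j + 1 : ℕ) := ⟨_, rfl⟩
  have hj0 : (0 : ℝ) ≤ 2 * ρ * j := by positivity
  have hδ1 : δ - ρ - ρ = d + 2 * ρ * j := by rw [hδ]; push_cast; ring
  have hδ2 : δ ≤ 2 * d := by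
    have : ((j + 1 : ℕ) : ℝ) ≤ K := by exact_mod_cast hj
    have := mul_le_mul_of_nonneg_left this (show 0 ≤ 2 * ρ by linarith)
    rw [hδ]; linarith
  simp only [Nat.cast_zero, mul_zero, add_zero] at hpig
  rw [← hδ, ← hδ1] at hpig
  have s1 := S1 c₀ (δ := δ) hρ0 hρ1 (by linarith)
  have e1 := E1 c₀ _ _ hρ0 hρ1 (show ρ ≤ δ - ρ by linarith)
  have e2 := E2 c₀ _ _ hρ0 hρ1 (show ρ ≤ δ - ρ by linarith)
  rw [mul_comm (Hg c₀ (δ - ρ)).toReal] at e2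
  have k3 : |e| / p ≤ κ := by linarith
  have k4 : |e'| / q ≤ κ := by linarith
  have k5 : 0 ≤ δ - ρ := by linarith
  have k6 : δ - ρ ≤ 2 * d := by linarith
  have x1 := step_exp (mul_nonneg k1 k5) hκ0 hd1
    ((mul_le_mul k3 k6 k5 hκ0).trans_eq (by ring))
  have x2 := step_exp (mul_nonneg k2 k5) hκ0 hd1
    ((mul_le_mul k4 k6 k5 hκ0).trans_eq (by ring))
  have n1 := N1 c₀ _ (show 0 ≤ δ - ρ - ρ by linarith)
  have n2 := N2 c₀ _ (show 0 ≤ δ - ρ - ρ by linarith)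
  have n3 := N1 c₀ _ hd.le
  have n4 := N2 c₀ _ hd.le
  have w1 : 2 * d * uf c₀ d
      ≤ Real.exp κ * (Mf (S + 5 * d) - Mf S) :=
    (L1 c₀ _ hd.le).trans (mul_le_mul (Real.exp_le_exp.2 ((mul_le_of_le_one_right k1 hd1).trans k3))
      (sub_le_sub (M1 (by linarith)) (M1 (by linarith))) (sub_nonneg.2 (M1 (by linarith)))
      (Real.exp_pos _).le)
  have w2 : 2 * d * ug c₀ d
      ≤ Real.exp κ * (Mg (S + 5 * d) - Mg S) :=
    (L2 c₀ _ hd.le).trans (mul_le_mul (Real.exp_le_exp.2 ((mul_le_of_le_one_right k2 hd1).trans k4))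
      (sub_le_sub (M2 (by linarith)) (M2 (by linarith))) (sub_nonneg.2 (M2 (by linarith)))
      (Real.exp_pos _).le)
  have b1 := (M1 (show S ≤ c₀ - δ - ρ by linarith)).trans (B1 _ _ hρ0 hρ1)
  have b2 := (M2 (show S ≤ c₀ - δ - ρ by linarith)).trans (B2 _ _ hρ0 hρ1)
  rw [mul_comm (Pg (c₀ - δ)).toReal] at b2
  have r1 : p / (p + 1) = 1 - 1 / (p + 1) := by field_simp; ring
  have r2 : q / (q + 1) = 1 - 1 / (q + 1) := by field_simp; ring
  have r3 : |e| / (p + 1) = |α| := by rw [hα, abs_div, abs_of_pos (by linarith : 0 < p + 1)]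
  have r4 : |e'| / (q + 1) = |β| := by rw [hβ, abs_div, abs_of_pos (by linarith : 0 < q + 1)]
  rw [r1, r2, r3, r4, ← hα, ← hβ] at s1
  have key := step_alg (by positivity) ((div_le_one (by linarith)).2 (by linarith))
    (by positivity)
    (by rw [← r2, div_le_div_iff₀ (by linarith) (by linarith)]; linarith) hd.le
    (show 0 ≤ 2 * κ * Real.exp (2 * κ) by positivity) hs s1
    (e1.trans (add_le_add (mul_le_mul_of_nonneg_right x1 n1) le_rfl))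
    (e2.trans (add_le_add (mul_le_mul_of_nonneg_right x2 n2) le_rfl))
    (hpig.trans (by
      rw [div_le_iff₀ hK0, mul_right_comm]
      exact le_mul_of_one_le_left (add_nonneg n3 n4)
        (hdy.symm.trans_le (mul_le_mul_of_nonneg_left hK1 hd.le))))
    (A1 c₀ _ _ (by linarith) (by linarith)) (A2 c₀ _ _ (by linarith) (by linarith))
    (A1 c₀ _ _ hd.le (by linarith)) (A2 c₀ _ _ hd.le (by linarith))
    (N1 c₀ _ (by linarith)) (N2 c₀ _ (by linarith)) w1 w2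
    (M1 (by linarith)) (M1 (by linarith)) (M1 (by linarith))
    (M2 (by linarith)) (M2 (by linarith)) (M2 (by linarith)) b1 b2
  rw [← hC₁] at key
  obtain ⟨X, hX⟩ : ∃ X, X = Real.exp (-(γ * S)) := ⟨_, rfl⟩
  have hX0 : 0 < X := hX ▸ Real.exp_pos _
  have P1 : ∀ s, S ≤ s → (Pf s).toReal * (Pg s).toReal
      ≤ CP * X := fun s hs => (hP s).trans (by
    rw [hX]; exact mul_le_mul_of_nonneg_left (Real.exp_le_exp.2
      (neg_le_neg (mul_le_mul_of_nonneg_left hs hγ.le))) hCP.le)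
  have P2 := P1 c₀ (by linarith)
  have P3 := P1 (c₀ - δ) (by linarith)
  have H1 := G1 c₀ _ _ hd hd1 (show d ≤ δ by linarith)
  have H2 := G2 c₀ _ _ hd hd1 (show d ≤ δ by linarith)
  have H3 := G1 c₀ _ _ hd hd1 (show d ≤ δ - ρ by linarith)
  have H4 := G2 c₀ _ _ hd hd1 (show d ≤ δ - ρ by linarith)
  rw [← hy] at H1 H2 H3 H4
  rw [← hy, ← hX]
  have hy2 : y ≤ y ^ 2 := le_self_pow₀ hy1 two_ne_zero
  have hy3 : 1 ≤ y ^ 2 := one_le_pow₀ hy1
  have q1 : (0 : ℝ) ≤ (Pf c₀).toReal := ENNReal.toReal_nonneg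
  have q2 : (0 : ℝ) ≤ (Pg c₀).toReal := ENNReal.toReal_nonneg
  have F1 : CK * (ρ / 2)⁻¹ ^ N * Real.exp (m * (δ + 1))
      * ((Hf c₀ δ).toReal * (Pg c₀).toReal
        + (Hg c₀ δ).toReal * (Pf c₀).toReal)
      ≤ CK * (8 * y ^ 2) ^ N * Real.exp (m * 3) * (2 * Real.exp m * y ^ 2 * (CP * X)) := by
    have z1 := mul_le_mul_of_nonneg_right H1 q2
    have z2 := mul_le_mul_of_nonneg_right H2 q1
    have z3 : Real.exp m * y * ((Pf c₀).toReal
        * (Pg c₀).toReal) ≤ Real.exp m * y ^ 2 * (CP * X) := by gcongr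
    refine mul_le_mul ?_ (by linarith) (by positivity) (by positivity)
    gcongr
    linarith
  have F2 : CK * ρ⁻¹ ^ N * (2 / m) * ((Hf c₀ (δ - ρ)).toReal
      * (Hg c₀ (δ - ρ)).toReal)
      ≤ CK * (8 * y ^ 2) ^ N * (2 / m) * (Real.exp m * Real.exp m * y ^ 2 * (CP * X)) := by
    have z1 := mul_le_mul H3 H4 ENNReal.toReal_nonneg (by positivity)
    have z3 : Real.exp m * Real.exp m * y ^ 2 * ((Pf c₀).toReal
        * (Pg c₀).toReal) ≤ Real.exp m * Real.exp m * y ^ 2 * (CP * X) := by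
      gcongr
    refine mul_le_mul ?_ (by linarith) (by positivity) (by positivity)
    gcongr
  have F3 : |α - β| / 2 * (CK * ρ⁻¹ ^ N * ((Pf (c₀ - δ)).toReal
      * (Pg (c₀ - δ)).toReal))
      ≤ |α - β| / 2 * (CK * (8 * y ^ 2) ^ N * (y ^ 2 * (CP * X))) := by
    refine mul_le_mul_of_nonneg_left (mul_le_mul ?_
      (P3.trans (le_mul_of_one_le_left (by positivity) hy3)) (by positivity) (by positivity))
      (by positivity)
    gcongr
  have F4 : CK * (8 * y ^ 2) ^ N * Real.exp (m * 3) * (2 * Real.exp m * y ^ 2 * (CP * X))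
      + CK * (8 * y ^ 2) ^ N * (2 / m) * (Real.exp m * Real.exp m * y ^ 2 * (CP * X))
      + |α - β| / 2 * (CK * (8 * y ^ 2) ^ N * (y ^ 2 * (CP * X)))
      = C₂ * (y ^ (2 * N + 2) * X) := by
    rw [hC₂, mul_pow, ← pow_mul]; ring
  have hΔ : 0 ≤ Mf (S + 5 * d) + Mg (S + 5 * d)
      - (Mf S + Mg S) := by
    have := M1 (show S ≤ S + 5 * d by linarith)
    have := M2 (show S ≤ S + 5 * d by linarith)
    linarith
  have g1 := mul_nonneg hC₂0.le hΔ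
  have g2 : 0 ≤ C₁ * (y ^ (2 * N + 2) * X) := by positivity
  refine le_of_mul_le_mul_left ?_ (show 0 < (α + β) / 2 by linarith)
  have g3 : ∀ a b c : ℝ, (α + β) / 2 * (2 / (α + β) * a * b + 2 / (α + β) * a * c * X)
      = a * b + a * (c * X) := by
    intro a b c; field_simp
  rw [g3]
  linarith

/-- The Liouville theorem on the cylinder. -/
theorem cyl_false (hk : Ker σ m N CK k) (hσ : σ ≠ 0) (h : Half σ k m p e W Z)
    (h' : Half σ k m q e' Z W) (hs : 0 < e / (p + 1) + e' / (q + 1)) : False := by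
  obtain ⟨C, γ, hC, hγ, hM⟩ := step2 hk hσ h h' hs
  exact ode_false (M := fun S => MM σ (src e p Z) Z S + MM σ (src e' q W) W S)
    ((h.MM_mono hk.m_pos).add (h'.MM_mono hk.m_pos))
    (add_pos (h.MM_pos hk.m_pos hσ 0) (h'.MM_pos hk.m_pos hσ 0)) hC hγ hM

end Vale.Agent.P100
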